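import Vale.Agent.Lib.P064U.WDefs

/-!
Part W7a: components.
-/

open Finset

namespace Vale.Agent.Lib.P064U

open Vale.Agent.Lib.P064 Vale.Agent.Lib.P064E
open scoped Classical

variable {V : Type} [Fintype V] {H : SimpleGraph V} {n : ℕ}

/-- Edges split along a set with no edges leaving it. -/
private lemma eIn_split {β : Type} [Fintype β] (G : SimpleGraph β) (D : Finset β)
    (hD : ∀ u ∈ D, ∀ w, w ∉ D → ¬ G.Adj u w) :
    (eIn G univ).card = (eIn (G.comap (Subtype.val : {x // x ∈ D} → β)) univ).card +
      (eIn (G.comap (Subtype.val : {x // x ∉ D} → β)) univ).card := by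
  have himg : eIn G univ =
      (eIn (G.comap (Subtype.val : {x // x ∈ D} → β)) univ).image (Sym2.map Subtype.val) ∪
      (eIn (G.comap (Subtype.val : {x // x ∉ D} → β)) univ).image (Sym2.map Subtype.val) := by
    ext e
    induction e using Sym2.ind with
    | _ u v =>
      rw [mem_eIn_pair, Finset.mem_union]
      constructor
      · rintro ⟨huv, -, -⟩
        by_cases hu : u ∈ D
        · left
          have hv : v ∈ D := by
            by_contra hv
            exact hD u hu v hv huv
          refine Finset.mem_image.2 ⟨s(⟨u, hu⟩, ⟨v, hv⟩), ?_, by simp⟩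
          exact mem_eIn_pair.2 ⟨by simpa using huv, mem_univ _, mem_univ _⟩
        · right
          have hv : v ∉ D := by
            intro hv
            exact hD v hv u hu huv.symm
          refine Finset.mem_image.2 ⟨s(⟨u, hu⟩, ⟨v, hv⟩), ?_, by simp⟩
          exact mem_eIn_pair.2 ⟨by simpa using huv, mem_univ _, mem_univ _⟩
      · rintro (h | h)
        · obtain ⟨e', he', heq⟩ := Finset.mem_image.1 h
          induction e' using Sym2.ind with
          | _ a b =>
            have hab := (mem_eIn_pair.1 he').1
            refine ⟨?_, mem_univ _, mem_univ _⟩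
            rw [Sym2.map_mk] at heq
            have hab' : G.Adj a.1 b.1 := by simpa using hab
            rcases Sym2.eq_iff.1 heq with ⟨h1, h2⟩ | ⟨h1, h2⟩
            · rw [← h1, ← h2]; exact hab'
            · rw [← h1, ← h2]; exact hab'.symm
        · obtain ⟨e', he', heq⟩ := Finset.mem_image.1 h
          induction e' using Sym2.ind with
          | _ a b =>
            have hab := (mem_eIn_pair.1 he').1
            refine ⟨?_, mem_univ _, mem_univ _⟩
            rw [Sym2.map_mk] at heq
            have hab' : G.Adj a.1 b.1 := by simpa using hab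
            rcases Sym2.eq_iff.1 heq with ⟨h1, h2⟩ | ⟨h1, h2⟩
            · rw [← h1, ← h2]; exact hab'
            · rw [← h1, ← h2]; exact hab'.symm
  have hdisj : Disjoint
      ((eIn (G.comap (Subtype.val : {x // x ∈ D} → β)) univ).image (Sym2.map Subtype.val))
      ((eIn (G.comap (Subtype.val : {x // x ∉ D} → β)) univ).image (Sym2.map Subtype.val)) := by
    refine Finset.disjoint_left.2 ?_
    intro e h1 h2
    obtain ⟨e1, -, heq1⟩ := Finset.mem_image.1 h1
    obtain ⟨e2, -, heq2⟩ := Finset.mem_image.1 h2
    induction e1 using Sym2.ind with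
    | _ a b =>
      induction e2 using Sym2.ind with
      | _ c d =>
        rw [Sym2.map_mk] at heq1 heq2
        have h3 : (a : β) ∈ s((c : β), (d : β)) := by
          rw [heq2, ← heq1]; exact Sym2.mem_mk_left _ _
        rcases Sym2.mem_iff.1 h3 with h4 | h4
        · exact c.2 (h4 ▸ a.2)
        · exact d.2 (h4 ▸ a.2)
  rw [himg, Finset.card_union_of_disjoint hdisj,
    Finset.card_image_of_injective _ (Sym2.map.injective Subtype.val_injective),
    Finset.card_image_of_injective _ (Sym2.map.injective Subtype.val_injective)]

/-- A bound per edge for connected graphs is a bound per edge for all graphs without isolated vertices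
(strong induction on the number of vertices; split along `D`, a set with no edges leaving it; use `G.induce`;
`emb G H` injects into the product; edges add up). -/
theorem emb_components {Bd : ℝ} (hBd : 0 ≤ Bd)
    (hconn : ∀ (γ : Type) [Fintype γ] (G' : SimpleGraph γ), Nonempty γ → (∀ x, ∃ y, G'.Adj x y) →
      (∀ D : Finset γ, D.Nonempty → D ≠ univ → ∃ u ∈ D, ∃ w, w ∉ D ∧ G'.Adj u w) →
      ((emb G' H).card : ℝ) ≤ Bd ^ (eIn G' univ).card * (n : ℝ) ^ Fintype.card γ)
    (β : Type) [Fintype β] (G : SimpleGraph β) (hiso : ∀ x, ∃ y, G.Adj x y) :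
    ((emb G H).card : ℝ) ≤ Bd ^ (eIn G univ).card * (n : ℝ) ^ Fintype.card β := by
  have key : ∀ k : ℕ, ∀ (β : Type) [Fintype β] (G : SimpleGraph β), Fintype.card β = k →
      (∀ x, ∃ y, G.Adj x y) →
      ((emb G H).card : ℝ) ≤ Bd ^ (eIn G univ).card * (n : ℝ) ^ Fintype.card β := by
    intro k
    induction k using Nat.strong_induction_on with
    | _ k ih =>
      intro β _ G hk hiso
      rcases isEmpty_or_nonempty β with hemp | hne
      · have h1 : (emb G H).card ≤ 1 := by
          refine Finset.card_le_one.2 ?_
          intro a _ b _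
          funext x
          exact isEmptyElim x
        have h2 : (eIn G univ).card = 0 := by
          refine Finset.card_eq_zero.2 (Finset.eq_empty_of_forall_notMem ?_)
          intro e
          induction e using Sym2.ind with
          | _ u v => exact isEmptyElim u
        have h3 : Fintype.card β = 0 := Fintype.card_eq_zero
        rw [h2, h3]
        simpa using h1
      · by_cases hc : ∀ D : Finset β, D.Nonempty → D ≠ univ → ∃ u ∈ D, ∃ w, w ∉ D ∧ G.Adj u w
        · exact hconn β G hne hiso hc
        · push Not at hc
          obtain ⟨D, hDne, hDu, hD⟩ := hc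
          have hD' : ∀ u ∈ D, ∀ w, w ∉ D → ¬ G.Adj u w := fun u hu w hw => hD u hu w hw
          set G₁ := G.comap (Subtype.val : {x // x ∈ D} → β) with hG₁
          set G₂ := G.comap (Subtype.val : {x // x ∉ D} → β) with hG₂
          have hcard : Fintype.card {x // x ∈ D} + Fintype.card {x // x ∉ D} = Fintype.card β := by
            rw [← Fintype.card_sum]
            exact Fintype.card_congr (Equiv.sumCompl (fun x => x ∈ D))
          have h1pos : 0 < Fintype.card {x // x ∉ D} := by
            obtain ⟨y, hy⟩ : ∃ y, y ∉ D := by
              by_contra hall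
              push Not at hall
              exact hDu (Finset.eq_univ_iff_forall.2 hall)
            exact Fintype.card_pos_iff.2 ⟨⟨y, hy⟩⟩
          have h2pos : 0 < Fintype.card {x // x ∈ D} := by
            obtain ⟨y, hy⟩ := hDne
            exact Fintype.card_pos_iff.2 ⟨⟨y, hy⟩⟩
          have iso1 : ∀ x, ∃ y, G₁.Adj x y := by
            intro x
            obtain ⟨y, hy⟩ := hiso x.1
            have hyD : y ∈ D := by
              by_contra h
              exact hD' x.1 x.2 y h hy
            exact ⟨⟨y, hyD⟩, by simpa [hG₁] using hy⟩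
          have iso2 : ∀ x, ∃ y, G₂.Adj x y := by
            intro x
            obtain ⟨y, hy⟩ := hiso x.1
            have hyD : y ∉ D := by
              intro h
              exact hD' y h x.1 x.2 hy.symm
            exact ⟨⟨y, hyD⟩, by simpa [hG₂] using hy⟩
          have b1 := ih _ (by omega) {x // x ∈ D} G₁ rfl iso1
          have b2 := ih _ (by omega) {x // x ∉ D} G₂ rfl iso2
          have hinj : (emb G H).card ≤ ((emb G₁ H) ×ˢ (emb G₂ H)).card := by
            refine Finset.card_le_card_of_injOn
              (fun φ => (fun x : {x // x ∈ D} => φ x.1, fun x : {x // x ∉ D} => φ x.1)) ?_ ?_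
            · intro φ hφ
              have hφ' := mem_emb.1 (Finset.mem_coe.1 hφ)
              refine Finset.mem_coe.2 (Finset.mem_product.2 ⟨?_, ?_⟩)
              · refine mem_emb.2 ⟨fun a b hab => Subtype.ext (hφ'.1 hab), ?_⟩
                intro u v huv
                exact hφ'.2 _ _ (by simpa [hG₁] using huv)
              · refine mem_emb.2 ⟨fun a b hab => Subtype.ext (hφ'.1 hab), ?_⟩
                intro u v huv
                exact hφ'.2 _ _ (by simpa [hG₂] using huv)
            · intro φ _ φ' _ h
              funext x
              have h1 := congrArg Prod.fst h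
              have h2 := congrArg Prod.snd h
              by_cases hx : x ∈ D
              · exact congrFun h1 ⟨x, hx⟩
              · exact congrFun h2 ⟨x, hx⟩
          rw [Finset.card_product] at hinj
          have hinjR : ((emb G H).card : ℝ) ≤ ((emb G₁ H).card : ℝ) * ((emb G₂ H).card : ℝ) := by
            exact_mod_cast hinj
          have hn0 : (0 : ℝ) ≤ (n : ℝ) := Nat.cast_nonneg n
          have hB1 : 0 ≤ Bd ^ (eIn G₁ univ).card * (n : ℝ) ^ Fintype.card {x // x ∈ D} :=
            mul_nonneg (pow_nonneg hBd _) (pow_nonneg hn0 _)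
          calc ((emb G H).card : ℝ) ≤ ((emb G₁ H).card : ℝ) * ((emb G₂ H).card : ℝ) := hinjR
            _ ≤ (Bd ^ (eIn G₁ univ).card * (n : ℝ) ^ Fintype.card {x // x ∈ D}) *
                (Bd ^ (eIn G₂ univ).card * (n : ℝ) ^ Fintype.card {x // x ∉ D}) :=
                mul_le_mul b1 b2 (Nat.cast_nonneg _) hB1
            _ = Bd ^ (eIn G univ).card * (n : ℝ) ^ Fintype.card β := by
                rw [eIn_split G D hD', ← hcard, pow_add, pow_add]
                ring
  exact key _ β G rfl hiso

end Vale.Agent.Lib.P064U
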