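import Vale.Agent.Lib.P064E.Facts
import Vale.Agent.Lib.P064S.Degree
import Vale.Agent.Lib.P064S.Tree

/-!
Part W of the uniform bound: definitions.  See notes/P064U_blueprint.md.
-/

open Finset

namespace Vale.Agent.Lib.P064U

open Vale.Agent.Lib.P064 Vale.Agent.Lib.P064E
open scoped Classical

variable {V β : Type}

/-- The neighbours of a vertex. -/
noncomputable def nb [Fintype V] (H : SimpleGraph V) (w : V) : Finset V :=
  univ.filter fun u => H.Adj w u

lemma mem_nb [Fintype V] {H : SimpleGraph V} {w u : V} : u ∈ nb H w ↔ H.Adj w u := by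
  simp [nb]

/-- The decorated graph: `p` pendant vertices at each vertex of `D`. -/
def deco (G : SimpleGraph β) (D : Finset β) (p : ℕ) : SimpleGraph (β ⊕ (↥D × Fin p)) where
  Adj a b := match a, b with
    | Sum.inl x, Sum.inl y => G.Adj x y
    | Sum.inl x, Sum.inr c => x = c.1.1
    | Sum.inr c, Sum.inl x => x = c.1.1
    | Sum.inr _, Sum.inr _ => False
  symm := ⟨by
    rintro (x | c) (y | d) h
    · exact SimpleGraph.Adj.symm h
    · exact h
    · exact h
    · exact h⟩
  loopless := ⟨by
    rintro (x | c) h
    · exact G.loopless.1 x h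
    · exact h⟩

/-- The undecorated leaves of `G` attached to `x`. -/
noncomputable def twins [Fintype β] (G : SimpleGraph β) (D : Finset β) (x : β) : Finset β :=
  (nb G x).filter fun y => (nb G y).card = 1 ∧ y ∉ D

end Vale.Agent.Lib.P064U
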