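import Vale.Agent.Lib.P064U.WConn
import Vale.Agent.Lib.P064U.WComp

/-!
Part W7: components and the embedding bound.
-/

open Finset

namespace Vale.Agent.Lib.P064U

open Vale.Agent.Lib.P064 Vale.Agent.Lib.P064E
open scoped Classical

variable {V : Type} [Fintype V] {H : SimpleGraph V} {n : ℕ} {q l lam : ℝ}

/-- The embedding bound for the window: `EmbBound` with `Θ = C K q`, for an absolute constant `C`: use `conn_bound`, `v ≤ 2 e`
(`vertices_le_darts`, `darts_card_le`), `emb_components`, `pow_le_exp_descFactorial`.  `C = exp 40` suffices? Any explicit value. -/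
theorem embBound_window (hG : GoodDensity n q H) {τ Δ K : ℝ} {p d₀ : ℕ} (hV : Fintype.card V ≤ n)
    (hpar : WPar n q l lam τ Δ K p d₀) : EmbBound n H (Real.exp 40 * K * q) := by
  intro β _ G hiso hvn
  have hq0 : 0 < q := hpar.std.q0
  have hK0 : 0 < K := by linarith [hpar.τK, hpar.τ32]
  have hn0 : (0 : ℝ) ≤ n := Nat.cast_nonneg _
  have hBd : 0 ≤ Real.exp 21 * K * q := by positivity
  have hmain : ((emb G H).card : ℝ) ≤
      (Real.exp 21 * K * q) ^ (eIn G univ).card * (n : ℝ) ^ Fintype.card β := by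
    refine emb_components (H := H) (n := n) hBd ?_ β G hiso
    intro γ _ G' hne hiso' hconn
    haveI := hne
    have h := conn_bound (H := H) hG hV hpar G' hconn
    refine h.trans ?_
    set e := (eIn G' univ).card with he
    set v := Fintype.card γ with hv
    have hve : v ≤ 2 * e := (vertices_le_darts hiso').trans darts_card_le
    have hve' : (v : ℝ) ≤ 2 * (e : ℝ) := by exact_mod_cast hve
    have hf : Real.exp (8 * (v : ℝ) + 5 * (e : ℝ)) ≤ Real.exp 21 ^ e := by
      rw [← Real.exp_nat_mul]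
      apply Real.exp_le_exp.2
      linarith
    have hnq : 0 ≤ K ^ e * ((n : ℝ) ^ v * q ^ e) := by positivity
    calc Real.exp (8 * (v : ℝ) + 5 * (e : ℝ)) * K ^ e * ((n : ℝ) ^ v * q ^ e)
        = Real.exp (8 * (v : ℝ) + 5 * (e : ℝ)) * (K ^ e * ((n : ℝ) ^ v * q ^ e)) := by ring
      _ ≤ Real.exp 21 ^ e * (K ^ e * ((n : ℝ) ^ v * q ^ e)) :=
          mul_le_mul_of_nonneg_right hf hnq
      _ = (Real.exp 21 * K * q) ^ e * (n : ℝ) ^ v := by
          rw [mul_pow, mul_pow]
          ring
  refine hmain.trans ?_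
  set e := (eIn G univ).card with he
  set v := Fintype.card β with hv
  have hve : v ≤ 2 * e := (vertices_le_darts hiso).trans darts_card_le
  have hnd := pow_le_exp_descFactorial hvn
  set d : ℝ := (n.descFactorial v : ℝ) with hd
  have hd0 : 0 ≤ d := Nat.cast_nonneg _
  have hE1 : 1 ≤ Real.exp 1 := Real.one_le_exp (by norm_num)
  have hpow : Real.exp 1 ^ v ≤ Real.exp 2 ^ e := by
    have h1 : Real.exp 2 ^ e = Real.exp 1 ^ (2 * e) := by
      have h0 : Real.exp 2 = Real.exp 1 ^ 2 := by
        rw [← Real.exp_nat_mul]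
        norm_num
      rw [h0, ← pow_mul]
    rw [h1]
    exact pow_le_pow_right₀ hE1 hve
  have hb0 : 0 ≤ (Real.exp 21 * K * q) ^ e := by positivity
  calc (Real.exp 21 * K * q) ^ e * (n : ℝ) ^ v
      ≤ (Real.exp 21 * K * q) ^ e * (Real.exp 1 ^ v * d) :=
        mul_le_mul_of_nonneg_left hnd hb0
    _ ≤ (Real.exp 21 * K * q) ^ e * (Real.exp 2 ^ e * d) := by
        gcongr
    _ = (Real.exp 23 * K * q) ^ e * d := by
        have h16 : Real.exp 23 = Real.exp 21 * Real.exp 2 := by
          rw [← Real.exp_add]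
          norm_num
        rw [h16]
        have : Real.exp 21 * Real.exp 2 * K * q = (Real.exp 21 * K * q) * Real.exp 2 := by ring
        rw [this, mul_pow]
        ring
    _ ≤ (Real.exp 40 * K * q) ^ e * d := by
        have h : Real.exp 23 ≤ Real.exp 40 := Real.exp_le_exp.2 (by norm_num)
        gcongr

end Vale.Agent.Lib.P064U
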