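import Vale.Agent.Lib.P064U.WPar

/-!
Part W8: the numeric parameters.
-/

open Finset

namespace Vale.Agent.Lib.P064U

open Vale.Agent.Lib.P064 Vale.Agent.Lib.P064E
open scoped Classical

/-- The gain inequality `N5` in a form free of logarithms (both factors are at most `√(x^p)`). -/
private lemma n5_core {x D Δ : ℝ} {p d₀ : ℕ} (hx : 0 < x) (hD : 0 ≤ D) (hΔ0 : 0 ≤ Δ)
    (hY : Real.exp (2 * (D * x)) ≤ x ^ p)
    (hX : ((1 + (p : ℝ)) * Δ ^ (d₀ + 1)) ^ 2 ≤ x ^ p) :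
    (1 + (p : ℝ)) * (D ^ p / p.factorial) * Δ ^ (d₀ + 1) ≤ 1 := by
  set X : ℝ := (1 + (p : ℝ)) * Δ ^ (d₀ + 1) with hXdef
  set Y : ℝ := Real.exp (D * x) with hYdef
  set Z : ℝ := x ^ p with hZ
  have hZ0 : 0 < Z := by positivity
  have hX0 : 0 ≤ X := by positivity
  have hY0 : 0 < Y := Real.exp_pos _
  have hfac : D ^ p / p.factorial ≤ Y / Z := by
    have h := Real.pow_div_factorial_le_exp (D * x) (by positivity) p
    rw [le_div_iff₀ hZ0]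
    calc D ^ p / p.factorial * Z = (D * x) ^ p / p.factorial := by
          rw [hZ, mul_pow]; ring
      _ ≤ Y := h
  have hY2 : Y ^ 2 ≤ Z := by
    have h3 : Y ^ 2 = Real.exp (2 * (D * x)) := by
      rw [hYdef, ← Real.exp_nat_mul]; norm_num
    rw [h3]
    exact hY
  have hXY : X * Y ≤ Z := by
    have h4 : (X * Y) ^ 2 ≤ Z ^ 2 := by
      calc (X * Y) ^ 2 = X ^ 2 * Y ^ 2 := by ring
        _ ≤ Z * Z := by gcongr
        _ = Z ^ 2 := by ring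
    exact (sq_le_sq₀ (by positivity) hZ0.le).1 h4
  calc (1 + (p : ℝ)) * (D ^ p / p.factorial) * Δ ^ (d₀ + 1)
      = X * (D ^ p / p.factorial) := by rw [hXdef]; ring
    _ ≤ X * (Y / Z) := by gcongr
    _ = X * Y / Z := by ring
    _ ≤ 1 := by rw [div_le_one hZ0]; exact hXY

private lemma aux_u {l : ℝ} (hl : 10 ^ 12 ≤ l) :
    ∃ u : ℝ, l ^ ((1 : ℝ) / 2) = u ^ 2 ∧ l = u ^ 4 ∧ 1000 ≤ u := by
  have hl0 : 0 < l := by
    have : (0 : ℝ) < 10 ^ 12 := by norm_num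
    linarith
  have hu3 : l ^ ((1 : ℝ) / 2) = (l ^ ((1 : ℝ) / 4)) ^ 2 := by
    rw [← Real.rpow_natCast, ← Real.rpow_mul hl0.le]; norm_num
  have hu4 : (l ^ ((1 : ℝ) / 4)) ^ 4 = l := by
    rw [← Real.rpow_natCast, ← Real.rpow_mul hl0.le]; norm_num
  refine ⟨_, hu3, hu4.symm, ?_⟩
  by_contra h
  push Not at h
  have hu0 : 0 ≤ l ^ ((1 : ℝ) / 4) := Real.rpow_nonneg hl0.le _
  have h5 : (l ^ ((1 : ℝ) / 4)) ^ 4 < 1000 ^ 4 := by gcongr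
  rw [hu4] at h5
  norm_num at h5
  norm_num at hl
  linarith

private lemma aux_exp2 : Real.exp 2 ≤ 8 := by
  have he1 : Real.exp 1 < 2.72 := by
    have := Real.exp_one_lt_d9
    linarith
  have h6 : Real.exp 2 = Real.exp 1 * Real.exp 1 := by
    rw [← Real.exp_add]; norm_num
  rw [h6]; nlinarith [Real.exp_pos 1]

private lemma aux_Δ {D l τ Δ : ℝ} (hD1 : 1 ≤ D) (hDτ : D ≤ τ) (hτ1000 : 1000 ≤ τ) (hτl : τ ^ 2 = l)
    (hΔ : Δ = Real.exp 2 * (D + l)) : 1 ≤ Δ ∧ Δ ≤ 16 * l ∧ Δ ≤ l ^ 2 := by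
  have hE2 := aux_exp2
  have hE21 : 1 ≤ Real.exp 2 := by
    have := Real.add_one_le_exp (2 : ℝ)
    linarith
  have hτ0 : 0 < τ := by linarith
  have hl16 : 16 ≤ l := by
    rw [← hτl, sq]
    nlinarith
  have hDl : D ≤ l := by
    rw [← hτl, sq]
    nlinarith
  have hl0 : 0 < l := by linarith
  have h1 : 1 ≤ Δ := by
    rw [hΔ]
    have h2 : 1 ≤ D + l := by linarith
    calc (1 : ℝ) = 1 * 1 := by norm_num
      _ ≤ Real.exp 2 * (D + l) := mul_le_mul hE21 h2 (by norm_num) (by linarith)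
  have h2 : Δ ≤ 16 * l := by
    rw [hΔ]
    calc Real.exp 2 * (D + l) ≤ 8 * (2 * l) :=
          mul_le_mul hE2 (by linarith) (by linarith) (by norm_num)
      _ = 16 * l := by ring
  refine ⟨h1, h2, h2.trans ?_⟩
  rw [sq]
  exact mul_le_mul_of_nonneg_right hl16 hl0.le

private lemma aux_N8 {c₁ τ l Δ : ℝ} {d₀ : ℕ} (hc₁0 : 0 < c₁) (hτ0 : 0 < τ) (hτl : τ ^ 2 = l)
    (hτc₁ : 30720 ≤ c₁ ^ 5 * τ) (hΔ1 : 1 ≤ Δ) (hΔle : Δ ≤ 16 * l) (hd1 : c₁ * τ ≤ (d₀ : ℝ)) :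
    Δ ^ 2 ≤ Real.exp d₀ := by
  have h12 := Real.pow_div_factorial_le_exp (c₁ * τ) (by positivity) 5
  have h13 : Real.exp (c₁ * τ) ≤ Real.exp d₀ := Real.exp_le_exp.2 hd1
  refine le_trans ?_ (h12.trans h13)
  have h14 : (c₁ * τ) ^ 5 / (Nat.factorial 5 : ℝ) = (c₁ ^ 5 * τ) * τ ^ 4 / 120 := by
    norm_num [Nat.factorial]
    ring
  rw [h14]
  have h15 : Δ ^ 2 ≤ (16 * l) ^ 2 := pow_le_pow_left₀ (by linarith) hΔle 2
  have h16 : (16 * l) ^ 2 = 256 * τ ^ 4 := by rw [← hτl]; ring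
  have h17 : 0 < τ ^ 4 := by positivity
  have h18 : 30720 * τ ^ 4 ≤ (c₁ ^ 5 * τ) * τ ^ 4 := mul_le_mul_of_nonneg_right hτc₁ h17.le
  rw [h16] at h15
  linarith

private lemma aux_N7b {u l lam D Δ : ℝ} (hu1000 : 1000 ≤ u) (hl4 : l = u ^ 4)
    (hlamD : l - lam = Real.log D) (hlamge : l / 2 ≤ lam)
    (hlogD : Real.log D ≤ 2 * u) (hΔ1 : 1 ≤ Δ) (hΔle : Δ ≤ 16 * l) :
    2 * (l - lam) * Real.log Δ ≤ lam := by
  rw [hlamD]
  have hu0 : 0 < u := by linarith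
  have hΔ0 : 0 < Δ := by linarith
  have hlogΔ0 : 0 ≤ Real.log Δ := Real.log_nonneg hΔ1
  have hlogu : Real.log u ≤ u := Real.log_le_self hu0.le
  have hΔ5 : Δ ≤ u ^ 5 := by
    refine hΔle.trans ?_
    rw [hl4]
    have h9 : u ^ 5 = u * u ^ 4 := by ring
    rw [h9]
    have h10 : 0 < u ^ 4 := by positivity
    exact mul_le_mul_of_nonneg_right (by linarith) h10.le
  have hlogΔ : Real.log Δ ≤ 5 * u := by
    have h13 := Real.log_le_log hΔ0 hΔ5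
    rw [Real.log_pow] at h13
    push_cast at h13
    linarith
  have h14 : Real.log D * Real.log Δ ≤ (2 * u) * (5 * u) :=
    mul_le_mul hlogD hlogΔ hlogΔ0 (by positivity)
  have hu2 : 1000000 ≤ u ^ 2 := by
    calc (1000000 : ℝ) = 1000 ^ 2 := by norm_num
      _ ≤ u ^ 2 := pow_le_pow_left₀ (by norm_num) hu1000 2
  have h15 : 20 * u ^ 2 ≤ u ^ 4 / 2 := by
    have h16 : u ^ 4 = u ^ 2 * u ^ 2 := by ring
    rw [h16]
    have h17 : 0 < u ^ 2 := by positivity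
    have h18 : 1000000 * u ^ 2 ≤ u ^ 2 * u ^ 2 := mul_le_mul_of_nonneg_right hu2 h17.le
    linarith
  rw [hl4] at hlamge
  have h19 : (2 * u) * (5 * u) = 10 * u ^ 2 := by ring
  rw [h19] at h14
  have h20 : 2 * Real.log D * Real.log Δ = 2 * (Real.log D * Real.log Δ) := by ring
  rw [h20]
  linarith

private lemma aux_N5 {c c₁ τ l D Δ : ℝ} {p d₀ : ℕ} (hc0 : 0 < c) (hc₁ : c₁ = c / 100)
    (hτ1000 : 1000 ≤ τ) (hτl : τ ^ 2 = l) (hτc : 100 ≤ c * τ)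
    (hD1 : 1 ≤ D) (hDx : D * l ^ c ≤ τ) (hx12 : Real.exp 12 ≤ l ^ c)
    (hΔ1 : 1 ≤ Δ) (hΔl2 : Δ ≤ l ^ 2)
    (hp1 : (p : ℝ) ≤ τ / 5) (hp6 : τ / 6 ≤ (p : ℝ)) (hd2 : (d₀ : ℝ) < c₁ * τ + 1) :
    (1 + (p : ℝ)) * (D ^ p / p.factorial) * Δ ^ (d₀ + 1) ≤ 1 := by
  have hτ0 : 0 < τ := by linarith
  have hl1000 : 1000 ≤ l := by
    rw [← hτl, sq]
    nlinarith
  have hl0 : 0 < l := by linarith
  have hl1' : 1 ≤ l := by linarith
  have hx0 : 0 < l ^ c := Real.rpow_pos_of_pos hl0 _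
  refine n5_core hx0 (by linarith) (by linarith) ?_ ?_
  · have h12 : Real.exp (2 * (D * l ^ c)) ≤ Real.exp (2 * τ) :=
      Real.exp_le_exp.2 (by linarith)
    refine h12.trans ?_
    have h13 : Real.exp 12 ^ p ≤ (l ^ c) ^ p := pow_le_pow_left₀ (Real.exp_pos _).le hx12 p
    refine le_trans ?_ h13
    rw [← Real.exp_nat_mul]
    refine Real.exp_le_exp.2 ?_
    linarith
  · have h12 : 1 + (p : ℝ) ≤ l := by
      rw [← hτl, sq]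
      nlinarith
    have h13 : ((1 + (p : ℝ)) * Δ ^ (d₀ + 1)) ^ 2 ≤ l ^ (4 * d₀ + 6) := by
      have h14 : Δ ^ (d₀ + 1) ≤ (l ^ 2) ^ (d₀ + 1) :=
        pow_le_pow_left₀ (by linarith) hΔl2 _
      have h15 : (1 + (p : ℝ)) * Δ ^ (d₀ + 1) ≤ l * (l ^ 2) ^ (d₀ + 1) :=
        mul_le_mul h12 h14 (by positivity) hl0.le
      calc ((1 + (p : ℝ)) * Δ ^ (d₀ + 1)) ^ 2 ≤ (l * (l ^ 2) ^ (d₀ + 1)) ^ 2 :=
            pow_le_pow_left₀ (by positivity) h15 2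
        _ = l ^ (4 * d₀ + 6) := by
            rw [← pow_mul, ← pow_succ', ← pow_mul]
            congr 1
            ring
    refine h13.trans ?_
    rw [← Real.rpow_natCast (l ^ c), ← Real.rpow_mul hl0.le, ← Real.rpow_natCast l]
    refine Real.rpow_le_rpow_of_exponent_le hl1' ?_
    push_cast
    have h16 : (d₀ : ℝ) ≤ c * τ / 100 + 1 := by
      have : c₁ * τ = c * τ / 100 := by rw [hc₁]; ring
      linarith
    have h17 : c * (τ / 6) ≤ c * (p : ℝ) := mul_le_mul_of_nonneg_left hp6 hc0.le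
    linarith

private lemma aux_A {c₁ τ l Δ : ℝ} {d₀ : ℕ} (hc₁0 : 0 < c₁) (hτ0 : 0 < τ) (hτl : τ ^ 2 = l)
    (hΔle : Δ ≤ 16 * l) (hd1 : c₁ * τ ≤ (d₀ : ℝ)) : Δ ≤ (16 / c₁ + 1) * τ * d₀ := by
  have h12 : (16 / c₁ + 1) * τ * (c₁ * τ) ≤ (16 / c₁ + 1) * τ * d₀ := by
    have h13 : 0 ≤ (16 / c₁ + 1) * τ := by positivity
    exact mul_le_mul_of_nonneg_left hd1 h13
  have h14 : (16 / c₁ + 1) * τ * (c₁ * τ) = (16 + c₁) * τ ^ 2 := by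
    field_simp
  rw [h14, hτl] at h12
  have hl0 : 0 ≤ l := by rw [← hτl]; positivity
  have h15 : 0 ≤ c₁ * l := by positivity
  linarith

private lemma aux_hall {τ l lam : ℝ} {p : ℕ} (hτ1000 : 1000 ≤ τ) (hl0 : 0 < l)
    (hlamge : l / 2 ≤ lam) (hp1 : (p : ℝ) ≤ τ / 5) :
    8 * l ≤ τ * lam ∧ ((p : ℝ) + 1) * (2 * l) ≤ τ * lam := by
  have hτ0 : 0 < τ := by linarith
  have hlamτ : τ * (l / 2) ≤ τ * lam := mul_le_mul_of_nonneg_left hlamge hτ0.le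
  have h0 : 1000 * l ≤ τ * l := mul_le_mul_of_nonneg_right hτ1000 hl0.le
  constructor
  · linarith
  · have h12 : ((p : ℝ) + 1) * (2 * l) ≤ (τ / 5 + 1) * (2 * l) :=
      mul_le_mul_of_nonneg_right (by linarith) (by linarith)
    have h13 : (τ / 5 + 1) * (2 * l) = (2 / 5) * (τ * l) + 2 * l := by ring
    have h14 : τ * (l / 2) = (1 / 2) * (τ * l) := by ring
    linarith

/-- `WPar` from the numeric facts about `τ`. -/
private lemma aux_wpar {n : ℕ} {q l lam c c₁ τ u : ℝ} (hs : Std n q l lam) (hc0 : 0 < c)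
    (hc₁ : c₁ = c / 100) (hc₁0 : 0 < c₁) (hc₁1 : c₁ ≤ 1 / 200) (hD1 : 1 ≤ (n : ℝ) * q)
    (hτ1000 : 1000 ≤ τ) (hτl : τ ^ 2 = l) (hτc : 100 ≤ c * τ) (hτc₁ : 30720 ≤ c₁ ^ 5 * τ)
    (hu1000 : 1000 ≤ u) (hl4 : l = u ^ 4) (hτu : τ = u ^ 2)
    (hDx : (n : ℝ) * q * l ^ c ≤ τ) (hx12 : Real.exp 12 ≤ l ^ c) (hDτ : (n : ℝ) * q ≤ τ) :
    ∃ (Δ : ℝ) (p d₀ : ℕ), WPar n q l lam τ Δ ((16 / c₁ + 1) * τ) p d₀ := by
  have hu0 : 0 < u := by linarith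
  have hτ0 : 0 < τ := by linarith
  have hl0 : 0 < l := by rw [← hτl]; positivity
  have hn0 : 0 < (n : ℝ) := by
    have := hs.n1
    exact_mod_cast this
  have hq0 := hs.q0
  have hlamD : l - lam = Real.log ((n : ℝ) * q) := by
    rw [hs.lam_eq, hs.l_eq, Real.log_mul hn0.ne' hq0.ne']
    ring
  have hlogu : Real.log u ≤ u := Real.log_le_self hu0.le
  have hlogD : Real.log ((n : ℝ) * q) ≤ 2 * u := by
    have h5 : Real.log ((n : ℝ) * q) ≤ Real.log τ := Real.log_le_log (by linarith) hDτ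
    rw [hτu, Real.log_pow] at h5
    push_cast at h5
    linarith
  have hlamge : l / 2 ≤ lam := by
    have h5 : u ^ 4 = u * u ^ 3 := by ring
    have hu3 : 1000 ≤ u ^ 3 := by
      calc (1000 : ℝ) = 1000 ^ 1 := by norm_num
        _ ≤ u ^ 1 := pow_le_pow_left₀ (by norm_num) hu1000 1
        _ ≤ u ^ 3 := pow_le_pow_right₀ (by linarith) (by norm_num)
    have h6 : u * 1000 ≤ u * u ^ 3 := mul_le_mul_of_nonneg_left hu3 hu0.le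
    rw [hl4] at hlamD ⊢
    linarith
  obtain ⟨Δ, hΔ⟩ : ∃ Δ : ℝ, Δ = Real.exp 2 * ((n : ℝ) * q + l) := ⟨_, rfl⟩
  obtain ⟨hΔ1, hΔle, hΔl2⟩ := aux_Δ hD1 hDτ hτ1000 hτl hΔ
  have hp1 : (⌊τ / 5⌋₊ : ℝ) ≤ τ / 5 := Nat.floor_le (by positivity)
  have hp2 : τ / 5 < (⌊τ / 5⌋₊ : ℝ) + 1 := Nat.lt_floor_add_one _
  have hd1 : c₁ * τ ≤ (⌈c₁ * τ⌉₊ : ℝ) := Nat.le_ceil _
  have hd2 : (⌈c₁ * τ⌉₊ : ℝ) < c₁ * τ + 1 := Nat.ceil_lt_add_one (by positivity)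
  obtain ⟨p, hp⟩ : ∃ p : ℕ, p = ⌊τ / 5⌋₊ := ⟨_, rfl⟩
  obtain ⟨d₀, hd⟩ : ∃ d₀ : ℕ, d₀ = ⌈c₁ * τ⌉₊ := ⟨_, rfl⟩
  rw [← hp] at hp1 hp2
  rw [← hd] at hd1 hd2
  have hd01 : 1 ≤ d₀ := by
    have h0 : (0 : ℝ) < d₀ := by
      have : 0 < c₁ * τ := by positivity
      linarith
    exact_mod_cast h0
  have hp6 : τ / 6 ≤ (p : ℝ) := by linarith
  obtain ⟨hτ8, hhall⟩ := aux_hall (p := p) hτ1000 hl0 hlamge hp1
  have hN8 := aux_N8 hc₁0 hτ0 hτl hτc₁ hΔ1 hΔle hd1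
  have hN7b := aux_N7b hu1000 hl4 hlamD hlamge hlogD hΔ1 hΔle
  have hN5 := aux_N5 hc0 hc₁ hτ1000 hτl hτc hD1 hDx hx12 hΔ1 hΔl2 hp1 hp6 hd2
  refine ⟨Δ, p, d₀, ?_⟩
  exact
    { std := hs
      D1 := hD1
      τ32 := by linarith
      τK := by
        have h12 : 0 ≤ 16 / c₁ := by positivity
        have h13 : 0 ≤ 16 / c₁ * τ := by positivity
        have h14 : (16 / c₁ + 1) * τ = 16 / c₁ * τ + τ := by ring
        linarith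
      Δ1 := hΔ1
      Δdeg := hΔ.ge
      d₀1 := hd01
      A := aux_A hc₁0 hτ0 hτl hΔle hd1
      τ8 := hτ8
      hall := hhall
      N5 := hN5
      N8 := hN8
      N7a := by
        push_cast
        have h12 : c₁ * τ ≤ 1 / 200 * τ := mul_le_mul_of_nonneg_right hc₁1 hτ0.le
        linarith
      N7b := hN7b }

/-- The parameters exist for large `l`, with `τ = l^(1/2)`, `d₀ = ⌈c₁ τ⌉`, `c₁ = c/100`, `p = ⌊τ/5⌋`, `Δ = e^2 (nq + l) ≤ 2 e^2 l`, `K = C l^(1/2)`, `C ≥ 2 e²/c₁ + 1`. -/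
theorem exists_wpar (c : ℝ) (hc0 : 0 < c) (hc1 : c < 1 / 2) :
    ∃ (l₀ C : ℝ), 1 ≤ l₀ ∧ 1 ≤ C ∧ ∀ (n : ℕ) (q l lam : ℝ), l₀ ≤ l → Std n q l lam →
    1 ≤ (n : ℝ) * q → (n : ℝ) * q ≤ l ^ ((1 : ℝ) / 2 - c) →
    ∃ (τ Δ : ℝ) (p d₀ : ℕ), WPar n q l lam τ Δ (C * l ^ ((1 : ℝ) / 2)) p d₀ := by
  obtain ⟨c₁, hc₁⟩ : ∃ c₁ : ℝ, c₁ = c / 100 := ⟨_, rfl⟩
  have hc₁0 : 0 < c₁ := by rw [hc₁]; positivity
  have hc₁1 : c₁ ≤ 1 / 200 := by rw [hc₁]; linarith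
  obtain ⟨T₀, hT₀⟩ : ∃ T₀ : ℝ, T₀ = 30720 / c₁ ^ 5 + 100 / c + 1000 := ⟨_, rfl⟩
  have hT₁ : 0 ≤ 30720 / c₁ ^ 5 := by positivity
  have hT₂ : 0 ≤ 100 / c := by positivity
  have hT₀1000 : 1000 ≤ T₀ := by rw [hT₀]; linarith
  refine ⟨max (T₀ ^ 2) (max (Real.exp (12 / c)) (10 ^ 12)), 16 / c₁ + 1, ?_, ?_, ?_⟩
  · refine le_trans ?_ (le_max_right _ _)
    refine le_trans ?_ (le_max_right _ _)
    norm_num
  · have : 0 ≤ 16 / c₁ := by positivity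
    linarith
  intro n q l lam hl hs hD1 hD2
  have hl1 : T₀ ^ 2 ≤ l := (le_max_left _ _).trans hl
  have hl2 : Real.exp (12 / c) ≤ l := ((le_max_left _ _).trans (le_max_right _ _)).trans hl
  have hl3 : (10 : ℝ) ^ 12 ≤ l := ((le_max_right _ _).trans (le_max_right _ _)).trans hl
  obtain ⟨u, ht, hl4, hu1000⟩ := aux_u hl3
  have hu0 : 0 < u := by linarith
  have hl0 : 0 < l := by
    have : (0 : ℝ) < 10 ^ 12 := by norm_num
    linarith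
  have hl1' : 1 ≤ l := by
    have : (1 : ℝ) ≤ 10 ^ 12 := by norm_num
    linarith
  obtain ⟨τ, hτ⟩ : ∃ τ : ℝ, τ = l ^ ((1 : ℝ) / 2) := ⟨_, rfl⟩
  rw [← hτ]
  have hτu : τ = u ^ 2 := by rw [hτ, ht]
  have hτ0 : 0 < τ := by rw [hτu]; positivity
  have hτl : τ ^ 2 = l := by rw [hτu, hl4]; ring
  have hτT : T₀ ≤ τ := by
    by_contra h
    push Not at h
    have h5 : τ ^ 2 < T₀ ^ 2 := pow_lt_pow_left₀ h hτ0.le (by norm_num)
    rw [hτl] at h5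
    linarith
  have hτ1000 : 1000 ≤ τ := hT₀1000.trans hτT
  have hτc : 100 ≤ c * τ := by
    have h5 : 100 / c ≤ τ := by rw [hT₀] at hτT; linarith
    have h6 := mul_le_mul_of_nonneg_left h5 hc0.le
    rwa [mul_div_cancel₀ _ hc0.ne'] at h6
  have hτc₁ : 30720 ≤ c₁ ^ 5 * τ := by
    have h5 : 30720 / c₁ ^ 5 ≤ τ := by rw [hT₀] at hτT; linarith
    have hc5 : 0 < c₁ ^ 5 := by positivity
    have h6 := mul_le_mul_of_nonneg_left h5 hc5.le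
    rwa [mul_div_cancel₀ _ hc5.ne'] at h6
  have hDτ : (n : ℝ) * q ≤ τ := by
    refine hD2.trans ?_
    rw [hτ]
    exact Real.rpow_le_rpow_of_exponent_le hl1' (by linarith)
  have hDx : (n : ℝ) * q * l ^ c ≤ τ := by
    have h5 : (n : ℝ) * q * l ^ c ≤ l ^ ((1 : ℝ) / 2 - c) * l ^ c :=
      mul_le_mul_of_nonneg_right hD2 (Real.rpow_nonneg hl0.le _)
    rw [← Real.rpow_add hl0] at h5
    have h6 : (1 : ℝ) / 2 - c + c = 1 / 2 := by ring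
    rw [h6, ← hτ] at h5
    exact h5
  have hx12 : Real.exp 12 ≤ l ^ c := by
    have h5 : Real.exp (12 / c) ^ c ≤ l ^ c :=
      Real.rpow_le_rpow (Real.exp_pos _).le hl2 hc0.le
    have h6 : Real.exp (12 / c) ^ c = Real.exp 12 := by
      rw [← Real.exp_mul, div_mul_cancel₀ _ hc0.ne']
    rwa [h6] at h5
  obtain ⟨Δ, p, d₀, hpar⟩ := aux_wpar hs hc0 hc₁ hc₁0 hc₁1 hD1 hτ1000 hτl hτc hτc₁ hu1000 hl4 hτu
    hDx hx12 hDτ
  exact ⟨τ, Δ, p, d₀, hpar⟩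

end Vale.Agent.Lib.P064U
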