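import Vale.Agent.Lib.P064U.WDefs

/-!
Part W1: pairwise disjoint copies with twin classes: the factorial bound.
-/

open Finset

namespace Vale.Agent.Lib.P064U

open Vale.Agent.Lib.P064 Vale.Agent.Lib.P064E
open scoped Classical

variable {V : Type} {H : SimpleGraph V} {n : ℕ} {q : ℝ}

/-- The disjoint union of copies of `W` indexed by `I`. -/
def copiesGraph {γ : Type} (W : SimpleGraph γ) (I : Type) : SimpleGraph (I × γ) where
  Adj x y := x.1 = y.1 ∧ W.Adj x.2 y.2
  symm := ⟨fun _ _ h => ⟨h.1.symm, SimpleGraph.Adj.symm h.2⟩⟩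
  loopless := ⟨fun _ h => W.loopless.1 _ h.2⟩

/-- The action on the disjoint union. -/
def copiesIso {γ κ I : Type} (W : SimpleGraph γ) (c : γ → κ)
    (hc : ∀ a b a' b', c a = c a' → c b = c b' → W.Adj a b → W.Adj a' b')
    (g : Equiv.Perm I × (I → {σ : Equiv.Perm γ // c ∘ σ = c})) :
    copiesGraph W I ≃g copiesGraph W I where
  toEquiv := Equiv.prodShear g.1 (fun i => (g.2 i).1)
  map_rel_iff' := by
    rintro ⟨i, a⟩ ⟨j, b⟩
    have hcl : ∀ (i : I) (a : γ), c ((g.2 i).1 a) = c a := fun i a =>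
      congrFun (g.2 i).2 a
    constructor
    · rintro ⟨h1, h2⟩
      have hij : i = j := g.1.injective h1
      subst hij
      exact ⟨rfl, hc _ _ _ _ (hcl i a) (hcl i b) h2⟩
    · rintro ⟨h1, h2⟩
      have hij : i = j := h1
      subst hij
      exact ⟨rfl, hc _ _ _ _ (hcl i a).symm (hcl i b).symm h2⟩

lemma copies_edges {γ I : Type} [Fintype γ] [Fintype I] (W : SimpleGraph γ) :
    Fintype.card I * W.edgeSet.ncard ≤ (copiesGraph W I).edgeSet.ncard := by
  have hfin : (copiesGraph W I).edgeSet.Finite := Set.toFinite _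
  let g : I × Sym2 γ → Sym2 (I × γ) := fun p => Sym2.map (fun a => (p.1, a)) p.2
  have hinj : Set.InjOn g ((Set.univ : Set I) ×ˢ W.edgeSet) := by
    rintro ⟨i, e⟩ he ⟨j, f⟩ hf h
    have hback : ∀ (i : I) (e : Sym2 γ), Sym2.map Prod.snd (g (i, e)) = e := by
      intro i e
      simp only [g, Sym2.map_map]
      have : (Prod.snd ∘ fun a : γ => (i, a)) = id := rfl
      rw [this, Sym2.map_id]
      rfl
    have hef : e = f := by
      have := congrArg (Sym2.map Prod.snd) h
      rwa [hback, hback] at this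
    subst hef
    have hij : i = j := by
      induction e using Sym2.ind with
      | _ a b =>
        have hm : (i, a) ∈ g (i, s(a, b)) := by simp [g]
        rw [h] at hm
        simp only [g, Sym2.map_mk, Sym2.mem_iff, Prod.mk.injEq] at hm
        rcases hm with hm | hm
        · exact hm.1
        · exact hm.1
    rw [hij]
  have hsub : g '' ((Set.univ : Set I) ×ˢ W.edgeSet) ⊆ (copiesGraph W I).edgeSet := by
    rintro _ ⟨⟨i, e⟩, he, rfl⟩
    have he2 : e ∈ W.edgeSet := he.2
    induction e using Sym2.ind with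
    | _ a b =>
      simp only [g, Sym2.map_mk, SimpleGraph.mem_edgeSet]
      exact ⟨rfl, he2⟩
  calc Fintype.card I * W.edgeSet.ncard
      = ((Set.univ : Set I) ×ˢ W.edgeSet).ncard := by
        rw [Set.ncard_prod, Set.ncard_univ, Nat.card_eq_fintype_card]
    _ = (g '' ((Set.univ : Set I) ×ˢ W.edgeSet)).ncard := hinj.ncard_image.symm
    _ ≤ _ := Set.ncard_le_ncard hsub hfin

/-- `W` has a class map `c` such that adjacency depends only on classes.  Take pairwise disjoint copies `ψ i`
of `W` in `H`, `i ∈ I`.  Their union `U` (a graph on `I × γ`) is a subgraph of `H`, and the group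
`Perm I × (I → {σ : Perm γ // c ∘ σ = c})` acts on `U` faithfully, so by `copyCount_mul_card_le`,
`DomMulAct.stabilizer_card` and `GoodDensity` we get the bound. -/
theorem copies_factorial {γ κ I : Type} [Fintype γ] [Fintype κ] [Fintype I] [Nonempty I]
    (hG : GoodDensity n q H) (hq0 : 0 < q) (hq1 : q ≤ 1)
    (W : SimpleGraph γ) (hW : W.edgeSet.Nonempty) (c : γ → κ)
    (hc : ∀ a b a' b', c a = c a' → c b = c b' → W.Adj a b → W.Adj a' b')
    (ψ : I → γ → V) (hinj : ∀ i, Function.Injective (ψ i))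
    (hhom : ∀ i a b, W.Adj a b → H.Adj (ψ i a) (ψ i b))
    (hdis : ∀ i j, i ≠ j → ∀ a b, ψ i a ≠ ψ j b) :
    ((Fintype.card I).factorial : ℝ) *
        (∏ k : κ, (((univ.filter fun a => c a = k).card).factorial : ℝ)) ^ Fintype.card I
      ≤ ((n : ℝ) ^ Fintype.card γ * q ^ W.edgeSet.ncard) ^ Fintype.card I := by
  set U := copiesGraph W I with hU
  -- the copy
  have hcopy : Nonempty (U.Copy H) := by
    refine ⟨⟨⟨fun x => ψ x.1 x.2, ?_⟩, ?_⟩⟩
    · rintro ⟨i, a⟩ ⟨j, b⟩ ⟨h1, h2⟩
      have hij : i = j := h1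
      subst hij
      exact hhom i a b h2
    · rintro ⟨i, a⟩ ⟨j, b⟩ h
      by_cases hij : i = j
      · subst hij
        have : a = b := hinj i h
        rw [this]
      · exact absurd h (hdis i j hij a b)
  -- the edge set
  have hedges := copies_edges (I := I) W
  have hIpos : 0 < Fintype.card I := Fintype.card_pos
  have hWpos : 0 < W.edgeSet.ncard := (Set.ncard_pos (Set.toFinite _)).2 hW
  have hne : U.edgeSet.Nonempty := by
    apply Set.nonempty_of_ncard_ne_zero
    have h3 := Nat.mul_pos hIpos hWpos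
    have h4 : 0 < U.edgeSet.ncard := lt_of_lt_of_le h3 hedges
    exact h4.ne'
  have h1 := hG (I × γ) U hcopy hne
  -- the action
  have h2 := copyCount_mul_card_le (Γ := Equiv.Perm I × (I → {σ : Equiv.Perm γ // c ∘ σ = c}))
    n U (copiesIso W c hc) ?_
  · have hcardΓ : Fintype.card (Equiv.Perm I × (I → {σ : Equiv.Perm γ // c ∘ σ = c})) =
        (Fintype.card I).factorial *
          (∏ k : κ, ((univ.filter fun a => c a = k).card).factorial) ^ Fintype.card I := by
      rw [Fintype.card_prod, Fintype.card_perm, Fintype.card_fun]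
      congr 2
      rw [DomMulAct.stabilizer_card]
      refine Finset.prod_congr rfl fun k _ => ?_
      rw [Fintype.card_subtype]
    rw [hcardΓ, Fintype.card_prod] at h2
    have h3 : ((⊤ : SimpleGraph (Fin n)).copyCount U : ℝ) *
        (((Fintype.card I).factorial : ℝ) *
          (∏ k : κ, (((univ.filter fun a => c a = k).card).factorial : ℝ)) ^ Fintype.card I)
        ≤ (n : ℝ) ^ (Fintype.card I * Fintype.card γ) := by
      exact_mod_cast h2
    have h5 : q ^ U.edgeSet.ncard ≤ q ^ (Fintype.card I * W.edgeSet.ncard) :=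
      pow_le_pow_of_le_one hq0.le hq1 hedges
    set Y : ℝ := ((Fintype.card I).factorial : ℝ) *
          (∏ k : κ, (((univ.filter fun a => c a = k).card).factorial : ℝ)) ^ Fintype.card I with hY
    have hY0 : 0 ≤ Y := by positivity
    have hcop : (0 : ℝ) ≤ ((⊤ : SimpleGraph (Fin n)).copyCount U : ℝ) := Nat.cast_nonneg _
    calc Y = 1 * Y := (one_mul _).symm
      _ ≤ (((⊤ : SimpleGraph (Fin n)).copyCount U : ℝ) * q ^ U.edgeSet.ncard) * Y :=
          mul_le_mul_of_nonneg_right h1 hY0
      _ ≤ (((⊤ : SimpleGraph (Fin n)).copyCount U : ℝ) *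
            q ^ (Fintype.card I * W.edgeSet.ncard)) * Y := by gcongr
      _ = (((⊤ : SimpleGraph (Fin n)).copyCount U : ℝ) * Y) *
            q ^ (Fintype.card I * W.edgeSet.ncard) := by ring
      _ ≤ (n : ℝ) ^ (Fintype.card I * Fintype.card γ) *
            q ^ (Fintype.card I * W.edgeSet.ncard) :=
          mul_le_mul_of_nonneg_right h3 (by positivity)
      _ = _ := by
          rw [mul_pow, ← pow_mul, ← pow_mul]
          ring_nf
  · -- faithfulness
    rintro ⟨π, s⟩ ⟨π', s'⟩ hh
    have hpi : ∀ x : I × γ, Equiv.prodShear π (fun i => (s i).1) x =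
        Equiv.prodShear π' (fun i => (s' i).1) x := hh
    obtain ⟨e, he⟩ := hW
    obtain ⟨a₀⟩ : Nonempty γ := by
      induction e using Sym2.ind with
      | _ a b => exact ⟨a⟩
    have h1 : π = π' := by
      ext i
      have := hpi (i, a₀)
      simp only [Equiv.prodShear_apply, Prod.mk.injEq] at this
      rw [this.1]
    have h2 : s = s' := by
      funext i
      apply Subtype.ext
      ext a
      have := hpi (i, a)
      simp only [Equiv.prodShear_apply, Prod.mk.injEq] at this
      rw [this.2]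
    rw [h1, h2]

/-- From `h! g^h ≤ R^h` to `h g ≤ e R`. -/
lemma card_mul_le_of_factorial {h : ℕ} (hh : 1 ≤ h) {g R : ℝ} (hg : 0 ≤ g) (hR : 0 ≤ R)
    (hf : (h.factorial : ℝ) * g ^ h ≤ R ^ h) : (h : ℝ) * g ≤ Real.exp 1 * R := by
  have h0 : (0 : ℝ) ≤ h := Nat.cast_nonneg _
  have h3 : (h : ℝ) ^ h / h.factorial ≤ Real.exp h := Real.pow_div_factorial_le_exp _ h0 h
  have hfac : (0 : ℝ) < h.factorial := by positivity
  have h4 : (h : ℝ) ^ h ≤ Real.exp h * h.factorial := by
    rwa [div_le_iff₀ hfac] at h3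
  have h5 : ((h : ℝ) * g) ^ h ≤ (Real.exp 1 * R) ^ h := by
    have he : Real.exp h = Real.exp 1 ^ h := by
      rw [← Real.exp_nat_mul, mul_one]
    calc ((h : ℝ) * g) ^ h = (h : ℝ) ^ h * g ^ h := by rw [mul_pow]
      _ ≤ (Real.exp h * h.factorial) * g ^ h := by gcongr
      _ = Real.exp h * (h.factorial * g ^ h) := by ring
      _ ≤ Real.exp h * R ^ h := by gcongr
      _ = _ := by rw [he, mul_pow]
  exact le_of_pow_le_pow_left₀ (by omega) (by positivity) h5

end Vale.Agent.Lib.P064U
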