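import Vale.Agent.Lib.P064U.WDefs

/-!
Part W4: the walk along a rooted spanning tree.
-/

open Finset

namespace Vale.Agent.Lib.P064U

open Vale.Agent.Lib.P064 Vale.Agent.Lib.P064E
open scoped Classical

variable {V β : Type} [Fintype V] [Fintype β] {H : SimpleGraph V}

/-- Embeddings with a fixed value `a` at `z`: at most `∏ f (par y)` along a rooted spanning tree, if `f` bounds the
degrees. (Use `tree_count` of Lib/P064S/Tree with `E = ∅`, `D = {z}`, `I = univ`, `Cand v w _ = nb H w`.) -/
theorem walk_count (G : SimpleGraph β) (E : Finset (β → V)) (hE : ∀ φ ∈ E, φ ∈ emb G H)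
    (z : β) (a : V) (par : β → β) (r : β → ℕ) (hparz : par z = z)
    (hpar : ∀ v, v ≠ z → r (par v) < r v ∧ G.Adj (par v) v)
    (f : β → ℝ) (hf0 : ∀ x, 0 ≤ f x) (hf : ∀ φ ∈ E, ∀ x, ((nb H (φ x)).card : ℝ) ≤ f x) :
    (((E.filter fun φ => φ z = a).card : ℝ)) ≤ ∏ y ∈ univ.erase z, f (par y) := by
  have hsd : (univ : Finset β) \ {z} = univ.erase z := by
    ext w
    simp
  have key := tree_count (V := V) (α := β) (E := ∅) (I := univ) (x := z) (par := par) (r := r)
    (fun v _ hv => ⟨mem_univ _, (hpar v hv).1⟩) hparz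
    (fun _ w _ => nb H w) {z} (mem_singleton_self z) (subset_univ _)
    (fun u hu => by
      rw [mem_singleton] at hu
      subst hu
      rw [hparz]
      exact mem_singleton_self _)
    (E.filter fun φ => φ z = a) (∏ y ∈ univ.erase z, f (par y))
    (Finset.prod_nonneg fun y _ => hf0 _)
    (fun φ hφ φ' hφ' y hy => by
      have hy' : y = z := by simpa using hy
      subst hy'
      rw [(mem_filter.1 hφ).2, (mem_filter.1 hφ').2])
    (fun φ hφ v hv => by
      have hvz : v ≠ z := by simpa using hv
      have hφE := (mem_filter.1 hφ).1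
      exact mem_nb.2 ((mem_emb.1 (hE φ hφE)).2 _ _ (hpar v hvz).2))
    (fun φ hφ => by
      have hφE := (mem_filter.1 hφ).1
      rw [hsd]
      exact Finset.prod_le_prod (fun _ _ => Nat.cast_nonneg _) (fun y _ => hf φ hφE _))
  rw [empty_union, Finset.card_image_of_injective _ proj_univ_injective] at key
  exact key

end Vale.Agent.Lib.P064U
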