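import Vale.Agent.Lib.P064U.WDefs

/-!
Part W3: a maximal family of pairwise disjoint decorated copies, Hall, and the anchor set.
-/

open Finset

namespace Vale.Agent.Lib.P064U

open Vale.Agent.Lib.P064 Vale.Agent.Lib.P064E
open scoped Classical

variable {V β : Type} [Fintype V] [Fintype β] {H : SimpleGraph V} {n : ℕ} {q l lam : ℝ}

/-- Bipartite edge count: stars at `f x`, `x ∈ X`, with leaves off `f '' X`. -/
lemma bip_count (hG : GoodDensity n q H) (hs : Std n q l lam) {ι : Type} (X : Finset ι) (f : ι → V)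
    (hf : ∀ x ∈ X, ∀ y ∈ X, f x = f y → x = y) (N : ι → Finset V)
    (hN : ∀ x ∈ X, N x ⊆ nb H (f x)) (hoff : ∀ x ∈ X, ∀ w ∈ N x, ∀ y ∈ X, w ≠ f y) :
    ((∑ x ∈ X, (N x).card : ℕ) : ℝ) * lam ≤ ((X.card : ℝ) + ((X.biUnion N).card : ℝ)) * l := by
  set T : Finset (Sym2 V) := (X.sigma N).image (fun a => s(f a.1, a.2)) with hT
  have hcard : T.card = ∑ x ∈ X, (N x).card := by
    rw [hT, Finset.card_image_of_injOn, Finset.card_sigma]
    rintro ⟨x, w⟩ ha ⟨x', w'⟩ ha' heq
    simp only [Finset.coe_sigma, Set.mem_sigma_iff, Finset.mem_coe] at ha ha'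
    have heq' : s(f x, w) = s(f x', w') := heq
    rw [Sym2.eq_iff] at heq'
    rcases heq' with ⟨h1, h2⟩ | ⟨h1, h2⟩
    · have := hf x ha.1 x' ha'.1 h1
      subst this
      subst h2
      rfl
    · exact absurd h2 (hoff x ha.1 w ha.2 x' ha'.1)
  have hedge : ∀ e ∈ T, e ∈ H.edgeSet := by
    intro e he
    rw [hT, Finset.mem_image] at he
    obtain ⟨⟨x, w⟩, ha, rfl⟩ := he
    rw [Finset.mem_sigma] at ha
    have := hN x ha.1 ha.2
    rw [mem_nb] at this
    simpa using this
  have hvs : vs T ⊆ X.image f ∪ X.biUnion N := by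
    intro v hv
    unfold vs at hv
    rw [Finset.mem_biUnion] at hv
    obtain ⟨e, he, hv⟩ := hv
    rw [hT, Finset.mem_image] at he
    obtain ⟨⟨x, w⟩, ha, rfl⟩ := he
    rw [Finset.mem_sigma] at ha
    rw [Sym2.mem_toFinset, Sym2.mem_iff] at hv
    rcases hv with rfl | rfl
    · exact Finset.mem_union_left _ (Finset.mem_image_of_mem _ ha.1)
    · exact Finset.mem_union_right _ (Finset.mem_biUnion.2 ⟨x, ha.1, ha.2⟩)
  have hvc : ((vs T).card : ℝ) ≤ (X.card : ℝ) + ((X.biUnion N).card : ℝ) := by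
    have h1 := Finset.card_le_card hvs
    have h2 := Finset.card_union_le (X.image f) (X.biUnion N)
    have h3 : (X.image f).card ≤ X.card := Finset.card_image_le
    have : (vs T).card ≤ X.card + (X.biUnion N).card := by omega
    exact_mod_cast this
  have hd := density_log hG hs T hedge
  rw [hcard] at hd
  have hl : 0 ≤ l := by
    have := hs.l1
    linarith
  calc ((∑ x ∈ X, (N x).card : ℕ) : ℝ) * lam ≤ ((vs T).card : ℝ) * l := hd
    _ ≤ _ := mul_le_mul_of_nonneg_right hvc hl

/-- Few vertices have many neighbours in a given set `Z'`: `|Y \ Z'| ≤ |Z'|`. -/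
lemma card_heavy_le (hG : GoodDensity n q H) (hs : Std n q l lam) {τ : ℝ} (hτ0 : 0 < τ)
    (hτ8 : 8 * l ≤ τ * lam) (Z' : Finset V) :
    ((univ.filter fun w => τ / 4 ≤ (((nb H w) ∩ Z').card : ℝ)) \ Z').card ≤ Z'.card := by
  set A := (univ.filter fun w => τ / 4 ≤ (((nb H w) ∩ Z').card : ℝ)) \ Z' with hA
  by_contra hcon
  push Not at hcon
  have hl : 0 < l := by
    have := hs.l1
    linarith
  have hb := bip_count hG hs A (fun w => w) (fun _ _ _ _ h => h) (fun w => nb H w ∩ Z')
    (fun _ _ => Finset.inter_subset_left)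
    (by
      intro x _ w hw y hy heq
      have hy' : y ∉ Z' := (Finset.mem_sdiff.1 hy).2
      have hw' : w ∈ Z' := (Finset.mem_inter.1 hw).2
      exact hy' (heq ▸ hw'))
  have hsum : (A.card : ℝ) * (τ / 4) ≤ ((∑ x ∈ A, (nb H x ∩ Z').card : ℕ) : ℝ) := by
    push_cast
    rw [← nsmul_eq_mul]
    refine Finset.card_nsmul_le_sum A _ _ ?_
    intro x hx
    have := (Finset.mem_sdiff.1 hx).1
    exact (Finset.mem_filter.1 this).2
  have hunion : (A.biUnion fun w => nb H w ∩ Z').card ≤ Z'.card := by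
    refine Finset.card_le_card ?_
    intro v hv
    obtain ⟨_, _, hv⟩ := Finset.mem_biUnion.1 hv
    exact (Finset.mem_inter.1 hv).2
  have hunion' : (((A.biUnion fun w => nb H w ∩ Z').card : ℕ) : ℝ) ≤ (Z'.card : ℝ) := by
    exact_mod_cast hunion
  have hcon' : (Z'.card : ℝ) + 1 ≤ (A.card : ℝ) := by exact_mod_cast hcon
  have hlam : 0 < lam := by
    have := hs.lam1
    linarith
  have hApos : (0 : ℝ) < (A.card : ℝ) := by
    have : (0 : ℝ) ≤ (Z'.card : ℝ) := Nat.cast_nonneg _
    linarith
  have h1 : (A.card : ℝ) * (τ / 4) * lam ≤ ((A.card : ℝ) + (Z'.card : ℝ)) * l := by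
    calc (A.card : ℝ) * (τ / 4) * lam
        ≤ ((∑ x ∈ A, (nb H x ∩ Z').card : ℕ) : ℝ) * lam :=
          mul_le_mul_of_nonneg_right hsum hlam.le
      _ ≤ _ := hb
      _ ≤ _ := by
          apply mul_le_mul_of_nonneg_right _ hl.le
          linarith
  have h2 : ((A.card : ℝ) + (Z'.card : ℝ)) * l < 2 * (A.card : ℝ) * l := by
    apply mul_lt_mul_of_pos_right _ hl
    linarith
  have h3 : 2 * (A.card : ℝ) * l * 4 ≤ (A.card : ℝ) * (τ * lam) := by
    have := mul_le_mul_of_nonneg_left hτ8 hApos.le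
    linarith
  nlinarith

/-- Hall: if `N x` (`x ∈ D`), subsets of `nb H (f x)` off `f '' β`, all have size at least `τ / 2`, then there
are pairwise disjoint `p`-subsets: an injective `g : D × Fin p → V` with `g (x, k) ∈ N x`. -/
lemma hall_deco (hG : GoodDensity n q H) (hs : Std n q l lam) {τ : ℝ} {p : ℕ}
    (hHall : ((p : ℝ) + 1) * (2 * l) ≤ τ * lam) (f : β → V) (hf : Function.Injective f)
    (D : Finset β) (N : β → Finset V) (hN : ∀ x ∈ D, N x ⊆ nb H (f x))
    (hoff : ∀ x ∈ D, ∀ w ∈ N x, w ∉ univ.image f)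
    (hsize : ∀ x ∈ D, τ / 2 ≤ ((N x).card : ℝ)) :
    ∃ g : ↥D × Fin p → V, Function.Injective g ∧ ∀ c, g c ∈ N c.1.1 := by
  have hl : 0 < l := by
    have := hs.l1
    linarith
  have hlam : 0 < lam := by
    have := hs.lam1
    linarith
  have hkey := (Finset.all_card_le_biUnion_card_iff_exists_injective
    (fun c : ↥D × Fin p => N c.1.1)).1 ?_
  · exact hkey
  intro S
  set X : Finset β := S.image (fun c => c.1.1) with hX
  have hXD : ∀ x ∈ X, x ∈ D := by
    intro x hx
    obtain ⟨c, _, rfl⟩ := Finset.mem_image.1 hx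
    exact c.1.2
  have hS : S.card ≤ X.card * p := by
    have : S.card ≤ p * X.card := by
      apply Finset.card_le_mul_card_image S p
      intro x hx
      have hxD : x ∈ D := hXD x hx
      have : (S.filter fun c => c.1.1 = x).card ≤ ((univ : Finset (Fin p)).image fun k => ((⟨x, hxD⟩ : ↥D), k)).card := by
        apply Finset.card_le_card
        intro c hc
        obtain ⟨_, hcx⟩ := Finset.mem_filter.1 hc
        refine Finset.mem_image.2 ⟨c.2, Finset.mem_univ _, ?_⟩
        ext
        · simp [hcx]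
        · rfl
      refine this.trans ?_
      refine Finset.card_image_le.trans ?_
      simp
    rwa [mul_comm] at this
  have hunion : X.biUnion N = S.biUnion (fun c => N c.1.1) := by
    ext v
    simp only [Finset.mem_biUnion, hX, Finset.mem_image]
    constructor
    · rintro ⟨x, ⟨c, hc, rfl⟩, hv⟩
      exact ⟨c, hc, hv⟩
    · rintro ⟨c, hc, hv⟩
      exact ⟨c.1.1, ⟨c, hc, rfl⟩, hv⟩
  have hb := bip_count hG hs X f (fun x _ y _ h => hf h) N (fun x hx => hN x (hXD x hx))
    (by
      intro x hx w hw y _ heq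
      exact hoff x (hXD x hx) w hw (by rw [heq]; exact Finset.mem_image_of_mem _ (Finset.mem_univ _)))
  have hsum : (X.card : ℝ) * (τ / 2) ≤ ((∑ x ∈ X, (N x).card : ℕ) : ℝ) := by
    push_cast
    rw [← nsmul_eq_mul]
    refine Finset.card_nsmul_le_sum X _ _ ?_
    intro x hx
    exact hsize x (hXD x hx)
  have h1 : (X.card : ℝ) * (τ / 2) * lam ≤ ((X.card : ℝ) + ((X.biUnion N).card : ℝ)) * l :=
    (mul_le_mul_of_nonneg_right hsum hlam.le).trans hb
  have hXpos : (0 : ℝ) ≤ (X.card : ℝ) := Nat.cast_nonneg _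
  have h2 : (X.card : ℝ) * ((p + 1) * (2 * l)) ≤ (X.card : ℝ) * (τ * lam) :=
    mul_le_mul_of_nonneg_left hHall hXpos
  have h3 : (X.card : ℝ) * (p + 1) * l ≤ ((X.card : ℝ) + ((X.biUnion N).card : ℝ)) * l := by
    nlinarith
  have h4 : (X.card : ℝ) * (p + 1) ≤ (X.card : ℝ) + ((X.biUnion N).card : ℝ) :=
    le_of_mul_le_mul_right h3 hl
  have h5 : (X.card : ℝ) * p ≤ ((X.biUnion N).card : ℝ) := by linarith
  have h6 : X.card * p ≤ (X.biUnion N).card := by exact_mod_cast h5
  rw [← hunion]
  exact hS.trans h6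

/-- The anchor set.  `E` is a family of embeddings such that the vertices of `D` are mapped to vertices of degree
at least `τ` with less than `τ / 4` neighbours in the image.  A maximal family of disjoint decorated copies
extending members of `E`, `Z'` its vertex set, `A = Z' ∪ {w : |N(w) ∩ Z'| ≥ τ/4}`. -/
theorem anchor [Nonempty β] (hG : GoodDensity n q H) (hs : Std n q l lam) {τ : ℝ} {p : ℕ} (hτ0 : 0 < τ)
    (hτ8 : 8 * l ≤ τ * lam) (hHall : ((p : ℝ) + 1) * (2 * l) ≤ τ * lam)
    (G : SimpleGraph β) (E : Finset (β → V)) (hE : ∀ φ ∈ E, φ ∈ emb G H) (D : Finset β)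
    (hhub : ∀ φ ∈ E, ∀ x ∈ D, τ ≤ ((nb H (φ x)).card : ℝ))
    (hlight : ∀ φ ∈ E, ∀ x ∈ D, (((nb H (φ x)) ∩ univ.image φ).card : ℝ) < τ / 4) :
    ∃ (h : ℕ) (ψ : Fin h → (β ⊕ (↥D × Fin p)) → V) (A : Finset V),
      (∀ i, Function.Injective (ψ i)) ∧
      (∀ i a b, (deco G D p).Adj a b → H.Adj (ψ i a) (ψ i b)) ∧
      (∀ i j, i ≠ j → ∀ a b, ψ i a ≠ ψ j b) ∧
      (A.card : ℝ) ≤ 2 * (h : ℝ) * ((Fintype.card β : ℝ) + (p : ℝ) * D.card) ∧
      ∀ φ ∈ E, ∃ z, φ z ∈ A := by
  classical
  let γ := β ⊕ (↥D × Fin p)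
  let Good : (γ → V) → Prop := fun ψ =>
    Function.Injective ψ ∧ ∀ a b, (deco G D p).Adj a b → H.Adj (ψ a) (ψ b)
  let Fam : Finset (Finset (γ → V)) := (univ : Finset (Finset (γ → V))).filter fun S =>
    (∀ ψ ∈ S, Good ψ) ∧ ∀ ψ ∈ S, ∀ ψ' ∈ S, ψ ≠ ψ' → ∀ a b, ψ a ≠ ψ' b
  have hFam : Fam.Nonempty := ⟨∅, by simp [Fam]⟩
  obtain ⟨S, hSF, hmax⟩ := Finset.exists_max_image Fam Finset.card hFam
  obtain ⟨hS1, hS2⟩ := (Finset.mem_filter.1 hSF).2
  set Z' : Finset V := S.biUnion fun ψ => univ.image ψ with hZ'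
  set Y : Finset V := (univ.filter fun w => τ / 4 ≤ (((nb H w) ∩ Z').card : ℝ)) \ Z' with hY
  have hYc : Y.card ≤ Z'.card := card_heavy_le hG hs hτ0 hτ8 Z'
  have hZc : Z'.card ≤ S.card * (Fintype.card β + p * D.card) := by
    have h1 : Z'.card ≤ S.card • (Fintype.card γ) := by
      apply Finset.card_biUnion_le_card_mul
      intro ψ _
      exact (Finset.card_image_le).trans (by simp)
    have h2 : Fintype.card γ = Fintype.card β + p * D.card := by
      simp [γ, Fintype.card_sum, Fintype.card_prod, mul_comm]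
    simpa [h2] using h1
  refine ⟨S.card, fun i => (S.equivFin.symm i).1, Z' ∪ Y, ?_, ?_, ?_, ?_, ?_⟩
  · intro i
    exact (hS1 _ (S.equivFin.symm i).2).1
  · intro i a b hab
    exact (hS1 _ (S.equivFin.symm i).2).2 a b hab
  · intro i j hij a b
    refine hS2 _ (S.equivFin.symm i).2 _ (S.equivFin.symm j).2 ?_ a b
    intro heq
    apply hij
    have := S.equivFin.symm.injective (Subtype.ext heq)
    exact this
  · have h1 : (Z' ∪ Y).card ≤ 2 * (S.card * (Fintype.card β + p * D.card)) := by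
      have := Finset.card_union_le Z' Y
      omega
    have h2 : (((Z' ∪ Y).card : ℕ) : ℝ) ≤ ((2 * (S.card * (Fintype.card β + p * D.card)) : ℕ) : ℝ) := by
      exact_mod_cast h1
    push_cast at h2
    linarith
  · intro φ hφ
    by_contra hcon
    push Not at hcon
    have hφe := mem_emb.1 (hE φ hφ)
    have hz1 : ∀ z, φ z ∉ Z' := fun z h => hcon z (Finset.mem_union_left _ h)
    have hz2 : ∀ z, ¬ (τ / 4 ≤ (((nb H (φ z)) ∩ Z').card : ℝ)) := by
      intro z h
      refine hcon z (Finset.mem_union_right _ ?_)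
      exact Finset.mem_sdiff.2 ⟨Finset.mem_filter.2 ⟨Finset.mem_univ _, h⟩, hz1 z⟩
    -- the free neighbours
    let N : β → Finset V := fun x => (nb H (φ x)) \ ((univ.image φ) ∪ Z')
    have hNsize : ∀ x ∈ D, τ / 2 ≤ ((N x).card : ℝ) := by
      intro x hx
      have h1 := hhub φ hφ x hx
      have h2 := hlight φ hφ x hx
      have h3 := hz2 x
      push Not at h3
      have h4 : (nb H (φ x)).card ≤ (N x).card + ((nb H (φ x)) ∩ univ.image φ).card + ((nb H (φ x)) ∩ Z').card := by
        have : nb H (φ x) ⊆ N x ∪ ((nb H (φ x)) ∩ univ.image φ) ∪ ((nb H (φ x)) ∩ Z') := by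
          intro v hv
          by_cases hv1 : v ∈ univ.image φ
          · exact Finset.mem_union_left _ (Finset.mem_union_right _ (Finset.mem_inter.2 ⟨hv, hv1⟩))
          · by_cases hv2 : v ∈ Z'
            · exact Finset.mem_union_right _ (Finset.mem_inter.2 ⟨hv, hv2⟩)
            · refine Finset.mem_union_left _ (Finset.mem_union_left _ ?_)
              refine Finset.mem_sdiff.2 ⟨hv, ?_⟩
              intro hv3
              rcases Finset.mem_union.1 hv3 with h | h
              · exact hv1 h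
              · exact hv2 h
        calc (nb H (φ x)).card ≤ _ := Finset.card_le_card this
          _ ≤ (N x ∪ ((nb H (φ x)) ∩ univ.image φ)).card + ((nb H (φ x)) ∩ Z').card := Finset.card_union_le _ _
          _ ≤ _ := by
            have := Finset.card_union_le (N x) ((nb H (φ x)) ∩ univ.image φ)
            omega
      have h5 : ((nb H (φ x)).card : ℝ) ≤ ((N x).card : ℝ) + (((nb H (φ x)) ∩ univ.image φ).card : ℝ) + (((nb H (φ x)) ∩ Z').card : ℝ) := by
        exact_mod_cast h4
      linarith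
    obtain ⟨g, hg1, hg2⟩ := hall_deco hG hs hHall φ hφe.1 D N
      (fun x _ => Finset.sdiff_subset)
      (by
        intro x _ w hw hw2
        exact (Finset.mem_sdiff.1 hw).2 (Finset.mem_union_left _ hw2))
      hNsize
    let ψ : γ → V := Sum.elim φ g
    have hψgood : Good ψ := by
      constructor
      · rintro (a | a) (b | b) hab
        · exact congrArg Sum.inl (hφe.1 hab)
        · exfalso
          have h1 := (Finset.mem_sdiff.1 (hg2 b)).2
          apply h1
          apply Finset.mem_union_left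
          rw [show g b = φ a from hab.symm]
          exact Finset.mem_image_of_mem _ (Finset.mem_univ _)
        · exfalso
          have h1 := (Finset.mem_sdiff.1 (hg2 a)).2
          apply h1
          apply Finset.mem_union_left
          rw [show g a = φ b from hab]
          exact Finset.mem_image_of_mem _ (Finset.mem_univ _)
        · exact congrArg Sum.inr (hg1 hab)
      · rintro (a | a) (b | b) hab
        · exact hφe.2 a b hab
        · have hab' : a = b.1.1 := hab
          have h1 := (Finset.mem_sdiff.1 (hg2 b)).1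
          rw [mem_nb] at h1
          show H.Adj (φ a) (g b)
          rw [hab']
          exact h1
        · have hab' : b = a.1.1 := hab
          have h1 := (Finset.mem_sdiff.1 (hg2 a)).1
          rw [mem_nb] at h1
          show H.Adj (g a) (φ b)
          rw [hab']
          exact h1.symm
        · exact False.elim hab
    have hψoff : ∀ a, ψ a ∉ Z' := by
      rintro (a | a)
      · exact hz1 a
      · intro h
        have h1 := (Finset.mem_sdiff.1 (hg2 a)).2
        exact h1 (Finset.mem_union_right _ h)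
    have hdisj : ∀ ψ' ∈ S, ∀ a b, ψ a ≠ ψ' b := by
      intro ψ' hψ' a b heq
      apply hψoff a
      rw [heq]
      exact Finset.mem_biUnion.2 ⟨ψ', hψ', Finset.mem_image_of_mem _ (Finset.mem_univ _)⟩
    have hnot : ψ ∉ S := by
      intro hmem
      obtain ⟨z⟩ := (inferInstance : Nonempty β)
      exact hdisj ψ hmem (Sum.inl z) (Sum.inl z) rfl
    have hins : insert ψ S ∈ Fam := by
      refine Finset.mem_filter.2 ⟨Finset.mem_univ _, ?_, ?_⟩
      · intro ψ' hψ'
        rcases Finset.mem_insert.1 hψ' with rfl | h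
        · exact hψgood
        · exact hS1 _ h
      · intro ψ₁ h1 ψ₂ h2 hne a b
        rcases Finset.mem_insert.1 h1 with rfl | h1
        · rcases Finset.mem_insert.1 h2 with rfl | h2
          · exact absurd rfl hne
          · exact hdisj ψ₂ h2 a b
        · rcases Finset.mem_insert.1 h2 with rfl | h2
          · exact fun heq => hdisj ψ₁ h1 b a heq.symm
          · exact hS2 _ h1 _ h2 hne a b
    have := hmax _ hins
    rw [Finset.card_insert_of_notMem hnot] at this
    omega

end Vale.Agent.Lib.P064U
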