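import Vale.Agent.Lib.P064U.ISets

/-!
Part T: facts on the weight `om`, the degree bound, the roots of a forest.
-/

open Finset

namespace Vale.Agent.Lib.P064U

open Vale.Agent.Lib.P064 Vale.Agent.Lib.P064E
open scoped Classical

variable {V α : Type} [Fintype V] [Fintype α] {F : SimpleGraph α} {H : SimpleGraph V} {n : ℕ}
  {q l lam : ℝ} {K C : Finset α}

/-- Edges at one vertex. -/
lemma card_tch_single {y : α} (hy : y ∈ K) : (tch F K {y}).card = nbIn F K y := by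
  have hY : ({y} : Finset α) ⊆ K := by simpa using hy
  have h1 : tch F K {y} = (K.filter (F.Adj y)).image (fun w => s(y, w)) := by
    ext e
    induction e using Sym2.ind with
    | _ u v =>
      rw [mem_tch_pair hY]
      simp only [Finset.mem_singleton, Finset.mem_image, Finset.mem_filter]
      constructor
      · rintro ⟨h1, h2, h3, h4 | h4⟩
        · subst h4
          exact ⟨v, ⟨h3, h1⟩, rfl⟩
        · subst h4
          exact ⟨u, ⟨h2, h1.symm⟩, Sym2.eq_swap⟩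
      · rintro ⟨w, ⟨h1, h2⟩, h3⟩
        rcases Sym2.eq_iff.1 h3 with ⟨rfl, rfl⟩ | ⟨rfl, rfl⟩
        · exact ⟨h2, hy, h1, Or.inl rfl⟩
        · exact ⟨h2.symm, h1, hy, Or.inr rfl⟩
  rw [h1, Finset.card_image_of_injective]
  · rfl
  · intro a b hab
    exact Sym2.congr_right.1 hab

/-- `deg2`: in a block with at least two vertices, every vertex has at least two neighbours. -/
lemma two_le_nbIn (hs : Std n q l lam) (hb : MinBlock F l lam K C) (h2 : 2 ≤ C.card) {y : α}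
    (hy : y ∈ C) : 2 ≤ nbIn F K y := by
  have h1 := hb.single_neg h2 hy
  rw [card_tch_single (hb.sub hy)] at h1
  by_contra hcon
  have hd : (nbIn F K y : ℝ) ≤ 1 := by
    have : nbIn F K y ≤ 1 := by omega
    exact_mod_cast this
  have hd0 : (0 : ℝ) ≤ nbIn F K y := Nat.cast_nonneg _
  have hlam := hs.lam1
  have hll := hs.lam_le
  nlinarith

/-- Darts inside `Q` number at most twice the edges. -/
lemma sum_nbIn_self_le (Q : Finset α) : ∑ y ∈ Q, nbIn F Q y ≤ 2 * (eIn F Q).card := by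
  set P : Finset (α × α) := (Q ×ˢ Q).filter (fun x => F.Adj x.1 x.2) with hP
  have hsum : ∑ y ∈ Q, nbIn F Q y = P.card := by
    unfold nbIn
    simp only [hP, Finset.card_filter, Finset.sum_product]
  rw [hsum]
  refine Finset.card_le_mul_card_image_of_maps_to (f := fun x : α × α => s(x.1, x.2)) ?_ 2 ?_
  · intro x hx
    obtain ⟨h1, h2⟩ := Finset.mem_filter.1 hx
    obtain ⟨h3, h4⟩ := Finset.mem_product.1 h1
    exact mem_eIn_pair.2 ⟨h2, h3, h4⟩
  · intro e _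
    induction e using Sym2.ind with
    | _ u v =>
      have hsub : P.filter (fun x => s(x.1, x.2) = s(u, v)) ⊆ {(u, v), (v, u)} := by
        intro x hx
        have h1 := (Finset.mem_filter.1 hx).2
        rcases Sym2.eq_iff.1 h1 with ⟨h2, h3⟩ | ⟨h2, h3⟩
        · simp [Prod.ext_iff, h2, h3]
        · simp [Prod.ext_iff, h2, h3]
      exact (Finset.card_le_card hsub).trans Finset.card_le_two

/-- Edges inside `Q` and darts out of `Q` are distinct edges touching `Q`. -/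
lemma eIn_add_sum_le {Q : Finset α} (hQ : Q ⊆ K) :
    (eIn F Q).card + ∑ y ∈ Q, nbIn F (K \ Q) y ≤ (tch F K Q).card := by
  set P : Finset (α × α) := (Q ×ˢ (K \ Q)).filter (fun x => F.Adj x.1 x.2) with hP
  have hsum : ∑ y ∈ Q, nbIn F (K \ Q) y = P.card := by
    unfold nbIn
    simp only [hP, Finset.card_filter, Finset.sum_product]
  rw [hsum]
  have hinj : Set.InjOn (fun x : α × α => s(x.1, x.2)) (P : Set (α × α)) := by
    intro a ha b hb hab
    have ha1 := Finset.mem_product.1 (Finset.mem_filter.1 (Finset.mem_coe.1 ha)).1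
    have hb1 := Finset.mem_product.1 (Finset.mem_filter.1 (Finset.mem_coe.1 hb)).1
    rcases Sym2.eq_iff.1 hab with ⟨h2, h3⟩ | ⟨h2, h3⟩
    · exact Prod.ext h2 h3
    · exfalso
      rw [h2] at ha1
      exact (Finset.mem_sdiff.1 hb1.2).2 ha1.1
  have hcard : (P.image (fun x : α × α => s(x.1, x.2))).card = P.card :=
    Finset.card_image_of_injOn hinj
  rw [← hcard, ← Finset.card_union_of_disjoint]
  · refine Finset.card_le_card ?_
    intro e he
    rcases Finset.mem_union.1 he with h | h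
    · induction e using Sym2.ind with
      | _ u v =>
        obtain ⟨h1, h2, h3⟩ := mem_eIn_pair.1 h
        exact (mem_tch_pair hQ).2 ⟨h1, hQ h2, hQ h3, Or.inl h2⟩
    · obtain ⟨x, hx, rfl⟩ := Finset.mem_image.1 h
      obtain ⟨h1, h2⟩ := Finset.mem_filter.1 hx
      obtain ⟨h3, h4⟩ := Finset.mem_product.1 h1
      exact (mem_tch_pair hQ).2 ⟨h2, hQ h3, (Finset.mem_sdiff.1 h4).1, Or.inl h3⟩
  · rw [Finset.disjoint_left]
    intro e he he'
    obtain ⟨x, hx, rfl⟩ := Finset.mem_image.1 he'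
    obtain ⟨h1, _⟩ := Finset.mem_filter.1 hx
    obtain ⟨_, h4⟩ := Finset.mem_product.1 h1
    exact (Finset.mem_sdiff.1 h4).2 (mem_eIn_pair.1 he).2.2

/-- The weight is at most the number of edges touching `Q`. -/
theorem om_le_tch {Q : Finset α} (hQ : Q ⊆ K) : om F K Q ≤ ((tch F K Q).card : ℝ) := by
  have h1 : (∑ y ∈ Q, (nbIn F Q y : ℝ)) ≤ 2 * ((eIn F Q).card : ℝ) := by
    exact_mod_cast sum_nbIn_self_le (F := F) Q
  have h2 : ((eIn F Q).card : ℝ) + ∑ y ∈ Q, (nbIn F (K \ Q) y : ℝ) ≤ ((tch F K Q).card : ℝ) := by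
    exact_mod_cast eIn_add_sum_le (F := F) hQ
  have h3 : 0 ≤ ∑ y ∈ Q, (nbIn F (K \ Q) y : ℝ) := Finset.sum_nonneg fun _ _ => Nat.cast_nonneg _
  have h4 : om F K Q = (∑ y ∈ Q, (nbIn F Q y : ℝ)) / 2 + 5 / 8 * ∑ y ∈ Q, (nbIn F (K \ Q) y : ℝ) := by
    unfold om
    rw [Finset.sum_add_distrib, Finset.sum_div, Finset.mul_sum]
  rw [h4]
  linarith

lemma om_nonneg {Q : Finset α} : 0 ≤ om F K Q := by
  unfold om
  exact Finset.sum_nonneg fun y _ => by positivity

/-- `ROOTS`: the fixed points of the parent function are at most the sources. -/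
lemma roots_card_le {Q₀ Lf : Finset α} {p : α → α} (hclosed : ∀ x ∈ Q₀, p x ∈ Q₀)
    (hreach : ∀ T : Finset α, Lf ⊆ T → (∀ x ∈ T, x ∈ Q₀ → p x ∈ T) → Q₀ ⊆ T)
    (hlf : Lf ⊆ Q₀) : (Q₀.filter (fun x => p x = x)).card ≤ Lf.card := by
  have h : ∀ r ∈ Q₀.filter (fun x => p x = x), ∃ y ∈ Lf, ∃ k : ℕ, p^[k] y = r := by
    intro r hr
    obtain ⟨hrQ, _⟩ := Finset.mem_filter.1 hr
    by_contra hcon
    push Not at hcon
    have hsub := hreach (Q₀.filter (fun y => ∀ k : ℕ, p^[k] y ≠ r))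
      (fun y hy => Finset.mem_filter.2 ⟨hlf hy, hcon y hy⟩)
      (by
        intro x hx hxQ
        refine Finset.mem_filter.2 ⟨hclosed x hxQ, fun k => ?_⟩
        have := (Finset.mem_filter.1 hx).2 (k + 1)
        rwa [Function.iterate_succ_apply] at this)
    have := (Finset.mem_filter.1 (hsub hrQ)).2 0
    exact this rfl
  choose! g hg hg2 using h
  refine Finset.card_le_card_of_injOn g (fun r hr => hg r hr) ?_
  intro r hr r' hr' hgg
  obtain ⟨k, hk⟩ := hg2 r hr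
  obtain ⟨k', hk'⟩ := hg2 r' hr'
  have hfix : ∀ {a : α}, p a = a → ∀ j : ℕ, p^[j] a = a := fun {a} ha j =>
    Function.iterate_fixed ha j
  have hr1 := (Finset.mem_filter.1 (Finset.mem_coe.1 hr)).2
  have hr2 := (Finset.mem_filter.1 (Finset.mem_coe.1 hr')).2
  have h1 : p^[k + k'] (g r) = r := by
    rw [Nat.add_comm, Function.iterate_add_apply, hk, hfix hr1]
  have h2 : p^[k + k'] (g r') = r' := by
    rw [Function.iterate_add_apply, hk', hfix hr2]
  rw [← h1, ← h2, hgg]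

/-- The weight decomposes along a forest decomposition: `om(Q) = ∑ om(P) + i + (3/8) c + (5/8) o`. -/
theorem om_decomp {Q Q₀ : Finset α} {parts : Finset (Finset α)} (hQ₀Q : Q₀ ⊆ Q) (hQK : Q ⊆ K)
    (hsub : ∀ P ∈ parts, P ⊆ Q \ Q₀) (hcover : ∀ x ∈ Q \ Q₀, ∃ P ∈ parts, x ∈ P)
    (hdisj : ∀ P ∈ parts, ∀ P' ∈ parts, P ≠ P' → Disjoint P P')
    (hna : ∀ P ∈ parts, ∀ P' ∈ parts, P ≠ P' → ∀ x ∈ P, ∀ y ∈ P', ¬ F.Adj x y) :
    om F K Q = ∑ P ∈ parts, om F K P +
      ∑ y ∈ Q₀, ((nbIn F Q₀ y : ℝ) / 2 + 3 / 8 * (nbIn F (Q \ Q₀) y : ℝ)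
        + 5 / 8 * (nbIn F ((K \ Q₀) \ (Q \ Q₀)) y : ℝ)) := by
  set Pt := Q \ Q₀ with hPt
  have hQeq : Q = Q₀ ∪ Pt := (Finset.union_sdiff_of_subset hQ₀Q).symm
  have hdQP : Disjoint Q₀ Pt := Finset.disjoint_sdiff
  have hKQ : (K \ Q₀) \ Pt = K \ Q := by
    ext x
    simp only [hPt, Finset.mem_sdiff]
    constructor
    · rintro ⟨⟨h1, h2⟩, h3⟩
      refine ⟨h1, fun h4 => h3 ⟨h4, h2⟩⟩
    · rintro ⟨h1, h2⟩
      exact ⟨⟨h1, fun h3 => h2 (hQ₀Q h3)⟩, fun h3 => h2 h3.1⟩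
  rw [hKQ]
  have hPtU : Pt = parts.biUnion id := by
    ext x
    simp only [Finset.mem_biUnion, id]
    constructor
    · exact hcover x
    · rintro ⟨P, hP, hx⟩
      exact hsub P hP hx
  have hnbQ : ∀ y, nbIn F Q y = nbIn F Q₀ y + nbIn F Pt y := fun y => by
    conv_lhs => rw [hQeq]
    exact nbIn_union hdQP y
  -- vertices in a part
  have hpart : ∀ P ∈ parts, ∀ y ∈ P,
      nbIn F Pt y = nbIn F P y ∧ nbIn F (K \ P) y = nbIn F (K \ Q) y + nbIn F Q₀ y := by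
    intro P hP y hy
    have hoth : ∀ w ∈ Pt, F.Adj y w → w ∈ P := by
      intro w hw hadj
      obtain ⟨P', hP', hwP'⟩ := hcover w hw
      by_cases hPP' : P = P'
      · exact hPP' ▸ hwP'
      · exact absurd hadj (hna P hP P' hP' hPP' y hy w hwP')
    constructor
    · unfold nbIn
      congr 1
      ext w
      simp only [Finset.mem_filter]
      constructor
      · rintro ⟨h1, h2⟩
        exact ⟨hoth w h1 h2, h2⟩
      · rintro ⟨h1, h2⟩
        exact ⟨hsub P hP h1, h2⟩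
    · have h1 : (K \ P).filter (F.Adj y) = ((K \ Q) ∪ Q₀).filter (F.Adj y) := by
        ext w
        simp only [Finset.mem_filter, Finset.mem_sdiff, Finset.mem_union]
        constructor
        · rintro ⟨⟨h1, h2⟩, h3⟩
          refine ⟨?_, h3⟩
          by_cases hw : w ∈ Q
          · by_cases hw0 : w ∈ Q₀
            · exact Or.inr hw0
            · exact absurd (hoth w (Finset.mem_sdiff.2 ⟨hw, hw0⟩) h3) h2
          · exact Or.inl ⟨h1, hw⟩
        · rintro ⟨h1 | h1, h3⟩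
          · refine ⟨⟨h1.1, fun h4 => h1.2 ?_⟩, h3⟩
            exact (Finset.mem_sdiff.1 (hsub P hP h4)).1
          · refine ⟨⟨hQK (hQ₀Q h1), fun h4 => ?_⟩, h3⟩
            exact (Finset.mem_sdiff.1 (hsub P hP h4)).2 h1
      have h2 : Disjoint (K \ Q) Q₀ := by
        rw [Finset.disjoint_left]
        intro w hw hw0
        exact (Finset.mem_sdiff.1 hw).2 (hQ₀Q hw0)
      have h3 := nbIn_union (F := F) h2 y
      unfold nbIn at h3 ⊢
      rw [h1, h3]
  -- the main computation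
  set Bv : α → ℝ := fun y => (nbIn F Q y : ℝ) / 2 + 5 / 8 * (nbIn F (K \ Q) y : ℝ) with hBv
  have hom : om F K Q = ∑ y ∈ Q₀, Bv y + ∑ y ∈ Pt, Bv y := by
    have : om F K Q = ∑ y ∈ Q, Bv y := rfl
    rw [this, ← Finset.sum_union hdQP, ← hQeq]
  have hparts : ∀ P ∈ parts, om F K P = ∑ y ∈ P, (Bv y + 1 / 8 * (nbIn F Q₀ y : ℝ)) := by
    intro P hP
    unfold om
    refine Finset.sum_congr rfl fun y hy => ?_
    obtain ⟨h1, h2⟩ := hpart P hP y hy
    simp only [hBv]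
    rw [hnbQ y, h1, h2]
    push_cast
    ring
  have hsumP : ∑ P ∈ parts, om F K P = ∑ y ∈ Pt, (Bv y + 1 / 8 * (nbIn F Q₀ y : ℝ)) := by
    rw [hPtU]
    exact (Finset.sum_congr rfl hparts).trans
      (Finset.sum_biUnion (fun P hP P' hP' hne => hdisj P hP P' hP' hne)).symm
  have hcomm : ∑ y ∈ Pt, (nbIn F Q₀ y : ℝ) = ∑ y ∈ Q₀, (nbIn F Pt y : ℝ) := by
    exact_mod_cast sum_nbIn_comm Pt Q₀
  have h5 : ∑ y ∈ Pt, (Bv y + 1 / 8 * (nbIn F Q₀ y : ℝ)) =
      ∑ y ∈ Pt, Bv y + 1 / 8 * ∑ y ∈ Q₀, (nbIn F Pt y : ℝ) := by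
    rw [← hcomm, Finset.mul_sum, ← Finset.sum_add_distrib]
  rw [hom, hsumP, h5]
  have hq : ∑ y ∈ Q₀, Bv y = ∑ y ∈ Q₀, ((nbIn F Q₀ y : ℝ) / 2 + 3 / 8 * (nbIn F Pt y : ℝ)
        + 5 / 8 * (nbIn F (K \ Q) y : ℝ)) + 1 / 8 * ∑ y ∈ Q₀, (nbIn F Pt y : ℝ) := by
    rw [Finset.mul_sum, ← Finset.sum_add_distrib]
    refine Finset.sum_congr rfl fun y _ => ?_
    simp only [hBv]
    rw [hnbQ y]
    push_cast
    ring
  rw [hq]
  ring

end Vale.Agent.Lib.P064U
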