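import Vale.Agent.Lib.P064U.Main

/-!
The embedding bound from minimal non-deficient up-sets.
-/

open Finset

namespace Vale.Agent.Lib.P064U

open Vale.Agent.Lib.P064 Vale.Agent.Lib.P064N

open scoped Classical

/-- The loss per edge. -/
noncomputable def upL (x Q τ₀ B : ℝ) : ℝ :=
  max (((x / Q + 1) / τ₀) *
        Real.exp (((16 / 3) * τ₀ + (4 / 3) * ((x + 1 - Q) / Q)) *
          Real.log ((x / Q + 1) * (Q + 1 / τ₀ + 1))) *
      B * Real.exp (((x + 1 - Q) / Q) * Real.log x))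
    ((x / Real.log B) / Real.exp (x - Q))

variable {V : Type} [Fintype V] {H : SimpleGraph V} {n : ℕ} {q : ℝ}

/-- The weights for the walk. -/
theorem exists_weights2 (hn : 1 ≤ n) (hq0 : 0 < q) (hqe : q ≤ Real.exp (-1))
    (hG : GoodDensity n q H) (hxpos : 0 < Real.log n) {τ₀ : ℝ} (hτ₀ : 0 < τ₀) (hτ₁ : τ₀ ≤ 1 / 16) :
    ∃ (w : V → V → ℕ) (M c T : ℕ), 1 ≤ M ∧ 1 ≤ T ∧ 1 ≤ c ∧
      (∀ a b, H.Adj a b → w a b + w b a = M) ∧ (∀ a, ∑ b, w a b ≤ c) ∧
      (T : ℝ) ≤ 2 * τ₀ * M ∧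
      (c : ℝ) * (- Real.log q) ≤ (Real.log n + 1) * M ∧
      ((c / T : ℕ) : ℝ) ≤ (Real.log n / (- Real.log q) + 1) / τ₀ ∧
      (c : ℝ) ≤ (Real.log n / (- Real.log q) + 1) * (- Real.log q + 1 / τ₀ + 1) := by
  have hn1 : (1 : ℝ) ≤ n := by exact_mod_cast hn
  have hn0 : (0 : ℝ) < n := by linarith
  have hL0 : 0 ≤ Real.log n := Real.log_nonneg hn1
  set Q := - Real.log q with hQ
  have hq1 : q ≤ 1 := hqe.trans (by
    rw [Real.exp_le_one_iff]; norm_num)
  have hQ1 : 1 ≤ Q := by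
    have := Real.log_le_log hq0 hqe
    rw [Real.log_exp] at this
    rw [hQ]
    linarith
  have hQ0 : 0 < Q := by linarith
  set M := ⌈Q + 1 / τ₀⌉₊ with hM
  have hinv : 16 ≤ 1 / τ₀ := by
    rw [le_div_iff₀ hτ₀]
    linarith
  have hQM : Q + 1 / τ₀ ≤ M := Nat.le_ceil _
  have hQMup : (M : ℝ) < Q + 1 / τ₀ + 1 := Nat.ceil_lt_add_one (by positivity)
  have hM1 : 1 ≤ M := by
    have : (1 : ℝ) ≤ M := by linarith
    exact_mod_cast this
  have hM1' : (1 : ℝ) ≤ M := by exact_mod_cast hM1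
  have hMpos : (0 : ℝ) < M := by linarith
  have hτM : 1 ≤ τ₀ * M := by
    have h1 : 1 / τ₀ ≤ M := by linarith
    rw [div_le_iff₀ hτ₀] at h1
    linarith
  set T := ⌈τ₀ * M⌉₊ with hT
  have hT1 : τ₀ * M ≤ T := Nat.le_ceil _
  have hT2 : (T : ℝ) < τ₀ * M + 1 := Nat.ceil_lt_add_one (by positivity)
  have hT1' : 1 ≤ T := by
    have : (1 : ℝ) ≤ T := by linarith
    exact_mod_cast this
  set c := ⌈(M : ℝ) * Real.log n / Q⌉₊ with hc
  have hc1 : (M : ℝ) * Real.log n / Q ≤ c := Nat.le_ceil _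
  have hc2 : (c : ℝ) < (M : ℝ) * Real.log n / Q + 1 :=
    Nat.ceil_lt_add_one (by positivity)
  have hc3 : (M : ℝ) * Real.log n ≤ c * Q := by
    rwa [div_le_iff₀ hQ0] at hc1
  have hc4 : (c : ℝ) * Q ≤ (M : ℝ) * Real.log n + Q := by
    have : (M : ℝ) * Real.log n / Q + 1 = ((M : ℝ) * Real.log n + Q) / Q := by
      field_simp
    rw [this, lt_div_iff₀ hQ0] at hc2
    exact hc2.le
  have hc01 : 1 ≤ c := by
    have h1 : 0 < (M : ℝ) * Real.log n / Q := by positivity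
    have h2 : (0 : ℝ) < c := by linarith
    have h3 : 0 < c := by exact_mod_cast h2
    omega
  have hall : ∀ T : Finset (Sym2 V), (∀ e ∈ T, e ∈ H.edgeSet) →
      M * T.card ≤ c * (T.biUnion fun e => e.toFinset).card := by
    intro T hT
    by_cases hne : T.Nonempty
    · have h1 := density_of_good hG hq0 hq1 T hT hne
      set w := (T.biUnion fun e => e.toFinset).card with hw
      have h2 : (T.card : ℝ) * Q ≤ w * Real.log n := by
        have h3 := Real.log_le_log (by norm_num) h1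
        rw [Real.log_one, Real.log_mul (by positivity) (by positivity), Real.log_pow,
          Real.log_pow] at h3
        rw [hQ]
        linarith
      have h4 : (M : ℝ) * T.card ≤ c * w := by
        have h5 : ((M : ℝ) * T.card) * Q ≤ (c * w) * Q := by
          calc ((M : ℝ) * T.card) * Q = M * (T.card * Q) := by ring
            _ ≤ M * (w * Real.log n) := mul_le_mul_of_nonneg_left h2 hMpos.le
            _ = w * (M * Real.log n) := by ring
            _ ≤ w * (c * Q) := mul_le_mul_of_nonneg_left hc3 (Nat.cast_nonneg _)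
            _ = _ := by ring
        exact le_of_mul_le_mul_right h5 hQ0
      exact_mod_cast h4
    · rw [Finset.not_nonempty_iff_eq_empty] at hne
      subst hne
      simp
  obtain ⟨w, hw, hs⟩ := orient_weights H M c hall
  have hcM : (c : ℝ) ≤ (Real.log n / Q + 1) * M := by
    have h2 : (M : ℝ) * Real.log n / Q = Real.log n / Q * M := by ring
    have h3 : (Real.log n / Q + 1) * M = Real.log n / Q * M + M := by ring
    rw [h3]
    linarith
  have hr0 : 0 ≤ Real.log n / Q + 1 := by positivity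
  refine ⟨w, M, c, T, hM1, hT1', hc01, hw, hs, ?_, ?_, ?_, ?_⟩
  · have : (1 : ℝ) ≤ τ₀ * M := hτM
    have h2 : 2 * τ₀ * M = τ₀ * M + τ₀ * M := by ring
    linarith
  · have hQM' : Q ≤ M := by
      have : 0 < 1 / τ₀ := by positivity
      linarith
    have : (Real.log n + 1) * M = M * Real.log n + M := by ring
    rw [this]
    linarith
  · have hTpos : (0 : ℝ) < T := by
      have : (1 : ℝ) ≤ T := by exact_mod_cast hT1'
      linarith
    have h1 : ((c / T : ℕ) : ℝ) ≤ (c : ℝ) / T := Nat.cast_div_le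
    refine h1.trans ?_
    rw [div_le_div_iff₀ hTpos hτ₀]
    calc (c : ℝ) * τ₀ ≤ ((Real.log n / Q + 1) * M) * τ₀ :=
          mul_le_mul_of_nonneg_right hcM hτ₀.le
      _ = (Real.log n / Q + 1) * (τ₀ * M) := by ring
      _ ≤ (Real.log n / Q + 1) * T := mul_le_mul_of_nonneg_left hT1 hr0
  · exact hcM.trans (mul_le_mul_of_nonneg_left hQMup.le hr0)

/-- The embedding bound. -/
theorem embBound_up (hn : 2 ≤ n) (hV : Fintype.card V ≤ n) (hq0 : 0 < q)
    (hqe : q ≤ Real.exp (-1)) (hG : GoodDensity n q H) (hx : 1 ≤ Real.log n)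
    (hQx : - Real.log q ≤ Real.log n) {τ₀ B : ℝ} (hτ₀ : 0 < τ₀) (hτ₁ : τ₀ ≤ 1 / 16)
    (hB : Real.exp 1 ≤ B) :
    EmbBound n H (2048 * Real.exp 6 * upL (Real.log n) (- Real.log q) τ₀ B * q) := by
  intro β _ F hiso hvn
  have hn2 : (2 : ℝ) ≤ n := by exact_mod_cast hn
  have hn1 : (1 : ℝ) ≤ n := by linarith
  have hn0 : (0 : ℝ) < n := by linarith
  have hn' : 1 ≤ n := by omega
  have hq1 : q ≤ 1 := hqe.trans (by
    rw [Real.exp_le_one_iff]; norm_num)
  obtain ⟨w, M, c, T, hM, hT, hc1, hw, hs, hτ, hacc, hc', hcB⟩ :=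
    exists_weights2 (H := H) hn' hq0 hqe hG (by linarith) hτ₀ hτ₁
  have hQ1 : 1 ≤ - Real.log q := by
    have := Real.log_le_log hq0 hqe
    rw [Real.log_exp] at this
    linarith
  have hQ0 : 0 < - Real.log q := by linarith
  obtain ⟨x, hxdef⟩ : ∃ x, x = Real.log n := ⟨_, rfl⟩
  obtain ⟨Q, hQdef⟩ : ∃ Q, Q = - Real.log q := ⟨_, rfl⟩
  rw [← hxdef] at hx hQx hacc hc' hcB ⊢
  rw [← hQdef] at hQx hacc hc' hcB hQ1 hQ0 ⊢
  have hx0 : 0 < x := by linarith
  have hB1 : (1 : ℝ) ≤ B := (Real.one_le_exp (by norm_num)).trans hB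
  have hB0 : 0 < B := by linarith
  obtain ⟨L, hLdef⟩ : ∃ L, L = upL x Q τ₀ B := ⟨_, rfl⟩
  rw [← hLdef]
  have hMpos : (0 : ℝ) < M := by
    have : (1 : ℝ) ≤ M := by exact_mod_cast hM
    linarith
  obtain ⟨κ, hκdef⟩ : ∃ κ, κ = (x + 1 - Q) / Q := ⟨_, rfl⟩
  have hκ0 : 0 < κ := by
    rw [hκdef]
    apply div_pos _ hQ0
    linarith
  have h1κ : (1 + κ) * Q = x + 1 := by
    rw [hκdef]
    field_simp
    ring
  have hρ' : (c : ℝ) ≤ (1 + κ) * M := by
    have h1 : (c : ℝ) * Q ≤ ((1 + κ) * M) * Q := by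
      calc (c : ℝ) * Q ≤ (x + 1) * M := hacc
        _ = ((1 + κ) * Q) * M := by rw [h1κ]
        _ = _ := by ring
    exact le_of_mul_le_mul_right h1 hQ0
  have hC₁ : 1 ≤ (x / Q + 1) / τ₀ := by
    rw [le_div_iff₀ hτ₀]
    have : 0 ≤ x / Q := by positivity
    linarith
  obtain ⟨cB, hcBdef⟩ : ∃ cB, cB = (x / Q + 1) * (Q + 1 / τ₀ + 1) := ⟨_, rfl⟩
  rw [← hcBdef] at hcB
  have hc1R : (1 : ℝ) ≤ c := by exact_mod_cast hc1
  have hcB1 : 1 ≤ cB := hc1R.trans hcB
  have hlogc : Real.log c ≤ Real.log cB := Real.log_le_log (by linarith) hcB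
  have hlogcB : 0 ≤ Real.log cB := Real.log_nonneg hcB1
  have hθ : 0 ≤ (8 / 3) * (2 * τ₀) + (4 / 3) * κ := by positivity
  have hθ' : (8 / 3) * (2 * τ₀) + (4 / 3) * κ = (16 / 3) * τ₀ + (4 / 3) * κ := by ring
  obtain ⟨C₀, hC₀def⟩ : ∃ C₀, C₀ = ((x / Q + 1) / τ₀) *
      Real.exp (((16 / 3) * τ₀ + (4 / 3) * κ) * Real.log cB) := ⟨_, rfl⟩
  have hC₀1 : 1 ≤ C₀ := by
    rw [hC₀def]
    have h1 : 1 ≤ Real.exp (((16 / 3) * τ₀ + (4 / 3) * κ) * Real.log cB) := by
      apply Real.one_le_exp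
      rw [← hθ']
      positivity
    calc (1 : ℝ) = 1 * 1 := by norm_num
      _ ≤ _ := mul_le_mul hC₁ h1 (by norm_num) (by linarith)
  have hc₁bd : ((max (c / T) 1 : ℕ) : ℝ) ≤ (x / Q + 1) / τ₀ := by
    rw [Nat.cast_max]
    apply max_le hc'
    exact_mod_cast hC₁
  have hL1 : C₀ * B * Real.exp (κ * Real.log x) ≤ L := by
    rw [hLdef]
    refine le_trans ?_ (le_max_left _ _)
    rw [← hκdef, ← hcBdef, hC₀def]
  have hL2 : x / Real.log B ≤ L * Real.exp (x - Q) := by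
    rw [hLdef]
    have h1 : (x / Real.log B) / Real.exp (x - Q) ≤ upL x Q τ₀ B := le_max_right _ _
    rwa [div_le_iff₀ (Real.exp_pos _)] at h1
  have hL1' : 1 ≤ L := by
    refine le_trans ?_ hL1
    have h3 : (1 : ℝ) ≤ Real.exp (κ * Real.log x) :=
      Real.one_le_exp (mul_nonneg hκ0.le (Real.log_nonneg hx))
    calc (1 : ℝ) = 1 * 1 * 1 := by norm_num
      _ ≤ _ := by gcongr
  subst hxdef hQdef
  have hP : Params H n q w M c T (max (c / T) 1) κ (2 * τ₀) B C₀ L := {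
    hG := hG
    hq0 := hq0
    hq1 := hq1
    hn := hn
    hV := hV
    hw := hw
    hs := hs
    hM := by omega
    hκ := hκ0
    hτ0 := by positivity
    hτ := by linarith
    hρ := hρ'
    hTτ := hτ
    hc₁1 := le_max_right _ _
    hc₁ := fun a => (arcT_out hs hT a).trans (le_max_left _ _)
    hc1 := hc1
    hx := hx
    hQ0 := hQ0
    hQx := hQx
    hacc := h1κ.le
    hB := hB
    hC₀1 := hC₀1
    hC₀ := by
      rw [hC₀def, ← hθ']
      have h1 : Real.exp (((8 / 3) * (2 * τ₀) + (4 / 3) * κ) * Real.log c) ≤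
          Real.exp (((8 / 3) * (2 * τ₀) + (4 / 3) * κ) * Real.log cB) :=
        Real.exp_le_exp.2 (mul_le_mul_of_nonneg_left hlogc hθ)
      exact mul_le_mul hc₁bd h1 (Real.exp_pos _).le (by linarith)
    hL1 := hL1
    hL2 := hL2 }
  have hmain := emb_bound_up (F := F) hP
  refine hmain.trans ?_
  set e := (eIn F univ).card with he
  set v := Fintype.card β with hv
  have hve : v ≤ 2 * e := (vertices_le_darts hiso).trans darts_card_le
  have hnd := pow_le_exp_descFactorial hvn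
  set d : ℝ := (n.descFactorial v : ℝ) with hd
  have hd0 : 0 ≤ d := Nat.cast_nonneg _
  set E := Real.exp 1 with hE
  have hE1 : 1 ≤ E := Real.one_le_exp (by norm_num)
  have h2 : Real.exp 2 = E ^ 2 := by
    rw [hE, ← Real.exp_nat_mul]
    norm_num
  have h6 : Real.exp 6 = E ^ 6 := by
    rw [hE, ← Real.exp_nat_mul]
    norm_num
  rw [h2, h6]
  have hb : (1 : ℝ) ≤ 8 * E ^ 3 := by
    have : (1 : ℝ) ≤ E ^ 3 := one_le_pow₀ hE1
    linarith
  have hpow : (8 * E ^ 3) ^ v ≤ (8 * E ^ 3) ^ (2 * e) := pow_le_pow_right₀ hb hve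
  have e0 : (0 : ℝ) ≤ E := by linarith
  have hK0 : (0 : ℝ) < 2 * L := by linarith
  calc 16 ^ e * ((8 * E ^ 2) ^ v * (2 * L) ^ e * ((n : ℝ) ^ v * q ^ e))
      ≤ 16 ^ e * ((8 * E ^ 2) ^ v * (2 * L) ^ e * ((E ^ v * d) * q ^ e)) := by
        gcongr
    _ = (8 * E ^ 3) ^ v * (16 ^ e * (2 * L) ^ e * q ^ e * d) := by
        have : (8 * E ^ 3) ^ v = (8 * E ^ 2) ^ v * E ^ v := by
          rw [← mul_pow]
          ring_nf
        rw [this]
        ring
    _ ≤ (8 * E ^ 3) ^ (2 * e) * (16 ^ e * (2 * L) ^ e * q ^ e * d) := by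
        gcongr
    _ = (2048 * E ^ 6 * L * q) ^ e * d := by
        have h8 : (2048 * E ^ 6 * L * q) ^ e =
            (8 * E ^ 3) ^ (2 * e) * 16 ^ e * (2 * L) ^ e * q ^ e := by
          rw [pow_mul (8 * E ^ 3) 2 e, ← mul_pow, ← mul_pow, ← mul_pow]
          congr 1
          ring
        rw [h8]
        ring

end Vale.Agent.Lib.P064U
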