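import Vale.Agent.Lib.P064U.Emb
import Vale.Agent.Lib.P064N.Final

/-!
The numerical form of the bound from minimal non-deficient up-sets.
-/

open Finset

namespace Vale.Agent.Lib.P064U

open Vale.Agent.Lib.P064 Vale.Agent.Lib.P064N

open scoped Classical

lemma exp_four_ge : (49 : ℝ) ≤ Real.exp 4 := by
  have h3 : (2.7 : ℝ) < Real.exp 1 := by
    have := Real.exp_one_gt_d9
    linarith
  have h4 : Real.exp 4 = Real.exp 1 ^ 4 := by
    rw [← Real.exp_nat_mul]
    norm_num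
  rw [h4]
  calc (49 : ℝ) ≤ (2.7 : ℝ) ^ 4 := by norm_num
    _ ≤ Real.exp 1 ^ 4 := pow_le_pow_left₀ (by norm_num) h3.le 4

/-- The loss per edge, for the choice of the threshold. -/
lemma upL_bound {x Q B : ℝ} (hx : 100 ≤ x) (hQ2 : x / 2 ≤ Q) (hQx : Q ≤ x - 1)
    (hB : Real.exp 1 ≤ B) :
    upL x Q (1 / (16 * (1 + Real.log (8 * x)))) B ≤
      192 * Real.exp 21 * (1 + Real.log x) * B * Real.exp ((7 / 3) * ((x + 1 - Q) / Q) * Real.log x) +
        (x / Real.log B) / Real.exp (x - Q) := by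
  have hx0 : 0 < x := by linarith
  have hQ0 : 0 < Q := by linarith
  have hB0 : 0 < B := lt_of_lt_of_le (Real.exp_pos 1) hB
  have hlB : 1 ≤ Real.log B := by
    have := Real.log_le_log (Real.exp_pos 1) hB
    rwa [Real.log_exp] at this
  obtain ⟨ly, hly⟩ : ∃ ly, ly = 1 + Real.log (8 * x) := ⟨_, rfl⟩
  rw [← hly]
  have hlog8 : Real.log 8 ≤ 3 := by
    have h1 : Real.log 8 = 3 * Real.log 2 := by
      rw [show (8 : ℝ) = 2 ^ 3 by norm_num, Real.log_pow]
      norm_num
    have h2 := Real.log_two_lt_d9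
    linarith
  have hlog8x : Real.log (8 * x) = Real.log 8 + Real.log x := Real.log_mul (by norm_num) hx0.ne'
  have hlogx : 0 ≤ Real.log x := Real.log_nonneg (by linarith)
  have hlog80 : 0 ≤ Real.log 8 := Real.log_nonneg (by norm_num)
  have hly1 : 1 ≤ ly := by
    rw [hly, hlog8x]
    linarith
  have hly0 : 0 < ly := by linarith
  have hly2 : ly ≤ 4 * (1 + Real.log x) := by
    rw [hly, hlog8x]
    linarith
  have hly3 : ly ≤ 8 * x := by
    have := Real.log_le_sub_one_of_pos (show 0 < 8 * x by positivity)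
    rw [hly]
    linarith
  obtain ⟨τ₀, hτ⟩ : ∃ τ₀, τ₀ = 1 / (16 * ly) := ⟨_, rfl⟩
  rw [← hτ]
  have hτ0 : 0 < τ₀ := by
    rw [hτ]
    positivity
  have hτinv : 1 / τ₀ = 16 * ly := by
    rw [hτ]
    field_simp
  obtain ⟨κ, hκ⟩ : ∃ κ, κ = (x + 1 - Q) / Q := ⟨_, rfl⟩
  have hκ0 : 0 ≤ κ := by
    rw [hκ]
    apply div_nonneg _ hQ0.le
    linarith
  have hκ2 : κ ≤ 2 := by
    rw [hκ, div_le_iff₀ hQ0]
    linarith
  have h1 : x / Q + 1 ≤ 3 := by
    have : x / Q ≤ 2 := by
      rw [div_le_iff₀ hQ0]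
      linarith
    linarith
  have h10 : 1 ≤ x / Q + 1 := by
    have : 0 ≤ x / Q := by positivity
    linarith
  unfold upL
  rw [← hκ]
  obtain ⟨cB, hcB⟩ : ∃ cB, cB = (x / Q + 1) * (Q + 1 / τ₀ + 1) := ⟨_, rfl⟩
  rw [← hcB]
  have hinner : Q + 1 / τ₀ + 1 ≤ 130 * x := by
    rw [hτinv]
    linarith
  have hinner0 : 0 < Q + 1 / τ₀ + 1 := by
    have : 0 < 1 / τ₀ := by positivity
    linarith
  have hcB1 : 0 < cB := by
    rw [hcB]
    positivity
  have hcBup : cB ≤ 8 * x * Real.exp 4 := by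
    have h49 := exp_four_ge
    rw [hcB]
    calc (x / Q + 1) * (Q + 1 / τ₀ + 1) ≤ 3 * (130 * x) :=
          mul_le_mul h1 hinner hinner0.le (by norm_num)
      _ = 8 * x * (390 / 8) := by ring
      _ ≤ 8 * x * Real.exp 4 := by
          apply mul_le_mul_of_nonneg_left _ (by positivity)
          linarith
  have hlogcB : Real.log cB ≤ ly + 3 := by
    have h2 := Real.log_le_log hcB1 hcBup
    rw [Real.log_mul (by positivity) (Real.exp_pos _).ne', Real.log_exp] at h2
    rw [hly]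
    linarith
  have hlogcB2 : Real.log cB ≤ Real.log x + 7 := by
    rw [hly, hlog8x] at hlogcB
    linarith
  have hθ : ((16 / 3) * τ₀ + (4 / 3) * κ) * Real.log cB ≤ 21 + (4 / 3) * κ * Real.log x := by
    have h2 : (16 / 3) * τ₀ * Real.log cB ≤ (16 / 3) * τ₀ * (ly + 3) :=
      mul_le_mul_of_nonneg_left hlogcB (by positivity)
    have h3 : (16 / 3) * τ₀ * (ly + 3) = (ly + 3) / (3 * ly) := by
      rw [hτ]
      field_simp
    have h4 : (ly + 3) / (3 * ly) ≤ 4 / 3 := by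
      rw [div_le_iff₀ (by positivity)]
      linarith
    have h5 : (4 / 3) * κ * Real.log cB ≤ (4 / 3) * κ * (Real.log x + 7) :=
      mul_le_mul_of_nonneg_left hlogcB2 (by positivity)
    have h6 : (4 / 3) * κ * 7 ≤ 19 := by linarith
    calc ((16 / 3) * τ₀ + (4 / 3) * κ) * Real.log cB
        = (16 / 3) * τ₀ * Real.log cB + (4 / 3) * κ * Real.log cB := by ring
      _ ≤ 4 / 3 + (4 / 3) * κ * (Real.log x + 7) := by linarith
      _ = 4 / 3 + (4 / 3) * κ * Real.log x + (4 / 3) * κ * 7 := by ring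
      _ ≤ 21 + (4 / 3) * κ * Real.log x := by linarith
  have hC : (x / Q + 1) / τ₀ ≤ 48 * ly := by
    have h2 : (x / Q + 1) / τ₀ = (x / Q + 1) * (1 / τ₀) := by ring
    rw [h2, hτinv]
    calc (x / Q + 1) * (16 * ly) ≤ 3 * (16 * ly) :=
          mul_le_mul_of_nonneg_right h1 (by positivity)
      _ = _ := by ring
  have hS2 : 0 ≤ (x / Real.log B) / Real.exp (x - Q) := by positivity
  have hS1 : 0 ≤ 192 * Real.exp 21 * (1 + Real.log x) * B * Real.exp ((7 / 3) * κ * Real.log x) := by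
    positivity
  apply max_le
  · have hexp : Real.exp (((16 / 3) * τ₀ + (4 / 3) * κ) * Real.log cB) ≤
        Real.exp 21 * Real.exp ((4 / 3) * κ * Real.log x) := by
      rw [← Real.exp_add]
      exact Real.exp_le_exp.2 hθ
    have hC0 : 0 ≤ (x / Q + 1) / τ₀ := by positivity
    calc (x / Q + 1) / τ₀ * Real.exp (((16 / 3) * τ₀ + (4 / 3) * κ) * Real.log cB) * B *
          Real.exp (κ * Real.log x)
        ≤ (48 * ly) * (Real.exp 21 * Real.exp ((4 / 3) * κ * Real.log x)) * B *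
          Real.exp (κ * Real.log x) := by
          gcongr
      _ = 48 * ly * Real.exp 21 * B *
          (Real.exp ((4 / 3) * κ * Real.log x) * Real.exp (κ * Real.log x)) := by ring
      _ = 48 * ly * Real.exp 21 * B * Real.exp ((7 / 3) * κ * Real.log x) := by
          rw [← Real.exp_add]
          congr 2
          ring
      _ ≤ 48 * (4 * (1 + Real.log x)) * Real.exp 21 * B * Real.exp ((7 / 3) * κ * Real.log x) := by
          gcongr
      _ = 192 * Real.exp 21 * (1 + Real.log x) * B * Real.exp ((7 / 3) * κ * Real.log x) := by ring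
      _ ≤ _ := le_add_of_nonneg_right hS2
  · exact le_add_of_nonneg_left hS1

/-- The exponent `κ` against the exponent in terms of `p`. -/
lemma kappa_bound {x N p q E Q : ℝ} (hx : 100 ≤ x) (hN : N = Real.exp x) (hp : 0 < p)
    (hE : E = Real.exp 1) (hq : q = max (4 * p) (E / N)) (hQ : Q = - Real.log q)
    (hQ2 : x / 2 ≤ Q) :
    (x + 1 - Q) / Q ≤ max 0 (x / Real.log (1 / p) - 1) + 8 / x := by
  have hx0 : 0 < x := by linarith
  have hQ0 : 0 < Q := by linarith
  have hN0 : 0 < N := by rw [hN]; exact Real.exp_pos _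
  have hE0 : 0 < E := by rw [hE]; exact Real.exp_pos _
  by_cases hcase : E / N ≤ 4 * p
  · have hq1 : q = 4 * p := by
      rw [hq]
      exact max_eq_left hcase
    obtain ⟨A, hA⟩ : ∃ A, A = Real.log (1 / p) := ⟨_, rfl⟩
    rw [← hA]
    have hlog4 : Real.log 4 ≤ 3 / 2 := by
      have h3 : Real.log 4 = 2 * Real.log 2 := by
        rw [show (4 : ℝ) = 2 ^ 2 by norm_num, Real.log_pow]
        norm_num
      have := Real.log_two_lt_d9
      rw [h3]
      linarith
    have hlog40 : 0 ≤ Real.log 4 := Real.log_nonneg (by norm_num)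
    obtain ⟨l4, hl4⟩ : ∃ l4, l4 = Real.log 4 := ⟨_, rfl⟩
    rw [← hl4] at hlog4 hlog40
    have hAQ : A = Q + l4 := by
      rw [hA, hQ, hq1, Real.log_mul (by norm_num) hp.ne', one_div, Real.log_inv, hl4]
      ring
    have hA0 : 0 < A := by linarith
    have hkey : (x + 1 - Q) / Q = x / A - 1 + (1 / Q + (x / A) * (l4 / Q)) := by
      rw [hAQ]
      field_simp
      ring
    have h1 : 1 / Q ≤ 2 / x := by
      rw [div_le_div_iff₀ hQ0 hx0]
      linarith
    have h2 : x / A ≤ 2 := by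
      rw [div_le_iff₀ hA0]
      linarith
    have h3 : l4 / Q ≤ 3 / x := by
      rw [div_le_div_iff₀ hQ0 hx0]
      have h5 : l4 * x ≤ 3 / 2 * x := mul_le_mul_of_nonneg_right hlog4 hx0.le
      linarith
    have h4 : (x / A) * (l4 / Q) ≤ 2 * (3 / x) :=
      mul_le_mul h2 h3 (by positivity) (by norm_num)
    have h5 : 2 * (3 / x) = 6 / x := by ring
    have h6 : 2 / x + 6 / x = 8 / x := by ring
    have h7 : x / A - 1 ≤ max 0 (x / A - 1) := le_max_right _ _
    rw [hkey]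
    linarith
  · push Not at hcase
    have hq1 : q = E / N := by
      rw [hq]
      exact max_eq_right hcase.le
    have hQ1 : Q = x - 1 := by
      rw [hQ, hq1, hE, hN, Real.log_div (Real.exp_pos _).ne' (Real.exp_pos _).ne', Real.log_exp,
        Real.log_exp]
      ring
    have h1 : (x + 1 - Q) / Q = 2 / (x - 1) := by
      rw [hQ1]
      congr 1
      ring
    rw [h1]
    have h2 : 2 / (x - 1) ≤ 8 / x := by
      rw [div_le_div_iff₀ (by linarith) hx0]
      linarith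
    have h3 : (0 : ℝ) ≤ max 0 (x / Real.log (1 / p) - 1) := le_max_left _ _
    linarith

variable {V : Type} [Fintype V] {H : SimpleGraph V} {n : ℕ}

/-- The core bound for large `n`. -/
theorem up_core (hn : 2 ≤ n) (hV : Fintype.card V ≤ n) (hH : H ≠ ⊥)
    (hx : 100 ≤ Real.log n) (hs : 8 * pE n H * Real.sqrt n ≤ 1) {B : ℝ} (hB : Real.exp 1 ≤ B) :
    ∃ Θ : ℝ, 0 < Θ ∧ EmbBound n H Θ ∧
      Θ ≤ Real.exp 60 * ((pE n H + 1 / n) * (1 + Real.log (Real.log n)) * B *
        Real.exp ((7 / 3) * max 0 (Real.log n / Real.log (1 / pE n H) - 1) *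
          Real.log (Real.log n)) + (Real.log n / Real.log B) / n) := by
  have hE0 := pE_pos hn hV hH
  have hn2 : (2 : ℝ) ≤ n := by exact_mod_cast hn
  have hn0 : (0 : ℝ) < n := by linarith
  obtain ⟨x, hxdef⟩ : ∃ x, x = Real.log n := ⟨_, rfl⟩
  rw [← hxdef] at hx ⊢
  obtain ⟨p, hpdef⟩ : ∃ p, p = pE n H := ⟨_, rfl⟩
  rw [← hpdef] at hs hE0 ⊢
  have hx0 : 0 < x := by linarith
  have hnexp : (n : ℝ) = Real.exp x := by
    rw [hxdef, Real.exp_log hn0]
  obtain ⟨E, hEdef⟩ : ∃ E, E = Real.exp 1 := ⟨_, rfl⟩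
  obtain ⟨q, hqdef⟩ : ∃ q, q = max (4 * p) (E / n) := ⟨_, rfl⟩
  obtain ⟨Q, hQdef⟩ : ∃ Q, Q = - Real.log q := ⟨_, rfl⟩
  obtain ⟨K, hKdef⟩ : ∃ K, K = n * q := ⟨_, rfl⟩
  obtain ⟨hq0, hqe, hQ2, hQx, -, -⟩ := density_facts hx hnexp hE0 hs hEdef hqdef hQdef hKdef rfl
  have hq1 : 4 * p ≤ q := by rw [hqdef]; exact le_max_left _ _
  have hG : GoodDensity n q H := good_of_pE hn hV hH (by rw [← hpdef]; exact hq1)
  have hκ := kappa_bound hx hnexp hE0 hEdef hqdef hQdef hQ2
  obtain ⟨Ee, hEe⟩ : ∃ Ee, Ee = max 0 (x / Real.log (1 / p) - 1) := ⟨_, rfl⟩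
  rw [← hEe] at hκ ⊢
  have hEe0 : 0 ≤ Ee := by
    rw [hEe]
    exact le_max_left _ _
  obtain ⟨ly, hly⟩ : ∃ ly, ly = 1 + Real.log (8 * x) := ⟨_, rfl⟩
  have hlog8x : Real.log (8 * x) = Real.log 8 + Real.log x := Real.log_mul (by norm_num) hx0.ne'
  have hlogx : 0 ≤ Real.log x := Real.log_nonneg (by linarith)
  have hlog80 : 0 ≤ Real.log 8 := Real.log_nonneg (by norm_num)
  have hly1 : 1 ≤ ly := by
    rw [hly, hlog8x]
    linarith
  obtain ⟨τ₀, hτdef⟩ : ∃ τ₀, τ₀ = 1 / (16 * ly) := ⟨_, rfl⟩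
  have hτ0 : 0 < τ₀ := by
    rw [hτdef]
    positivity
  have hτ1 : τ₀ ≤ 1 / 16 := by
    rw [hτdef]
    apply one_div_le_one_div_of_le (by norm_num)
    linarith
  have hEb := embBound_up hn hV hq0 hqe hG (by rw [← hxdef]; linarith)
    (by rw [← hxdef, ← hQdef]; linarith) hτ0 hτ1 hB
  rw [← hxdef, ← hQdef] at hEb
  have hL := upL_bound hx hQ2 hQx hB
  rw [← hly, ← hτdef] at hL
  have hB0 : 0 < B := lt_of_lt_of_le (Real.exp_pos 1) hB
  have hlB : 1 ≤ Real.log B := by
    have := Real.log_le_log (Real.exp_pos 1) hB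
    rwa [Real.log_exp] at this
  have hL0 : 0 < upL x Q τ₀ B := by
    unfold upL
    apply lt_max_of_lt_right
    positivity
  refine ⟨_, by positivity, hEb, ?_⟩
  -- the exponent
  have hlogx2 : Real.log x ≤ x / 2 := by
    have h1 := Real.log_le_sub_one_of_pos (show 0 < x / 2 by positivity)
    rw [Real.log_div hx0.ne' (by norm_num)] at h1
    have h2 := Real.log_two_lt_d9
    linarith
  have hexpo : (7 / 3) * ((x + 1 - Q) / Q) * Real.log x ≤ 10 + (7 / 3) * Ee * Real.log x := by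
    have h1 : (7 / 3) * ((x + 1 - Q) / Q) * Real.log x ≤ (7 / 3) * (Ee + 8 / x) * Real.log x := by
      gcongr
    have h2 : (8 / x) * Real.log x ≤ 4 := by
      rw [div_mul_eq_mul_div, div_le_iff₀ hx0]
      linarith
    calc (7 / 3) * ((x + 1 - Q) / Q) * Real.log x ≤ (7 / 3) * (Ee + 8 / x) * Real.log x := h1
      _ = (7 / 3) * Ee * Real.log x + (7 / 3) * ((8 / x) * Real.log x) := by ring
      _ ≤ _ := by linarith
  have hexp : Real.exp ((7 / 3) * ((x + 1 - Q) / Q) * Real.log x) ≤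
      Real.exp 10 * Real.exp ((7 / 3) * Ee * Real.log x) := by
    rw [← Real.exp_add]
    exact Real.exp_le_exp.2 hexpo
  obtain ⟨Xp, hXp⟩ : ∃ Xp, Xp = Real.exp ((7 / 3) * Ee * Real.log x) := ⟨_, rfl⟩
  rw [← hXp] at hexp ⊢
  have hXp0 : 0 < Xp := by
    rw [hXp]
    exact Real.exp_pos _
  have hK0 : 0 < K := by
    rw [hKdef]
    positivity
  have hexpK : Real.exp (x - Q) = K := by
    have h1 : x - Q = Real.log K := by
      rw [hKdef, Real.log_mul hn0.ne' hq0.ne', ← hxdef, hQdef]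
      ring
    rw [h1, Real.exp_log hK0]
  rw [hexpK] at hL
  have hS2 : (x / Real.log B) / K * q = (x / Real.log B) / n := by
    rw [hKdef]
    field_simp
  have hqle : q ≤ 4 * (p + 1 / n) := by
    rw [hqdef]
    apply max_le
    · have : 0 < 1 / (n : ℝ) := by positivity
      linarith
    · rw [hEdef, div_eq_mul_one_div]
      have h1 : Real.exp 1 ≤ 3 := exp_one_le_three
      have h2 : 0 < 1 / (n : ℝ) := by positivity
      nlinarith
  have hy0 : 0 < 1 + Real.log x := by linarith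
  obtain ⟨W₁, hW₁⟩ : ∃ W₁, W₁ = (p + 1 / n) * (1 + Real.log x) * B * Xp := ⟨_, rfl⟩
  obtain ⟨W₂, hW₂⟩ : ∃ W₂, W₂ = (x / Real.log B) / n := ⟨_, rfl⟩
  rw [← hW₁, ← hW₂]
  have hW₁0 : 0 ≤ W₁ := by
    rw [hW₁]
    positivity
  have hW₂0 : 0 ≤ W₂ := by
    rw [hW₂]
    positivity
  have hLq : upL x Q τ₀ B * q ≤ 768 * Real.exp 31 * W₁ + W₂ := by
    have h1 : upL x Q τ₀ B * q ≤ (192 * Real.exp 21 * (1 + Real.log x) * B *
        Real.exp ((7 / 3) * ((x + 1 - Q) / Q) * Real.log x) + (x / Real.log B) / K) * q :=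
      mul_le_mul_of_nonneg_right hL hq0.le
    refine h1.trans ?_
    rw [add_mul, hS2, ← hW₂]
    apply add_le_add_left
    have h2 : 192 * Real.exp 21 * (1 + Real.log x) * B *
        Real.exp ((7 / 3) * ((x + 1 - Q) / Q) * Real.log x) * q ≤
        192 * Real.exp 21 * (1 + Real.log x) * B * (Real.exp 10 * Xp) * (4 * (p + 1 / n)) := by
      gcongr
    refine h2.trans (le_of_eq ?_)
    have h3 : Real.exp 31 = Real.exp 21 * Real.exp 10 := by
      rw [← Real.exp_add]
      norm_num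
    rw [hW₁, h3]
    ring
  have hpow : ∀ k : ℕ, (2 : ℝ) ^ k ≤ Real.exp k := by
    intro k
    have h : Real.exp k = Real.exp 1 ^ k := by
      rw [← Real.exp_nat_mul]
      simp
    rw [h]
    exact pow_le_pow_left₀ (by norm_num) two_le_exp_one k
  have h2048 : (2048 : ℝ) ≤ Real.exp 11 := by
    have := hpow 11
    norm_num at this
    linarith
  have h768 : (768 : ℝ) ≤ Real.exp 10 := by
    have := hpow 10
    norm_num at this
    linarith
  have hc1 : 2048 * Real.exp 6 ≤ Real.exp 17 := by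
    have h5 : Real.exp 17 = Real.exp 11 * Real.exp 6 := by
      rw [← Real.exp_add]
      norm_num
    rw [h5]
    exact mul_le_mul_of_nonneg_right h2048 (Real.exp_pos _).le
  have hc2 : 768 * Real.exp 31 ≤ Real.exp 41 := by
    have h5 : Real.exp 41 = Real.exp 10 * Real.exp 31 := by
      rw [← Real.exp_add]
      norm_num
    rw [h5]
    exact mul_le_mul_of_nonneg_right h768 (Real.exp_pos _).le
  have h1 : (1 : ℝ) ≤ Real.exp 41 := Real.one_le_exp (by norm_num)
  have hLq2 : upL x Q τ₀ B * q ≤ Real.exp 41 * (W₁ + W₂) := by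
    have h3 : 768 * Real.exp 31 * W₁ ≤ Real.exp 41 * W₁ := mul_le_mul_of_nonneg_right hc2 hW₁0
    have h4 : W₂ ≤ Real.exp 41 * W₂ := by
      have := mul_le_mul_of_nonneg_right h1 hW₂0
      linarith
    rw [mul_add]
    linarith
  calc 2048 * Real.exp 6 * upL x Q τ₀ B * q = 2048 * Real.exp 6 * (upL x Q τ₀ B * q) := by ring
    _ ≤ Real.exp 17 * (Real.exp 41 * (W₁ + W₂)) :=
        mul_le_mul hc1 hLq2 (by positivity) (by positivity)
    _ = Real.exp 58 * (W₁ + W₂) := by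
        rw [← mul_assoc, ← Real.exp_add]
        norm_num
    _ ≤ Real.exp 60 * (W₁ + W₂) := by
        apply mul_le_mul_of_nonneg_right _ (by positivity)
        exact Real.exp_le_exp.2 (by norm_num)

end Vale.Agent.Lib.P064U
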