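import Vale.Agent.Lib.P064U.Thresh

/-!
The global bound: `p_c ≤ C p_E (log n)^2 / log log n` whenever `p_E ≥ 1 / (3 n)`.
-/

open Finset

namespace Vale.Agent.Lib.P064U

open Vale.Agent.Lib.P064 Vale.Agent.Lib.P064N

open scoped Classical

/-- The numerics of the sharp case. -/
lemma sharp_numeric {x s : ℝ} (hx : 1 ≤ x) (hs : s ≤ 14 / 17) :
    (1 + x) ^ s * (1 + Real.log x) ≤ 16 * x := by
  have hx0 : 0 < x := by linarith
  have h1 : (1 + x) ^ s ≤ (1 + x) ^ ((14 : ℝ) / 17) :=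
    Real.rpow_le_rpow_of_exponent_le (by linarith) hs
  have h2 : (1 + x) ^ ((14 : ℝ) / 17) ≤ (2 * x) ^ ((14 : ℝ) / 17) :=
    Real.rpow_le_rpow (by linarith) (by linarith) (by norm_num)
  have h3 : (2 * x) ^ ((14 : ℝ) / 17) = 2 ^ ((14 : ℝ) / 17) * x ^ ((14 : ℝ) / 17) :=
    Real.mul_rpow (by norm_num) hx0.le
  have h4 : (2 : ℝ) ^ ((14 : ℝ) / 17) ≤ 2 ^ (1 : ℝ) :=
    Real.rpow_le_rpow_of_exponent_le (by norm_num) (by norm_num)
  rw [Real.rpow_one] at h4
  have h5 : 1 + Real.log x ≤ 8 * x ^ ((1 : ℝ) / 8) := by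
    have h6 := Real.log_le_sub_one_of_pos (show 0 < x ^ ((1 : ℝ) / 8) by positivity)
    rw [Real.log_rpow hx0] at h6
    linarith
  have hlog : 0 ≤ Real.log x := Real.log_nonneg hx
  have h7 : x ^ ((14 : ℝ) / 17) * x ^ ((1 : ℝ) / 8) ≤ x := by
    rw [← Real.rpow_add hx0]
    calc x ^ ((14 : ℝ) / 17 + 1 / 8) ≤ x ^ (1 : ℝ) :=
          Real.rpow_le_rpow_of_exponent_le hx (by norm_num)
      _ = x := Real.rpow_one x
  have hp1 : 0 ≤ x ^ ((14 : ℝ) / 17) := by positivity
  have hp2 : 0 ≤ x ^ ((1 : ℝ) / 8) := by positivity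
  calc (1 + x) ^ s * (1 + Real.log x)
      ≤ (2 * x ^ ((14 : ℝ) / 17)) * (8 * x ^ ((1 : ℝ) / 8)) := by
        apply mul_le_mul _ h5 (by linarith) (by positivity)
        refine h1.trans (h2.trans ?_)
        rw [h3]
        exact mul_le_mul_of_nonneg_right h4 hp1
    _ = 16 * (x ^ ((14 : ℝ) / 17) * x ^ ((1 : ℝ) / 8)) := by ring
    _ ≤ 16 * x := by linarith

/-- The numerics of the walk case. -/
lemma walk_numeric {x p N e : ℝ} (hx : 100 ≤ x) (hp : 0 < p) (hN : 0 < N) (hNp : 1 / N ≤ 3 * p)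
    (he : e ≤ 1 / 2) :
    (p + 1 / N) * (1 + Real.log x) * x ^ ((1 : ℝ) / 4) * x ^ e +
      (x / Real.log (x ^ ((1 : ℝ) / 4))) / N ≤ 280 * (p * x / (1 + Real.log x)) := by
  have hx0 : 0 < x := by linarith
  have hx1 : 1 ≤ x := by linarith
  have hlog : 4 ≤ Real.log x := by
    have h1 : Real.log (Real.exp 4) ≤ Real.log x := by
      apply Real.log_le_log (Real.exp_pos 4)
      have h2 : Real.exp 4 ≤ 100 := by
        have h3 : Real.exp 1 < 2.7182818286 := Real.exp_one_lt_d9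
        have h4 : Real.exp 4 = Real.exp 1 ^ 4 := by
          rw [← Real.exp_nat_mul]
          norm_num
        rw [h4]
        calc Real.exp 1 ^ 4 ≤ (2.7182818286 : ℝ) ^ 4 :=
              pow_le_pow_left₀ (Real.exp_pos 1).le h3.le 4
          _ ≤ 100 := by norm_num
      linarith
    rwa [Real.log_exp] at h1
  obtain ⟨y, hy⟩ : ∃ y, y = Real.log x := ⟨_, rfl⟩
  rw [← hy] at hlog ⊢
  have hlogB : Real.log (x ^ ((1 : ℝ) / 4)) = y / 4 := by
    rw [Real.log_rpow hx0, hy]
    ring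
  rw [hlogB]
  have hy0 : 0 < y := by linarith
  have hy1 : 0 < 1 + y := by linarith
  -- the powers
  obtain ⟨X, hX⟩ : ∃ X, X = x ^ ((1 : ℝ) / 8) := ⟨_, rfl⟩
  have hX0 : 0 < X := by
    rw [hX]
    positivity
  have hX8 : X ^ 8 = x := by
    rw [hX, ← Real.rpow_natCast, ← Real.rpow_mul hx0.le]
    norm_num
  have hX2 : x ^ ((1 : ℝ) / 4) = X ^ 2 := by
    rw [hX, ← Real.rpow_natCast, ← Real.rpow_mul hx0.le]
    norm_num
  have hXe : x ^ e ≤ X ^ 4 := by
    have h1 : X ^ 4 = x ^ ((1 : ℝ) / 2) := by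
      rw [hX, ← Real.rpow_natCast, ← Real.rpow_mul hx0.le]
      norm_num
    rw [h1]
    exact Real.rpow_le_rpow_of_exponent_le hx1 he
  have hyX : 1 + y ≤ 8 * X := by
    have h6 := Real.log_le_sub_one_of_pos hX0
    rw [hX, Real.log_rpow hx0, ← hy] at h6
    rw [hX]
    linarith
  have h1 : (1 + y) * (1 + y) * (X ^ 2 * X ^ 4) ≤ 64 * x := by
    have h2 : (1 + y) * (1 + y) ≤ (8 * X) * (8 * X) := mul_le_mul hyX hyX hy1.le (by positivity)
    calc (1 + y) * (1 + y) * (X ^ 2 * X ^ 4) ≤ (8 * X) * (8 * X) * (X ^ 2 * X ^ 4) :=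
          mul_le_mul_of_nonneg_right h2 (by positivity)
      _ = 64 * X ^ 8 := by ring
      _ = 64 * x := by rw [hX8]
  have h2 : (1 + y) * (X ^ 2 * X ^ 4) ≤ 64 * (x / (1 + y)) := by
    rw [mul_div_assoc', le_div_iff₀ hy1]
    linarith
  have hsum : p + 1 / N ≤ 4 * p := by linarith
  have hsum0 : 0 < p + 1 / N := by positivity
  have hA : (p + 1 / N) * (1 + y) * X ^ 2 * x ^ e ≤ 256 * (p * x / (1 + y)) := by
    have hpos : 0 ≤ x ^ e := by positivity
    calc (p + 1 / N) * (1 + y) * X ^ 2 * x ^ e ≤ (p + 1 / N) * (1 + y) * X ^ 2 * X ^ 4 :=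
          mul_le_mul_of_nonneg_left hXe (by positivity)
      _ = (p + 1 / N) * ((1 + y) * (X ^ 2 * X ^ 4)) := by ring
      _ ≤ (4 * p) * (64 * (x / (1 + y))) := mul_le_mul hsum h2 (by positivity) (by positivity)
      _ = _ := by ring
  have hBB : (x / (y / 4)) / N ≤ 24 * (p * x / (1 + y)) := by
    have h5 : (x / (y / 4)) / N = (4 * x / y) * (1 / N) := by
      field_simp
    rw [h5]
    have h6 : 4 * x / y ≤ 8 * (x / (1 + y)) := by
      rw [div_le_iff₀ hy0]
      have h7 : 8 * (x / (1 + y)) * y = x * (8 * y / (1 + y)) := by ring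
      rw [h7]
      have h8 : 4 ≤ 8 * y / (1 + y) := by
        rw [le_div_iff₀ hy1]
        linarith
      nlinarith
    calc (4 * x / y) * (1 / N) ≤ (8 * (x / (1 + y))) * (3 * p) :=
          mul_le_mul h6 hNp (by positivity) (by positivity)
      _ = _ := by ring
  rw [hX2]
  linarith

/-- The global bound. -/
theorem up_global :
    ∃ C : ℝ, 0 < C ∧ ∀ n : ℕ, 3 ≤ n → ∀ (V : Type) [Fintype V] (H : SimpleGraph V),
      Fintype.card V ≤ n → H ≠ ⊥ → 1 / (3 * (n : ℝ)) ≤ pE n H →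
      pTilde n H ≤ C * (pE n H * Real.log n / (1 + Real.log (Real.log n))) ∧
      pc n H ≤ C * (pE n H * Real.log n / (1 + Real.log (Real.log n))) * Real.log n := by
  obtain ⟨C₁, hC₁, h1⟩ := up_thresholds
  obtain ⟨C₂, hC₂, h2⟩ := pTilde_le_pE_sharp
  obtain ⟨C₃, hC₃, h3⟩ := pc_le_pE_sharp
  refine ⟨280 * C₁ + 16 * C₂ + 16 * C₃ + 3 * Real.exp 100, by positivity, ?_⟩
  intro n hn V _ H hV hH hp
  have hn3 : (3 : ℝ) ≤ n := by exact_mod_cast hn
  have hn0 : (0 : ℝ) < n := by linarith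
  have hn' : 2 ≤ n := by omega
  have hx1 : 1 ≤ Real.log n := by
    have h4 : Real.log (Real.exp 1) ≤ Real.log n :=
      Real.log_le_log (Real.exp_pos 1) (by have := Real.exp_one_lt_d9; linarith)
    rwa [Real.log_exp] at h4
  have hE0 := pE_pos hn' hV hH
  have hE1 : pE n H ≤ 1 := pE_le_one hV
  obtain ⟨x, hxdef⟩ : ∃ x, x = Real.log n := ⟨_, rfl⟩
  rw [← hxdef] at hx1 ⊢
  obtain ⟨p, hpdef⟩ : ∃ p, p = pE n H := ⟨_, rfl⟩
  rw [← hpdef] at hE0 hE1 hp ⊢
  have hx0 : 0 < x := by linarith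
  have hy0 : 0 ≤ Real.log x := Real.log_nonneg hx1
  have hy1 : 0 < 1 + Real.log x := by linarith
  have hyx : 1 + Real.log x ≤ x := by
    have := Real.log_le_sub_one_of_pos hx0
    linarith
  obtain ⟨Z, hZ⟩ : ∃ Z, Z = p * x / (1 + Real.log x) := ⟨_, rfl⟩
  rw [← hZ]
  have hZ0 : 0 < Z := by
    rw [hZ]
    positivity
  have hpZ : p ≤ Z := by
    rw [hZ, le_div_iff₀ hy1]
    exact mul_le_mul_of_nonneg_left hyx hE0.le
  have hConst : 0 < 280 * C₁ + 16 * C₂ + 16 * C₃ + 3 * Real.exp 100 := by positivity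
  by_cases hc : x < 100
  · -- small `n`
    have hnlt : (n : ℝ) < Real.exp 100 := by
      rw [← Real.exp_log hn0, ← hxdef]
      exact Real.exp_lt_exp.2 hc
    have h4 : (1 : ℝ) ≤ 3 * Real.exp 100 * p := by
      have h5 : 1 / (3 * Real.exp 100) ≤ p := by
        refine le_trans ?_ hp
        apply one_div_le_one_div_of_le (by positivity)
        linarith
      rw [div_le_iff₀ (by positivity)] at h5
      linarith
    have h5 : (1 : ℝ) ≤ (280 * C₁ + 16 * C₂ + 16 * C₃ + 3 * Real.exp 100) * Z := by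
      have h6 : 3 * Real.exp 100 * p ≤ 3 * Real.exp 100 * Z :=
        mul_le_mul_of_nonneg_left hpZ (by positivity)
      have h7 : 0 ≤ (280 * C₁ + 16 * C₂ + 16 * C₃) * Z := by positivity
      have h8 : (280 * C₁ + 16 * C₂ + 16 * C₃ + 3 * Real.exp 100) * Z =
          (280 * C₁ + 16 * C₂ + 16 * C₃) * Z + 3 * Real.exp 100 * Z := by ring
      rw [h8]
      linarith
    constructor
    · exact (pTilde_le_one (n := n) (H := H) hV).trans h5
    · refine (pc_le_one (n := n) (H := H) hV).trans ?_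
      have h6 : 0 ≤ (280 * C₁ + 16 * C₂ + 16 * C₃ + 3 * Real.exp 100) * Z := by positivity
      have h7 : (1 : ℝ) * 1 ≤ (280 * C₁ + 16 * C₂ + 16 * C₃ + 3 * Real.exp 100) * Z * x :=
        mul_le_mul h5 hx1 (by norm_num) h6
      linarith
  push Not at hc
  obtain ⟨A, hA⟩ : ∃ A, A = Real.log (1 / p) := ⟨_, rfl⟩
  have hlogp : A = - Real.log p := by
    rw [hA, one_div, Real.log_inv]
  have hA0 : 0 ≤ A := by
    rw [hlogp]
    have := Real.log_nonpos hE0.le hE1
    linarith
  by_cases hcase : A ≤ (14 / 17) * x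
  · -- the sharp bound
    have hs : min 1 (A / x) ≤ 14 / 17 := by
      apply (min_le_right _ _).trans
      rw [div_le_iff₀ hx0]
      exact hcase
    have hnum := sharp_numeric (x := x) (by linarith) hs
    have hpow0 : 0 ≤ (1 + x) ^ (min 1 (A / x)) := by positivity
    have hkey : (1 + x) ^ (min 1 (A / x)) ≤ 16 * (x / (1 + Real.log x)) := by
      rw [mul_div_assoc', le_div_iff₀ hy1]
      exact hnum
    have hp16 : p * (1 + x) ^ (min 1 (A / x)) ≤ 16 * Z := by
      rw [hZ]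
      calc p * (1 + x) ^ (min 1 (A / x)) ≤ p * (16 * (x / (1 + Real.log x))) :=
            mul_le_mul_of_nonneg_left hkey hE0.le
        _ = _ := by ring
    have h4 := h2 n hn' V H hV hH
    have h5 := h3 n hn' V H hV hH
    rw [← hxdef, ← hpdef, ← hA] at h4 h5
    constructor
    · have h6 : C₂ * p * (1 + x) ^ (min 1 (A / x)) ≤ C₂ * (16 * Z) := by
        rw [mul_assoc]
        exact mul_le_mul_of_nonneg_left hp16 hC₂.le
      have h7 : 0 ≤ (280 * C₁ + 16 * C₃ + 3 * Real.exp 100) * Z := by positivity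
      have h8 : (280 * C₁ + 16 * C₂ + 16 * C₃ + 3 * Real.exp 100) * Z =
          (280 * C₁ + 16 * C₃ + 3 * Real.exp 100) * Z + C₂ * (16 * Z) := by ring
      rw [h8]
      linarith
    · have h6 : C₃ * p * x * (1 + x) ^ (min 1 (A / x)) ≤ C₃ * (16 * Z) * x := by
        calc C₃ * p * x * (1 + x) ^ (min 1 (A / x)) = C₃ * (p * (1 + x) ^ (min 1 (A / x))) * x := by
              ring
          _ ≤ C₃ * (16 * Z) * x := by
              apply mul_le_mul_of_nonneg_right _ hx0.le
              exact mul_le_mul_of_nonneg_left hp16 hC₃.le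
      have h7 : 0 ≤ (280 * C₁ + 16 * C₂ + 3 * Real.exp 100) * Z * x := by positivity
      have h8 : (280 * C₁ + 16 * C₂ + 16 * C₃ + 3 * Real.exp 100) * Z * x =
          (280 * C₁ + 16 * C₂ + 3 * Real.exp 100) * Z * x + C₃ * (16 * Z) * x := by ring
      rw [h8]
      linarith
  · -- the walk bound
    push Not at hcase
    have hApos : 0 < A := by
      have : 0 < (14 / 17) * x := by positivity
      linarith
    have hs : 8 * p * Real.sqrt n ≤ 1 := by
      have hnexp : (n : ℝ) = Real.exp x := by rw [hxdef, Real.exp_log hn0]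
      have hsq : Real.sqrt n = Real.exp (x / 2) := by
        rw [hnexp, Real.sqrt_eq_iff_mul_self_eq (Real.exp_pos _).le (Real.exp_pos _).le,
          ← Real.exp_add]
        congr 1
        ring
      have hpexp : p = Real.exp (- A) := by
        rw [hlogp, neg_neg, Real.exp_log hE0]
      rw [hsq, hpexp]
      have h4 : Real.exp (- A) * Real.exp (x / 2) ≤ Real.exp (- (x / 4)) := by
        rw [← Real.exp_add]
        apply Real.exp_le_exp.2
        linarith
      have h5 : 8 * Real.exp (- (x / 4)) ≤ 1 := by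
        have h11 : Real.exp (- (x / 4)) * Real.exp (x / 4) = 1 := by
          rw [← Real.exp_add]
          simp
        have h12 : 8 ≤ Real.exp (x / 4) := by
          have := Real.add_one_le_exp (x / 4)
          linarith
        have h13 := Real.exp_pos (- (x / 4))
        nlinarith
      have h6 : 8 * Real.exp (- A) * Real.exp (x / 2) = 8 * (Real.exp (- A) * Real.exp (x / 2)) := by
        ring
      rw [h6]
      linarith
    have hlogx4 : 4 ≤ Real.log x := by
      have h4 : Real.log (Real.exp 4) ≤ Real.log x := by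
        apply Real.log_le_log (Real.exp_pos 4)
        have h5 : Real.exp 4 ≤ 100 := by
          have h6 : Real.exp 1 < 2.7182818286 := Real.exp_one_lt_d9
          have h7 : Real.exp 4 = Real.exp 1 ^ 4 := by
            rw [← Real.exp_nat_mul]
            norm_num
          rw [h7]
          calc Real.exp 1 ^ 4 ≤ (2.7182818286 : ℝ) ^ 4 :=
                pow_le_pow_left₀ (Real.exp_pos 1).le h6.le 4
            _ ≤ 100 := by norm_num
        linarith
      rwa [Real.log_exp] at h4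
    have hB : Real.exp 1 ≤ x ^ ((1 : ℝ) / 4) := by
      rw [Real.rpow_def_of_pos hx0]
      apply Real.exp_le_exp.2
      linarith
    obtain ⟨h4, h5⟩ := h1 n hn V H hV hH (by rw [← hpdef]; exact hs) (x ^ ((1 : ℝ) / 4)) hB
    rw [← hxdef, ← hpdef, ← hA] at h4 h5
    have he0 : 0 ≤ (7 / 3) * max 0 (x / A - 1) := by
      have : (0 : ℝ) ≤ max 0 (x / A - 1) := le_max_left _ _
      positivity
    have he1 : (7 / 3) * max 0 (x / A - 1) ≤ 1 / 2 := by
      have h6 : max 0 (x / A - 1) ≤ 3 / 14 := by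
        apply max_le (by norm_num)
        have h7 : x / A ≤ 17 / 14 := by
          rw [div_le_iff₀ hApos]
          linarith
        linarith
      linarith
    have hnp : 1 / (n : ℝ) ≤ 3 * p := by
      have h6 : 1 / (3 * (n : ℝ)) = (1 / 3) * (1 / n) := by
        field_simp
      rw [h6] at hp
      linarith
    have hnum := walk_numeric (x := x) (p := p) (N := n) (e := (7 / 3) * max 0 (x / A - 1)) hc hE0 hn0
      hnp he1
    rw [← hZ] at hnum
    obtain ⟨W, hW⟩ : ∃ W, W = (p + 1 / n) * (1 + Real.log x) * x ^ ((1 : ℝ) / 4) *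
        x ^ ((7 / 3) * max 0 (x / A - 1)) + (x / Real.log (x ^ ((1 : ℝ) / 4))) / n := ⟨_, rfl⟩
    rw [← hW] at h4 h5 hnum
    constructor
    · have h6 : C₁ * W ≤ C₁ * (280 * Z) := mul_le_mul_of_nonneg_left hnum hC₁.le
      have h7 : 0 ≤ (16 * C₂ + 16 * C₃ + 3 * Real.exp 100) * Z := by positivity
      have h8 : (280 * C₁ + 16 * C₂ + 16 * C₃ + 3 * Real.exp 100) * Z =
          (16 * C₂ + 16 * C₃ + 3 * Real.exp 100) * Z + C₁ * (280 * Z) := by ring
      rw [h8]
      linarith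
    · have h6 : C₁ * x * W ≤ C₁ * x * (280 * Z) := mul_le_mul_of_nonneg_left hnum (by positivity)
      have h7 : 0 ≤ (16 * C₂ + 16 * C₃ + 3 * Real.exp 100) * Z * x := by positivity
      have h8 : (280 * C₁ + 16 * C₂ + 16 * C₃ + 3 * Real.exp 100) * Z * x =
          (16 * C₂ + 16 * C₃ + 3 * Real.exp 100) * Z * x + C₁ * x * (280 * Z) := by ring
      rw [h8]
      linarith

end Vale.Agent.Lib.P064U
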