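import Vale.Agent.Lib.P064U.Match

/-!
Part T, ISETS: the number of image sets `φ(Q)` of a family of embeddings, through a matching of `Q`.
-/

open Finset

namespace Vale.Agent.Lib.P064U

open Vale.Agent.Lib.P064 Vale.Agent.Lib.P064E
open scoped Classical

variable {V α : Type} [Fintype V] [Fintype α] {F : SimpleGraph α} {H : SimpleGraph V}

/-- The image set of `Q` is the vertex set of the image of the matching plus the image of `W`. -/
lemma image_eq_vs_union {Q : Finset α} {M : Finset (Sym2 α)} (hM : vs M ⊆ Q) (φ : α → V) :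
    Q.image φ = vs (M.image (Sym2.map φ)) ∪ (Q \ vs M).image φ := by
  ext w
  simp only [Finset.mem_image, Finset.mem_union, Finset.mem_sdiff, mem_vs_iff]
  constructor
  · rintro ⟨x, hx, rfl⟩
    by_cases hxM : x ∈ vs M
    · obtain ⟨e, he, hxe⟩ := mem_vs_iff.1 hxM
      refine Or.inl ⟨Sym2.map φ e, ⟨e, he, rfl⟩, ?_⟩
      exact Sym2.mem_map.2 ⟨x, hxe, rfl⟩
    · exact Or.inr ⟨x, ⟨hx, fun h => hxM (mem_vs_iff.2 h)⟩, rfl⟩
  · rintro (⟨e', ⟨e, he, rfl⟩, hw⟩ | ⟨x, ⟨hx, _⟩, rfl⟩)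
    · obtain ⟨x, hxe, rfl⟩ := Sym2.mem_map.1 hw
      exact ⟨x, hM (mem_vs_iff.2 ⟨e, he, hxe⟩), rfl⟩
    · exact ⟨x, hx, rfl⟩

/-- **ISETS**, general form: `M` any set of edges with `vs M ⊆ Q`. -/
theorem card_image_sets_le_gen {Q : Finset α} {M : Finset (Sym2 α)} (hMQ : vs M ⊆ Q)
    (S : Finset (α → V)) (U : Finset (Sym2 V))
    (hinj : ∀ φ ∈ S, Function.Injective φ)
    (hU : ∀ φ ∈ S, ∀ e ∈ M, Sym2.map φ e ∈ U)
    (hW : ∀ φ ∈ S, ∀ w ∈ Q \ vs M, φ w ∈ vs U) :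
    (S.image (fun φ => Q.image φ)).card ≤
      U.card.choose M.card * (vs U).card.choose (Q \ vs M).card := by
  classical
  let T := (U.powersetCard M.card) ×ˢ ((vs U).powersetCard (Q \ vs M).card)
  have hsub : S.image (fun φ => Q.image φ) ⊆ T.image (fun p => vs p.1 ∪ p.2) := by
    intro I hI
    obtain ⟨φ, hφ, rfl⟩ := Finset.mem_image.1 hI
    refine Finset.mem_image.2 ⟨(M.image (Sym2.map φ), (Q \ vs M).image φ), ?_, ?_⟩
    · refine Finset.mem_product.2 ⟨Finset.mem_powersetCard.2 ⟨?_, ?_⟩, Finset.mem_powersetCard.2 ⟨?_, ?_⟩⟩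
      · intro e he
        obtain ⟨e₀, he₀, rfl⟩ := Finset.mem_image.1 he
        exact hU φ hφ e₀ he₀
      · exact Finset.card_image_of_injective _ (Sym2.map.injective (hinj φ hφ))
      · intro x hx
        obtain ⟨w, hw, rfl⟩ := Finset.mem_image.1 hx
        exact hW φ hφ w hw
      · exact Finset.card_image_of_injective _ (hinj φ hφ)
    · exact (image_eq_vs_union hMQ φ).symm
  calc (S.image (fun φ => Q.image φ)).card ≤ (T.image (fun p => vs p.1 ∪ p.2)).card :=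
        Finset.card_le_card hsub
    _ ≤ T.card := Finset.card_image_le
    _ = _ := by
        simp [T, Finset.card_product, Finset.card_powersetCard]

/-- **ISETS**: the number of image sets of `Q`, through the matching `M`. -/
theorem card_image_sets_le {Q : Finset α} {M : Finset (Sym2 α)} (hM : IsMaxMatch F Q M)
    (S : Finset (α → V)) (U : Finset (Sym2 V))
    (hinj : ∀ φ ∈ S, Function.Injective φ)
    (hU : ∀ φ ∈ S, ∀ e ∈ M, Sym2.map φ e ∈ U)
    (hW : ∀ φ ∈ S, ∀ w ∈ Q \ vs M, φ w ∈ vs U) :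
    (S.image (fun φ => Q.image φ)).card ≤
      U.card.choose M.card * (vs U).card.choose (Q \ vs M).card :=
  card_image_sets_le_gen hM.vs_subset S U hinj hU hW

/-- Poor variant of the numerics: `C(N,ν) C(N',w) ≤ (2N)^(ν+w)` if `N' ≤ 2N`. -/
lemma choose_mul_choose_le_pow {N N' ν w : ℕ} (h : N' ≤ 2 * N) :
    N.choose ν * N'.choose w ≤ (2 * N) ^ (ν + w) := by
  have h1 : N.choose ν ≤ N ^ ν := Nat.choose_le_pow N ν
  have h2 : N'.choose w ≤ N' ^ w := Nat.choose_le_pow N' w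
  have h3 : N ^ ν ≤ (2 * N) ^ ν := Nat.pow_le_pow_left (by omega) ν
  have h4 : N' ^ w ≤ (2 * N) ^ w := Nat.pow_le_pow_left h w
  rw [pow_add]
  exact Nat.mul_le_mul (h1.trans h3) (h2.trans h4)

/-- Rich variant of the numerics: `C(N,ν) C(N',w) ≤ (12 l)^(ν+w) exp e` if `N' ≤ 2N`, `N ≤ 3 e l`. -/
lemma choose_mul_choose_le_exp {N N' ν w : ℕ} {e l : ℝ} (he : 0 ≤ e) (hl : 0 ≤ l)
    (h : N' ≤ 2 * N) (hN : (N : ℝ) ≤ 3 * e * l) :
    ((N.choose ν * N'.choose w : ℕ) : ℝ) ≤ (12 * l) ^ (ν + w) * Real.exp e := by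
  have hN2 : ((2 * N : ℕ) : ℝ) ≤ 6 * e * l := by push_cast; linarith
  have h1 : ((N.choose ν : ℕ) : ℝ) ≤ (N : ℝ) ^ ν / ν.factorial := Nat.choose_le_pow_div ν N
  have h2 : ((N'.choose w : ℕ) : ℝ) ≤ (N' : ℝ) ^ w / w.factorial := Nat.choose_le_pow_div w N'
  have hN' : (N' : ℝ) ≤ 6 * e * l := le_trans (by exact_mod_cast h) hN2
  have hN'' : (N : ℝ) ≤ 6 * e * l := by
    have : 0 ≤ e * l := mul_nonneg he hl
    nlinarith
  have hν : (0 : ℝ) < ν.factorial := by positivity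
  have hw : (0 : ℝ) < w.factorial := by positivity
  have hg : (0 : ℝ) < (ν + w).factorial := by positivity
  have h3 : (N : ℝ) ^ ν ≤ (6 * e * l) ^ ν := pow_le_pow_left₀ (Nat.cast_nonneg _) hN'' ν
  have h4 : (N' : ℝ) ^ w ≤ (6 * e * l) ^ w := pow_le_pow_left₀ (Nat.cast_nonneg _) hN' w
  -- `g!/(ν! w!) = C(g,ν) ≤ 2^g`
  have hfac : ((ν + w).factorial : ℝ) ≤ 2 ^ (ν + w) * (ν.factorial * w.factorial) := by
    have h5 : (ν + w).choose w * (ν.factorial * w.factorial) = (ν + w).factorial := by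
      have := Nat.add_choose_mul_factorial_mul_factorial ν w
      rw [mul_assoc] at this
      exact this
    have h6 : (ν + w).choose w ≤ 2 ^ (ν + w) := Nat.choose_le_two_pow _ _
    have h7 : (ν + w).factorial ≤ 2 ^ (ν + w) * (ν.factorial * w.factorial) := by
      rw [← h5]
      exact Nat.mul_le_mul_right _ h6
    exact_mod_cast h7
  have h8 : e ^ (ν + w) / (ν + w).factorial ≤ Real.exp e := Real.pow_div_factorial_le_exp e he _
  have h9 : (1 : ℝ) / (ν.factorial * w.factorial) ≤ 2 ^ (ν + w) / (ν + w).factorial := by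
    rw [div_le_div_iff₀ (by positivity) hg]
    linarith
  have hel : 0 ≤ 6 * e * l := by positivity
  push_cast
  calc (N.choose ν : ℝ) * (N'.choose w : ℝ)
      ≤ ((N : ℝ) ^ ν / ν.factorial) * ((N' : ℝ) ^ w / w.factorial) := by gcongr
    _ ≤ ((6 * e * l) ^ ν / ν.factorial) * ((6 * e * l) ^ w / w.factorial) := by gcongr
    _ = (6 * e * l) ^ (ν + w) * (1 / (ν.factorial * w.factorial)) := by
        rw [pow_add]
        field_simp
    _ ≤ (6 * e * l) ^ (ν + w) * (2 ^ (ν + w) / (ν + w).factorial) := by gcongr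
    _ = (12 * l) ^ (ν + w) * (e ^ (ν + w) / (ν + w).factorial) := by
        have : (12 * l) ^ (ν + w) = (6 * l) ^ (ν + w) * 2 ^ (ν + w) := by
          rw [← mul_pow]
          ring_nf
        rw [this, show 6 * e * l = e * (6 * l) by ring, mul_pow]
        ring
    _ ≤ (12 * l) ^ (ν + w) * Real.exp e := by
        have : 0 ≤ (12 * l) ^ (ν + w) := by positivity
        exact mul_le_mul_of_nonneg_left h8 this

/-- **ISETS**, rich form: at most `(12 l)^g exp e` image sets if `|U| ≤ 3 e l`. -/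
theorem card_image_sets_le_exp {Q : Finset α} {M : Finset (Sym2 α)} (hM : IsMaxMatch F Q M)
    (S : Finset (α → V)) (U : Finset (Sym2 V)) {e l : ℝ} (he : 0 ≤ e) (hl : 0 ≤ l)
    (hinj : ∀ φ ∈ S, Function.Injective φ)
    (hU : ∀ φ ∈ S, ∀ e ∈ M, Sym2.map φ e ∈ U)
    (hW : ∀ φ ∈ S, ∀ w ∈ Q \ vs M, φ w ∈ vs U)
    (hcard : (U.card : ℝ) ≤ 3 * e * l) :
    ((S.image (fun φ => Q.image φ)).card : ℝ) ≤
      (12 * l) ^ (M.card + (Q \ vs M).card) * Real.exp e := by
  have h1 := card_image_sets_le hM S U hinj hU hW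
  have h2 := choose_mul_choose_le_exp (ν := M.card) (w := (Q \ vs M).card) he hl (vs_card_le U) hcard
  exact le_trans (by exact_mod_cast h1) h2

/-- **ISETS**, poor form: at most `(2 N)^g` image sets, `N = |U|`. -/
theorem card_image_sets_le_pow {Q : Finset α} {M : Finset (Sym2 α)} (hM : IsMaxMatch F Q M)
    (S : Finset (α → V)) (U : Finset (Sym2 V))
    (hinj : ∀ φ ∈ S, Function.Injective φ)
    (hU : ∀ φ ∈ S, ∀ e ∈ M, Sym2.map φ e ∈ U)
    (hW : ∀ φ ∈ S, ∀ w ∈ Q \ vs M, φ w ∈ vs U) :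
    (S.image (fun φ => Q.image φ)).card ≤ (2 * U.card) ^ (M.card + (Q \ vs M).card) :=
  (card_image_sets_le hM S U hinj hU hW).trans (choose_mul_choose_le_pow (vs_card_le U))

/-- **ISETS**, rich form, any `M` with `vs M ⊆ Q`. -/
theorem card_image_sets_le_exp_gen {Q : Finset α} {M : Finset (Sym2 α)} (hMQ : vs M ⊆ Q)
    (S : Finset (α → V)) (U : Finset (Sym2 V)) {e l : ℝ} (he : 0 ≤ e) (hl : 0 ≤ l)
    (hinj : ∀ φ ∈ S, Function.Injective φ)
    (hU : ∀ φ ∈ S, ∀ e ∈ M, Sym2.map φ e ∈ U)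
    (hW : ∀ φ ∈ S, ∀ w ∈ Q \ vs M, φ w ∈ vs U)
    (hcard : (U.card : ℝ) ≤ 3 * e * l) :
    ((S.image (fun φ => Q.image φ)).card : ℝ) ≤
      (12 * l) ^ (M.card + (Q \ vs M).card) * Real.exp e := by
  have h1 := card_image_sets_le_gen hMQ S U hinj hU hW
  have h2 := choose_mul_choose_le_exp (ν := M.card) (w := (Q \ vs M).card) he hl (vs_card_le U) hcard
  exact le_trans (by exact_mod_cast h1) h2

/-- **ISETS**, poor form, any `M` with `vs M ⊆ Q`. -/
theorem card_image_sets_le_pow_gen {Q : Finset α} {M : Finset (Sym2 α)} (hMQ : vs M ⊆ Q)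
    (S : Finset (α → V)) (U : Finset (Sym2 V))
    (hinj : ∀ φ ∈ S, Function.Injective φ)
    (hU : ∀ φ ∈ S, ∀ e ∈ M, Sym2.map φ e ∈ U)
    (hW : ∀ φ ∈ S, ∀ w ∈ Q \ vs M, φ w ∈ vs U) :
    (S.image (fun φ => Q.image φ)).card ≤ (2 * U.card) ^ (M.card + (Q \ vs M).card) :=
  (card_image_sets_le_gen hMQ S U hinj hU hW).trans (choose_mul_choose_le_pow (vs_card_le U))

end Vale.Agent.Lib.P064U
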