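import Vale.Agent.Lib.P064N.Num

/-!
The numerical step for a minimal non-deficient up-set.
-/

namespace Vale.Agent.Lib.P064U

open Vale.Agent.Lib.P064N

set_option maxHeartbeats 400000 in
/-- The numerical heart.  `a` vertices, `m` new edges, `b` core vertices. -/
theorem up_numeric {a b m t : ℕ} {x Q κ B C₀ L ρ : ℝ}
    (ha : 1 ≤ a) (hm : 1 ≤ m) (hab : a + b ≤ m + 1)
    (hx : 1 ≤ x) (hQ0 : 0 < Q) (hQx : Q ≤ x) (hκ : 0 ≤ κ)
    (hcap : (m : ℝ) ≤ (1 + κ) * a)
    (hacc : (1 + κ) * Q ≤ x + 1)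
    (hρ : ρ = Real.exp (a * x - m * Q))
    (hB : Real.exp 1 ≤ B) (hC₀ : 1 ≤ C₀)
    (hL1 : C₀ * B * Real.exp (κ * Real.log x) ≤ L)
    (hL2 : x / Real.log B ≤ L * Real.exp (x - Q))
    (ht1 : 1 ≤ t)
    (hdich : (t : ℝ) ≤ b * x / Real.log B ∨ (t : ℝ) ≤ Real.exp 1 * B * ρ) :
    (a : ℝ) * (t * a) * C₀ ^ (a - 1) ≤ (8 * Real.exp 2) ^ a * (2 * L) ^ m * ρ := by
  have hE1 : (1 : ℝ) ≤ Real.exp 1 := Real.one_le_exp (by norm_num)
  have hB1 : 1 ≤ B := hE1.trans hB
  have hB0 : 0 < B := by linarith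
  have hlB : 1 ≤ Real.log B := by
    have := Real.log_le_log (Real.exp_pos 1) hB
    rwa [Real.log_exp] at this
  have hlx : 0 ≤ Real.log x := Real.log_nonneg hx
  obtain ⟨X, hXdef⟩ : ∃ X, X = Real.exp (κ * Real.log x) := ⟨_, rfl⟩
  rw [← hXdef] at hL1
  have hX1 : 1 ≤ X := by
    rw [hXdef]
    exact Real.one_le_exp (by positivity)
  have hC0 : 0 < C₀ := by linarith
  have hLC : C₀ * B ≤ L := by
    refine le_trans ?_ hL1
    exact le_mul_of_one_le_right (by positivity) hX1
  have hLX : C₀ * X ≤ L := by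
    refine le_trans ?_ hL1
    have h1 : C₀ * X = C₀ * 1 * X := by ring
    rw [h1]
    gcongr
  have hLB : B ≤ L := by
    have h1 : B ≤ C₀ * B := le_mul_of_one_le_left hB0.le hC₀
    exact h1.trans hLC
  have hL1' : 1 ≤ L := hB1.trans hLB
  have hL0 : 0 < L := by linarith
  have hLc : C₀ ≤ L := by
    have h1 : C₀ ≤ C₀ * B := le_mul_of_one_le_right hC0.le hB1
    exact h1.trans hLC
  have hρ0 : 0 < ρ := by
    rw [hρ]
    exact Real.exp_pos _
  have ha0 : (0 : ℝ) < a := by exact_mod_cast ha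
  have ham : a ≤ m + 1 := by omega
  have h2L : L ^ m ≤ (2 * L) ^ m := by
    apply pow_le_pow_left₀ hL0.le
    linarith
  have hsq := sq_le_four_pow' a
  have h4 : (4 : ℝ) ^ a ≤ 8 ^ a := pow_le_pow_left₀ (by norm_num) (by norm_num) a
  have hexpa : (1 : ℝ) ≤ Real.exp 2 ^ a := one_le_pow₀ (Real.one_le_exp (by norm_num))
  have h8 : (8 * Real.exp 2) ^ a = 8 ^ a * Real.exp 2 ^ a := mul_pow _ _ _
  have hE2a : Real.exp 1 ≤ Real.exp 2 ^ a := by
    calc Real.exp 1 ≤ Real.exp 2 := Real.exp_le_exp.2 (by norm_num)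
      _ = Real.exp 2 ^ 1 := (pow_one _).symm
      _ ≤ Real.exp 2 ^ a := pow_le_pow_right₀ (Real.one_le_exp (by norm_num)) ha
  rcases hdich with hd | hd
  swap
  · -- many copies
    have hBc : B * C₀ ^ (a - 1) ≤ L ^ m := by
      rcases Nat.lt_or_ge a 2 with h1 | h1
      · have ha1 : a = 1 := by omega
        rw [ha1]
        simp only [Nat.sub_self, pow_zero, mul_one]
        calc B ≤ L := hLB
          _ = L ^ 1 := (pow_one _).symm
          _ ≤ L ^ m := pow_le_pow_right₀ hL1' hm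
      · have h2 : B ≤ B ^ (a - 1) := by
          calc B = B ^ 1 := (pow_one _).symm
            _ ≤ B ^ (a - 1) := pow_le_pow_right₀ hB1 (by omega)
        calc B * C₀ ^ (a - 1) ≤ B ^ (a - 1) * C₀ ^ (a - 1) :=
              mul_le_mul_of_nonneg_right h2 (by positivity)
          _ = (C₀ * B) ^ (a - 1) := by rw [mul_pow]; ring
          _ ≤ L ^ (a - 1) := pow_le_pow_left₀ (by positivity) hLC _
          _ ≤ L ^ m := pow_le_pow_right₀ hL1' (by omega)
    have h1 : (a : ℝ) * (t * a) * C₀ ^ (a - 1) ≤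
        (a : ℝ) * ((Real.exp 1 * B * ρ) * a) * C₀ ^ (a - 1) := by
      gcongr
    refine h1.trans ?_
    have h2 : (a : ℝ) * ((Real.exp 1 * B * ρ) * a) * C₀ ^ (a - 1) =
        ((a : ℝ) * a * Real.exp 1) * (B * C₀ ^ (a - 1)) * ρ := by ring
    rw [h2]
    have h3 : (a : ℝ) * a * Real.exp 1 ≤ (8 * Real.exp 2) ^ a := by
      rw [h8]
      exact mul_le_mul (hsq.trans h4) hE2a (by positivity) (by positivity)
    have h5 : B * C₀ ^ (a - 1) ≤ (2 * L) ^ m := hBc.trans h2L
    exact mul_le_mul_of_nonneg_right (mul_le_mul h3 h5 (by positivity) (by positivity)) hρ0.le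
  -- few copies
  have hb1 : 1 ≤ b := by
    by_contra hb
    have hb0 : b = 0 := by omega
    rw [hb0] at hd
    have : (1 : ℝ) ≤ t := by exact_mod_cast ht1
    simp only [Nat.cast_zero, zero_mul, zero_div] at hd
    linarith
  have hma : a ≤ m := by omega
  by_cases hbig : a + 1 ≤ m
  · -- a big block
    have hm1 : (a : ℝ) + 1 ≤ m := by exact_mod_cast hbig
    have hκa : 1 ≤ κ * a := by
      have h1 : (1 + κ) * a = a + κ * a := by ring
      linarith
    have hlogρ : -(a : ℝ) ≤ a * x - m * Q := by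
      have h1 : (m : ℝ) * Q ≤ ((1 + κ) * a) * Q := mul_le_mul_of_nonneg_right hcap hQ0.le
      have h2 : ((1 + κ) * a) * Q ≤ a * (x + 1) := by
        have h4 := mul_le_mul_of_nonneg_left hacc ha0.le
        calc ((1 + κ) * a) * Q = a * ((1 + κ) * Q) := by ring
          _ ≤ _ := h4
      have e2 : (a : ℝ) * (x + 1) = a * x + a := by ring
      linarith
    have hρlow : Real.exp (-(a : ℝ)) ≤ ρ := by
      rw [hρ]
      exact Real.exp_le_exp.2 hlogρ
    have hXa : x ≤ X ^ a := by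
      rw [hXdef, ← Real.exp_nat_mul]
      calc x = Real.exp (Real.log x) := (Real.exp_log (by linarith)).symm
        _ ≤ _ := by
            apply Real.exp_le_exp.2
            have h2 := mul_le_mul_of_nonneg_right hκa hlx
            calc Real.log x = 1 * Real.log x := (one_mul _).symm
              _ ≤ κ * a * Real.log x := h2
              _ = _ := by ring
    have hCa : C₀ ^ (a - 1) ≤ C₀ ^ a := pow_le_pow_right₀ hC₀ (by omega)
    have hLa : C₀ ^ (a - 1) * x ≤ L ^ m := by
      calc C₀ ^ (a - 1) * x ≤ C₀ ^ a * X ^ a :=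
            mul_le_mul hCa hXa (by linarith) (by positivity)
        _ = (C₀ * X) ^ a := by rw [mul_pow]
        _ ≤ L ^ a := pow_le_pow_left₀ (by positivity) hLX _
        _ ≤ L ^ m := pow_le_pow_right₀ hL1' hma
    have hbm : (b : ℝ) ≤ 2 ^ m := by
      have h1 : m < 2 ^ m := Nat.lt_two_pow_self
      have h2 : b ≤ 2 ^ m := by omega
      exact_mod_cast h2
    have htx : (t : ℝ) ≤ b * x := by
      refine hd.trans ?_
      rw [div_le_iff₀ (by linarith)]
      have : 0 ≤ (b : ℝ) * x := by positivity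
      exact le_mul_of_one_le_right this hlB
    have h1 : (a : ℝ) * (t * a) * C₀ ^ (a - 1) ≤ (a : ℝ) * ((b * x) * a) * C₀ ^ (a - 1) := by
      gcongr
    refine h1.trans ?_
    have hmul : (2 * L) ^ m = 2 ^ m * L ^ m := mul_pow _ _ _
    rw [hmul]
    have hexp1 : Real.exp (-(a : ℝ)) * Real.exp a = 1 := by
      rw [← Real.exp_add]
      simp
    have hexpa1 : Real.exp a = Real.exp 1 ^ a := by
      rw [← Real.exp_nat_mul]
      congr 1
      ring
    have h4e : (a : ℝ) * a * Real.exp a ≤ (8 * Real.exp 2) ^ a := by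
      rw [h8, hexpa1]
      have h5 : Real.exp 1 ^ a ≤ Real.exp 2 ^ a :=
        pow_le_pow_left₀ (Real.exp_pos 1).le (Real.exp_le_exp.2 (by norm_num)) a
      exact mul_le_mul (hsq.trans h4) h5 (by positivity) (by positivity)
    set E1 := Real.exp (-(a : ℝ)) with hE1def
    have hE1p : 0 < E1 := Real.exp_pos _
    calc (a : ℝ) * ((b * x) * a) * C₀ ^ (a - 1)
        = ((a : ℝ) * a * (E1 * Real.exp a)) * b * (C₀ ^ (a - 1) * x) := by
          rw [hexp1]
          ring
      _ = ((a : ℝ) * a * Real.exp a) * b * (C₀ ^ (a - 1) * x) * E1 := by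
          ring
      _ ≤ (8 * Real.exp 2) ^ a * 2 ^ m * L ^ m * E1 := by
          have hz : 0 ≤ C₀ ^ (a - 1) * x := by positivity
          have h5 : ((a : ℝ) * a * Real.exp a) * b ≤ (8 * Real.exp 2) ^ a * 2 ^ m :=
            mul_le_mul h4e hbm (by positivity) (by positivity)
          have h6 : ((a : ℝ) * a * Real.exp a) * b * (C₀ ^ (a - 1) * x) ≤
              (8 * Real.exp 2) ^ a * 2 ^ m * L ^ m :=
            mul_le_mul h5 hLa hz (by positivity)
          exact mul_le_mul_of_nonneg_right h6 hE1p.le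
      _ ≤ (8 * Real.exp 2) ^ a * 2 ^ m * L ^ m * ρ := by
          apply mul_le_mul_of_nonneg_left hρlow (by positivity)
      _ = _ := by ring
  · -- a small block: `m = a`
    have hmaeq : m = a := by omega
    have hb1' : b = 1 := by omega
    subst hmaeq
    subst hb1'
    simp only [Nat.cast_one, one_mul] at hd
    obtain ⟨K, hKdef⟩ : ∃ K, K = Real.exp (x - Q) := ⟨_, rfl⟩
    rw [← hKdef] at hL2
    have hK1 : 1 ≤ K := by
      rw [hKdef]
      exact Real.one_le_exp (by linarith)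
    have hρK : ρ = K ^ m := by
      rw [hρ, hKdef, ← Real.exp_nat_mul]
      congr 1
      ring
    have htLK : (t : ℝ) ≤ L * K := hd.trans hL2
    have hLLK : L ≤ L * K := le_mul_of_one_le_right hL0.le hK1
    have hLK : C₀ ≤ L * K := hLc.trans hLLK
    have hLKp : 1 ≤ L * K := hL1'.trans hLLK
    have hpow : C₀ ^ (m - 1) ≤ (L * K) ^ (m - 1) := pow_le_pow_left₀ hC0.le hLK _
    have hsplit : (L * K) ^ m = (L * K) * (L * K) ^ (m - 1) := by
      rw [← pow_succ']
      congr 1
      omega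
    have h1 : (t : ℝ) * C₀ ^ (m - 1) ≤ (L * K) ^ m := by
      rw [hsplit]
      exact mul_le_mul htLK hpow (by positivity) (by positivity)
    have h3 : (L * K) ^ m ≤ (2 * L) ^ m * K ^ m := by
      rw [← mul_pow]
      apply pow_le_pow_left₀ (by positivity)
      exact mul_le_mul_of_nonneg_right (by linarith) (by linarith)
    have h5 : (m : ℝ) * m ≤ (8 * Real.exp 2) ^ m := by
      rw [h8]
      have : (8 : ℝ) ^ m * 1 ≤ 8 ^ m * Real.exp 2 ^ m :=
        mul_le_mul_of_nonneg_left hexpa (by positivity)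
      linarith
    rw [hρK]
    calc (m : ℝ) * (t * m) * C₀ ^ (m - 1) = ((m : ℝ) * m) * (t * C₀ ^ (m - 1)) := by ring
      _ ≤ (8 * Real.exp 2) ^ m * ((2 * L) ^ m * K ^ m) :=
          mul_le_mul h5 (h1.trans h3) (by positivity) (by positivity)
      _ = _ := by ring

end Vale.Agent.Lib.P064U
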