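import Vale.Agent.Lib.P064U.Up
import Vale.Agent.Lib.P064U.Num

/-!
The main induction over minimal non-deficient up-sets.
-/

open Finset

namespace Vale.Agent.Lib.P064U

open Vale.Agent.Lib.P064 Vale.Agent.Lib.P064N

open scoped Classical

variable {V α : Type} [Fintype V] [Fintype α]

set_option linter.unusedSectionVars false

/-- The numerical parameters of the argument. -/
structure Params (H : SimpleGraph V) (n : ℕ) (q : ℝ) (w : V → V → ℕ) (M c T₁ c₁ : ℕ)
    (κ τ B C₀ L : ℝ) : Prop where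
  hG : GoodDensity n q H
  hq0 : 0 < q
  hq1 : q ≤ 1
  hn : 2 ≤ n
  hV : Fintype.card V ≤ n
  hw : ∀ a b, H.Adj a b → w a b + w b a = M
  hs : ∀ a, ∑ b, w a b ≤ c
  hM : 0 < M
  hκ : 0 < κ
  hτ0 : 0 ≤ τ
  hτ : τ ≤ 1 / 8
  hρ : (c : ℝ) ≤ (1 + κ) * M
  hTτ : (T₁ : ℝ) ≤ τ * M
  hc₁1 : 1 ≤ c₁
  hc₁ : ∀ a, (univ.filter fun b => ArcT H w T₁ a b).card ≤ c₁
  hc1 : 1 ≤ c
  hx : 1 ≤ Real.log n
  hQ0 : 0 < - Real.log q
  hQx : - Real.log q ≤ Real.log n
  hacc : (1 + κ) * (- Real.log q) ≤ Real.log n + 1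
  hB : Real.exp 1 ≤ B
  hC₀1 : 1 ≤ C₀
  hC₀ : (c₁ : ℝ) * Real.exp (((8 / 3) * τ + (4 / 3) * κ) * Real.log c) ≤ C₀
  hL1 : C₀ * B * Real.exp (κ * Real.log (Real.log n)) ≤ L
  hL2 : Real.log n / Real.log B ≤ L * Real.exp (Real.log n - (- Real.log q))

/-- A family of embeddings with one pattern of arcs. -/
structure Fam (H : SimpleGraph V) (F : SimpleGraph α) (w : V → V → ℕ) (T₁ : ℕ)
    (R₁ R₀ : Finset (α × α)) (S : Finset (α → V)) : Prop where
  inj : ∀ φ ∈ S, Function.Injective φ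
  hom : ∀ φ ∈ S, ∀ u v, F.Adj u v → H.Adj (φ u) (φ v)
  arc₁ : ∀ φ ∈ S, ∀ d ∈ R₁, ArcT H w T₁ (φ d.1) (φ d.2)
  arc₀ : ∀ φ ∈ S, ∀ d ∈ R₀, ArcT H w 1 (φ d.1) (φ d.2)
  rev₁ : ∀ φ ∈ S, ∀ u v, F.Adj u v → ArcT H w T₁ (φ u) (φ v) → (u, v) ∈ R₁
  rev₀ : ∀ φ ∈ S, ∀ u v, F.Adj u v → ArcT H w 1 (φ u) (φ v) → (u, v) ∈ R₀

variable {H : SimpleGraph V} {F : SimpleGraph α} {n : ℕ} {q : ℝ} {w : V → V → ℕ}
  {M c T₁ c₁ : ℕ} {κ τ B C₀ L : ℝ} {R₁ R₀ : Finset (α × α)} {S : Finset (α → V)}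

lemma Fam.mono (h : Fam H F w T₁ R₁ R₀ S) {S' : Finset (α → V)} (hS : S' ⊆ S) :
    Fam H F w T₁ R₁ R₀ S' :=
  ⟨fun φ hφ => h.inj φ (hS hφ), fun φ hφ => h.hom φ (hS hφ), fun φ hφ => h.arc₁ φ (hS hφ),
    fun φ hφ => h.arc₀ φ (hS hφ), fun φ hφ => h.rev₁ φ (hS hφ), fun φ hφ => h.rev₀ φ (hS hφ)⟩

/-- The walk bound on a fibre: one image of `x` and of the previous part. -/
lemma fibre_walk (P : Params H n q w M c T₁ c₁ κ τ B C₀ L)
    (hRF : ∀ u v, (u, v) ∈ R₁ → F.Adj u v) (hF : Fam H F w T₁ R₁ R₀ S)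
    {W N : Finset α} (hUp : Up R₁ W N)
    (hmin : ∀ N' : Finset α, N'.Nonempty → N' ⊆ N → N' ≠ N → Up R₁ W N' → ¬ ND F (1 + κ) W N')
    {x : α} (hxN : x ∈ N) (hone : (S.image (proj (insert x (W \ N)))).card ≤ 1) :
    ((S.image (proj W)).card : ℝ) ≤ C₀ ^ (N.card - 1) := by
  have hC0 : 0 < C₀ := by linarith [P.hC₀1]
  by_cases hS : S.Nonempty
  swap
  · rw [Finset.not_nonempty_iff_eq_empty] at hS
    rw [hS]
    simp only [Finset.image_empty, Finset.card_empty, Nat.cast_zero]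
    positivity
  obtain ⟨φ₁, hφ₁⟩ := hS
  have hD₀W : insert x (W \ N) ⊆ W := Finset.insert_subset (hUp.1 hxN) Finset.sdiff_subset
  obtain ⟨J, hJ1, hJ2⟩ := walk_top (H := H) (F := F) (κ := κ) (τ := τ) (c₀ := c)
    P.hw P.hs P.hM P.hκ P.hτ0 P.hτ P.hρ P.hTτ P.hc₁1 P.hc₁
    (fun a => by simpa using arcT_out (H := H) (w := w) (T := 1) P.hs le_rfl a) hRF hF.arc₁ hF.arc₀
    (hF.inj φ₁ hφ₁) (hF.hom φ₁ hφ₁) (hF.rev₁ φ₁ hφ₁) (hF.rev₀ φ₁ hφ₁)
    (fun A hD hAW hCl hA => deficient_of_min hmin hxN hD hAW hCl hA) hD₀W hone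
  have hcard : (W \ insert x (W \ N)).card = N.card - 1 := by
    have h1 : W \ insert x (W \ N) = N.erase x := by
      ext y
      simp only [Finset.mem_sdiff, Finset.mem_insert, Finset.mem_erase]
      constructor
      · rintro ⟨h2, h3⟩
        push Not at h3
        exact ⟨h3.1, h3.2 h2⟩
      · rintro ⟨h2, h3⟩
        refine ⟨hUp.1 h3, ?_⟩
        rintro (h4 | ⟨_, h4⟩)
        · exact h2 h4
        · exact h4 h3
    rw [h1, Finset.card_erase_of_mem hxN]
  rw [hcard] at hJ1 hJ2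
  have hcpos : (0 : ℝ) < c := by exact_mod_cast P.hc1
  have hlogc : 0 ≤ Real.log c := Real.log_nonneg (by exact_mod_cast P.hc1)
  have hcJ : (c : ℝ) ^ J ≤ Real.exp (((8 / 3) * τ + (4 / 3) * κ) * Real.log c) ^ (N.card - 1) := by
    rw [← Real.exp_nat_mul]
    have h1 : (c : ℝ) ^ J = Real.exp (J * Real.log c) := by
      rw [Real.exp_nat_mul, Real.exp_log hcpos]
    rw [h1]
    apply Real.exp_le_exp.2
    have h2 := mul_le_mul_of_nonneg_right hJ2 hlogc
    calc (J : ℝ) * Real.log c ≤ _ := h2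
      _ = _ := by ring
  have hc₁pos : (0 : ℝ) ≤ c₁ := Nat.cast_nonneg _
  have h3 : ((S.image (proj W)).card : ℝ) ≤ (c₁ : ℝ) ^ (N.card - 1) * (c : ℝ) ^ J := by
    exact_mod_cast hJ1
  calc ((S.image (proj W)).card : ℝ) ≤ (c₁ : ℝ) ^ (N.card - 1) * (c : ℝ) ^ J := h3
    _ ≤ (c₁ : ℝ) ^ (N.card - 1) *
        Real.exp (((8 / 3) * τ + (4 / 3) * κ) * Real.log c) ^ (N.card - 1) :=
        mul_le_mul_of_nonneg_left hcJ (by positivity)
    _ = ((c₁ : ℝ) * Real.exp (((8 / 3) * τ + (4 / 3) * κ) * Real.log c)) ^ (N.card - 1) := by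
        rw [mul_pow]
    _ ≤ C₀ ^ (N.card - 1) := pow_le_pow_left₀ (by positivity) P.hC₀ _

/-- The count over a minimal non-deficient up-set, on a fibre of the previous part. -/
theorem up_fibre (P : Params H n q w M c T₁ c₁ κ τ B C₀ L)
    (hRF : ∀ u v, (u, v) ∈ R₁ → F.Adj u v) (hF : Fam H F w T₁ R₁ R₀ S)
    {W N : Finset α} (hUp : Up R₁ W N) (hND : ND F (1 + κ) W N) (hNne : N.Nonempty)
    (hmin : ∀ N' : Finset α, N'.Nonempty → N' ⊆ N → N' ≠ N → Up R₁ W N' → ¬ ND F (1 + κ) W N')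
    {φ₀ : α → V} (hagree : ∀ φ ∈ S, ∀ x ∈ W \ N, φ x = φ₀ x) :
    ((S.image (proj W)).card : ℝ) ≤ (8 * Real.exp 2) ^ N.card * (2 * L) ^ (newE F (W \ N) N).card *
      ((n : ℝ) ^ N.card * q ^ (newE F (W \ N) N).card) := by
  have hn2 : (2 : ℝ) ≤ n := by exact_mod_cast P.hn
  have hn1 : (1 : ℝ) ≤ n := by linarith
  have hn0 : (0 : ℝ) < n := by linarith
  have hn' : 1 ≤ n := by
    have := P.hn
    omega
  have hq0 := P.hq0
  have hq1 := P.hq1
  have hC₀1 := P.hC₀1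
  have hB := P.hB
  have hκ := P.hκ
  have hE1 : (1 : ℝ) ≤ Real.exp 1 := Real.one_le_exp (by norm_num)
  have hB1' : 1 ≤ B := hE1.trans hB
  have hL1' : 1 ≤ L := by
    refine le_trans ?_ P.hL1
    have h1 : (1 : ℝ) ≤ Real.exp (κ * Real.log (Real.log n)) :=
      Real.one_le_exp (mul_nonneg hκ.le (Real.log_nonneg P.hx))
    calc (1 : ℝ) = 1 * 1 * 1 := by norm_num
      _ ≤ _ := by gcongr
  have hL0 : 0 < L := by linarith
  by_cases hS : S.Nonempty
  swap
  · rw [Finset.not_nonempty_iff_eq_empty] at hS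
    rw [hS]
    simp only [Finset.image_empty, Finset.card_empty, Nat.cast_zero]
    positivity
  obtain ⟨φ₂, hφ₂⟩ := hS
  have hcard := min_up_card hRF hUp hND hNne hmin
  have hUW : (W \ N) ∪ N = W := Finset.sdiff_union_of_subset hUp.1
  have hdisj : Disjoint N (W \ N) := Finset.disjoint_sdiff
  obtain ⟨E, hE⟩ : ∃ E, E = W \ N := ⟨_, rfl⟩
  rw [← hE] at hagree hcard hUW hdisj ⊢
  by_cases hm0 : (newE F E N).card = 0
  · -- no new edge: a single vertex
    have ha1 : N.card = 1 := by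
      have := Finset.card_pos.2 hNne
      omega
    obtain ⟨z, rfl⟩ := Finset.card_eq_one.1 ha1
    have hzE : z ∉ E := by
      intro h
      exact Finset.disjoint_left.1 hdisj (Finset.mem_singleton_self z) h
    have hA : Real.exp 2 ≤ 8 * Real.exp 2 := by
      have : 0 < Real.exp 2 := Real.exp_pos _
      linarith
    have h1 := peel_light (κ := 1) P.hG hq0 hq1 hn' P.hV hA le_rfl 1
      (fun d h1 h2 => absurd h2 (by omega)) hzE (by omega) S hF.inj hF.hom hagree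
    rw [hUW, hm0] at h1
    rw [hm0]
    simpa using h1
  have hm1 : 1 ≤ (newE F E N).card := Nat.one_le_iff_ne_zero.2 hm0
  -- the family of disjoint copies
  obtain ⟨𝓜, hsub, hne𝓜, hdisj𝓜, hcov⟩ := exists_max_family S ⟨φ₂, hφ₂⟩ hNne
  obtain ⟨φ₁, hφ₁⟩ := hne𝓜
  have hag' : ∀ φ ∈ 𝓜, ∀ x ∈ E, φ x = φ₁ x := by
    intro φ hφ x hx
    rw [hagree φ (hsub hφ) x hx, hagree φ₁ (hsub hφ₁) x hx]
  have hfac := sun_factorial P.hG hq0 hq1 hNne hdisj 𝓜 hφ₁ (fun φ hφ => hF.inj φ (hsub hφ))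
    (fun φ hφ => hF.hom φ (hsub hφ)) hag' hdisj𝓜 hm1
  have hρ0 : 0 < (n : ℝ) ^ N.card * q ^ (newE F E N).card := by positivity
  have ht1 : 1 ≤ 𝓜.card := Finset.card_pos.2 ⟨φ₁, hφ₁⟩
  have hB1 : 1 < B := lt_of_lt_of_le (by
    have := Real.add_one_lt_exp (x := 1) (by norm_num)
    linarith) hB
  have hdich := t_bound_B hn1 hρ0 hB1 ht1 hfac
  -- the cover
  have hC0 : (0 : ℝ) ≤ C₀ ^ (N.card - 1) := by positivity
  have hcover := cover_count_real S 𝓜 hcov hC0 W (by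
    intro x hx z
    refine fibre_walk P hRF (hF.mono (Finset.filter_subset _ _)) hUp hmin hx ?_
    rw [← hE]
    refine Finset.card_le_one.2 ?_
    intro a ha b hb'
    obtain ⟨φ, hφ, rfl⟩ := Finset.mem_image.1 ha
    obtain ⟨φ', hφ', rfl⟩ := Finset.mem_image.1 hb'
    obtain ⟨h4, h5⟩ := Finset.mem_filter.1 hφ
    obtain ⟨h4', h5'⟩ := Finset.mem_filter.1 hφ'
    funext y
    simp only [proj, Finset.mem_insert]
    by_cases hy : y = x ∨ y ∈ E
    · simp only [hy, if_true]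
      rcases hy with rfl | hy
      · rw [h5, h5']
      · rw [hagree φ h4 y hy, hagree φ' h4' y hy]
    · simp only [hy, if_false])
  refine hcover.trans ?_
  -- the numerics
  have hρdef : (n : ℝ) ^ N.card * q ^ (newE F E N).card =
      Real.exp (N.card * Real.log n - (newE F E N).card * (- Real.log q)) := by
    have h1 : (n : ℝ) ^ N.card = Real.exp (N.card * Real.log n) := by
      rw [Real.exp_nat_mul, Real.exp_log hn0]
    have h2 : q ^ (newE F E N).card = Real.exp ((newE F E N).card * Real.log q) := by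
      rw [Real.exp_nat_mul, Real.exp_log hq0]
    rw [h1, h2, ← Real.exp_add]
    congr 1
    ring
  have hcap : ((newE F E N).card : ℝ) ≤ (1 + κ) * N.card := by
    have := hND
    unfold ND at this
    rwa [← hE] at this
  rw [hρdef] at hdich ⊢
  have hnum := up_numeric (b := (core F E N).card) (t := 𝓜.card) (Finset.card_pos.2 hNne) hm1 hcard
    P.hx P.hQ0 P.hQx hκ.le hcap P.hacc rfl hB hC₀1 P.hL1 P.hL2 ht1 hdich
  exact hnum

/-- The main induction. -/
theorem up_main (P : Params H n q w M c T₁ c₁ κ τ B C₀ L)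
    (hRF : ∀ u v, (u, v) ∈ R₁ → F.Adj u v) (hF : Fam H F w T₁ R₁ R₀ S) (k : ℕ) :
    ∀ W : Finset α, W.card ≤ k → ((S.image (proj W)).card : ℝ) ≤
      (8 * Real.exp 2) ^ W.card * (2 * L) ^ (eIn F W).card *
        ((n : ℝ) ^ W.card * q ^ (eIn F W).card) := by
  have hn2 : (2 : ℝ) ≤ n := by exact_mod_cast P.hn
  have hn0 : (0 : ℝ) < n := by linarith
  have hq0 := P.hq0
  have hE1 : (1 : ℝ) ≤ Real.exp 1 := Real.one_le_exp (by norm_num)
  have hB1' : 1 ≤ B := hE1.trans P.hB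
  have hC₀1 := P.hC₀1
  have hL1' : 1 ≤ L := by
    refine le_trans ?_ P.hL1
    have h1 : (1 : ℝ) ≤ Real.exp (κ * Real.log (Real.log n)) :=
      Real.one_le_exp (mul_nonneg P.hκ.le (Real.log_nonneg P.hx))
    calc (1 : ℝ) = 1 * 1 * 1 := by norm_num
      _ ≤ _ := by gcongr
  have hL0 : 0 < L := by linarith
  have hbase : ((S.image (proj (∅ : Finset α))).card : ℝ) ≤
      (8 * Real.exp 2) ^ (∅ : Finset α).card * (2 * L) ^ (eIn F (∅ : Finset α)).card *
        ((n : ℝ) ^ (∅ : Finset α).card * q ^ (eIn F (∅ : Finset α)).card) := by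
    have h1 : (S.image (proj (∅ : Finset α))).card ≤ 1 := by
      refine Finset.card_le_one.2 ?_
      intro a ha b hb
      obtain ⟨φ, _, rfl⟩ := Finset.mem_image.1 ha
      obtain ⟨φ', _, rfl⟩ := Finset.mem_image.1 hb
      funext x
      simp [proj]
    rw [eIn_empty]
    simp only [Finset.card_empty, pow_zero, mul_one]
    exact_mod_cast h1
  induction k with
  | zero =>
    intro W hW
    have hW0 : W = ∅ := Finset.card_eq_zero.1 (Nat.le_zero.1 hW)
    rw [hW0]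
    exact hbase
  | succ k ih =>
    intro W hW
    by_cases hne : W.Nonempty
    swap
    · rw [Finset.not_nonempty_iff_eq_empty] at hne
      rw [hne]
      exact hbase
    by_cases hS : S.Nonempty
    swap
    · rw [Finset.not_nonempty_iff_eq_empty] at hS
      rw [hS]
      simp only [Finset.image_empty, Finset.card_empty, Nat.cast_zero]
      positivity
    obtain ⟨φ₁, hφ₁⟩ := hS
    have hWW : ND F (1 + κ) W W := by
      unfold ND
      by_contra hcon
      push Not at hcon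
      rw [Finset.sdiff_self] at hcon
      obtain ⟨u, hu, _⟩ := token_arc (H := H) (F := F) (R₀ := R₀) P.hw P.hs P.hM P.hρ
        (hF.inj φ₁ hφ₁) (hF.hom φ₁ hφ₁) (hF.rev₀ φ₁ hφ₁) (A := ∅) (N' := W)
        (Finset.disjoint_empty_right _) hcon
      exact absurd hu (Finset.notMem_empty _)
    obtain ⟨N, hNne, hUp, hND, hmin⟩ := exists_min_up (R := R₁) hne hWW
    set E := W \ N with hE
    have hEW : E ⊆ W := Finset.sdiff_subset
    have hcardW : W.card = E.card + N.card := by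
      have h1 : E ∪ N = W := Finset.sdiff_union_of_subset hUp.1
      conv_lhs => rw [← h1]
      exact Finset.card_union_of_disjoint Finset.sdiff_disjoint
    have hNpos := Finset.card_pos.2 hNne
    have hih := ih E (by omega)
    have hedge : (eIn F W).card = (eIn F E).card + (newE F E N).card := by
      have h1 : E ∪ N = W := Finset.sdiff_union_of_subset hUp.1
      conv_lhs => rw [← h1]
      exact eIn_union_card
    obtain ⟨B₁, hB₁⟩ : ∃ B₁ : ℝ, B₁ = (8 * Real.exp 2) ^ N.card * (2 * L) ^ (newE F E N).card *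
      ((n : ℝ) ^ N.card * q ^ (newE F E N).card) := ⟨_, rfl⟩
    have hB₁0 : 0 ≤ B₁ := by
      rw [hB₁]
      positivity
    have hstep := card_image_proj_step_real S (D := E) (D' := W) hEW hB₁0 (by
      intro φ₀ _
      rw [hB₁]
      exact up_fibre P hRF (hF.mono (Finset.filter_subset _ _)) hUp hND hNne hmin (φ₀ := φ₀)
        (fun φ hφ x hx => proj_eq_apply hx (Finset.mem_filter.1 hφ).2))
    calc ((S.image (proj W)).card : ℝ) ≤ B₁ * (S.image (proj E)).card := hstep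
      _ ≤ B₁ * ((8 * Real.exp 2) ^ E.card * (2 * L) ^ (eIn F E).card *
            ((n : ℝ) ^ E.card * q ^ (eIn F E).card)) :=
          mul_le_mul_of_nonneg_left hih hB₁0
      _ = _ := by
          rw [hcardW, hedge, hB₁]
          ring

/-- The bound for one pattern. -/
theorem fam_bound_up (P : Params H n q w M c T₁ c₁ κ τ B C₀ L)
    (hRF : ∀ u v, (u, v) ∈ R₁ → F.Adj u v) (hF : Fam H F w T₁ R₁ R₀ S) :
    (S.card : ℝ) ≤ (8 * Real.exp 2) ^ Fintype.card α * (2 * L) ^ (eIn F univ).card *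
      ((n : ℝ) ^ Fintype.card α * q ^ (eIn F univ).card) := by
  have h1 := up_main P hRF hF (Fintype.card α) univ (by simp)
  have h2 : (S.image (proj (univ : Finset α))).card = S.card :=
    Finset.card_image_of_injective _ proj_univ_injective
  rw [h2, Finset.card_univ] at h1
  exact h1

/-- Sum over all patterns. -/
theorem emb_bound_up (P : Params H n q w M c T₁ c₁ κ τ B C₀ L) :
    ((emb F H).card : ℝ) ≤ 16 ^ (eIn F univ).card *
      ((8 * Real.exp 2) ^ Fintype.card α * (2 * L) ^ (eIn F univ).card *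
        ((n : ℝ) ^ Fintype.card α * q ^ (eIn F univ).card)) := by
  have hn2 : (2 : ℝ) ≤ n := by exact_mod_cast P.hn
  have hn0 : (0 : ℝ) < n := by linarith
  have hq0 := P.hq0
  have hE1 : (1 : ℝ) ≤ Real.exp 1 := Real.one_le_exp (by norm_num)
  have hB1' : 1 ≤ B := hE1.trans P.hB
  have hC₀1 := P.hC₀1
  have hL1' : 1 ≤ L := by
    refine le_trans ?_ P.hL1
    have h1 : (1 : ℝ) ≤ Real.exp (κ * Real.log (Real.log n)) :=
      Real.one_le_exp (mul_nonneg P.hκ.le (Real.log_nonneg P.hx))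
    calc (1 : ℝ) = 1 * 1 * 1 := by norm_num
      _ ≤ _ := by gcongr
  have hL0 : 0 < L := by linarith
  set Bd : ℝ := (8 * Real.exp 2) ^ Fintype.card α * (2 * L) ^ (eIn F univ).card *
        ((n : ℝ) ^ Fintype.card α * q ^ (eIn F univ).card) with hBd
  have hBd0 : 0 ≤ Bd := by positivity
  let pat₁ : (α → V) → Finset (α × α) :=
    fun φ => (darts F).filter (fun d => ArcT H w T₁ (φ d.1) (φ d.2))
  let pat₀ : (α → V) → Finset (α × α) :=
    fun φ => (darts F).filter (fun d => ArcT H w 1 (φ d.1) (φ d.2))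
  let pat : (α → V) → Finset (α × α) × Finset (α × α) := fun φ => (pat₁ φ, pat₀ φ)
  have h1 := Finset.card_le_mul_card_image (f := pat) (emb F H) ⌊Bd⌋₊ ?_
  · have h2 : ((emb F H).image pat).card ≤ 2 ^ (darts F).card * 2 ^ (darts F).card := by
      have : (emb F H).image pat ⊆ (darts F).powerset ×ˢ (darts F).powerset := by
        intro R hR
        obtain ⟨φ, _, rfl⟩ := Finset.mem_image.1 hR
        exact Finset.mem_product.2 ⟨Finset.mem_powerset.2 (Finset.filter_subset _ _),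
          Finset.mem_powerset.2 (Finset.filter_subset _ _)⟩
      refine (Finset.card_le_card this).trans ?_
      rw [Finset.card_product, Finset.card_powerset]
    have h3 : (2 : ℕ) ^ (darts F).card * 2 ^ (darts F).card ≤ 16 ^ (eIn F univ).card := by
      have h4 : (2 : ℕ) ^ (darts F).card ≤ 4 ^ (eIn F univ).card := by
        calc (2 : ℕ) ^ (darts F).card ≤ 2 ^ (2 * (eIn F univ).card) :=
              Nat.pow_le_pow_right (by norm_num) darts_card_le
          _ = 4 ^ (eIn F univ).card := by rw [pow_mul]; norm_num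
      calc (2 : ℕ) ^ (darts F).card * 2 ^ (darts F).card
          ≤ 4 ^ (eIn F univ).card * 4 ^ (eIn F univ).card := Nat.mul_le_mul h4 h4
        _ = 16 ^ (eIn F univ).card := by rw [← mul_pow]; norm_num
    have h4 : (emb F H).card ≤ ⌊Bd⌋₊ * 16 ^ (eIn F univ).card :=
      h1.trans (Nat.mul_le_mul_left _ (h2.trans h3))
    have hfloor : ((⌊Bd⌋₊ : ℕ) : ℝ) ≤ Bd := Nat.floor_le hBd0
    calc ((emb F H).card : ℝ) ≤ ((⌊Bd⌋₊ : ℕ) : ℝ) * 16 ^ (eIn F univ).card := by exact_mod_cast h4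
      _ ≤ Bd * 16 ^ (eIn F univ).card := mul_le_mul_of_nonneg_right hfloor (by positivity)
      _ = _ := mul_comm _ _
  · intro R hR
    obtain ⟨φ₁, hφ₁, rfl⟩ := Finset.mem_image.1 hR
    apply Nat.le_floor
    set S := (emb F H).filter (fun φ => pat φ = pat φ₁) with hS
    have hSe : ∀ φ ∈ S, φ ∈ emb F H := fun φ hφ => (Finset.mem_filter.1 hφ).1
    have hSp : ∀ φ ∈ S, pat φ = pat φ₁ := fun φ hφ => (Finset.mem_filter.1 hφ).2
    have hSp₁ : ∀ φ ∈ S, pat₁ φ = pat₁ φ₁ := fun φ hφ => congrArg Prod.fst (hSp φ hφ)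
    have hSp₀ : ∀ φ ∈ S, pat₀ φ = pat₀ φ₁ := fun φ hφ => congrArg Prod.snd (hSp φ hφ)
    refine fam_bound_up (R₁ := pat₁ φ₁) (R₀ := pat₀ φ₁) P ?_ ?_
    · intro u v h
      exact (Finset.mem_filter.1 (Finset.mem_filter.1 h).1).2
    · refine ⟨?_, ?_, ?_, ?_, ?_, ?_⟩
      · intro φ hφ
        exact (Finset.mem_filter.1 (hSe φ hφ)).2.1
      · intro φ hφ
        exact (Finset.mem_filter.1 (hSe φ hφ)).2.2
      · intro φ hφ d hd
        rw [← hSp₁ φ hφ] at hd
        exact (Finset.mem_filter.1 hd).2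
      · intro φ hφ d hd
        rw [← hSp₀ φ hφ] at hd
        exact (Finset.mem_filter.1 hd).2
      · intro φ hφ u v huv harc
        rw [← hSp₁ φ hφ]
        exact Finset.mem_filter.2 ⟨Finset.mem_filter.2 ⟨mem_univ _, huv⟩, harc⟩
      · intro φ hφ u v huv harc
        rw [← hSp₀ φ hφ]
        exact Finset.mem_filter.2 ⟨Finset.mem_filter.2 ⟨mem_univ _, huv⟩, harc⟩

end Vale.Agent.Lib.P064U
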