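import Vale.Agent.Lib.P064E.Facts

/-!
Part T, MATCH: the charge lemma for a maximal matching of `F[Q₀]`.
All counts are per-vertex neighbour counts `nbIn F S y`.
-/

open Finset

namespace Vale.Agent.Lib.P064U

open Vale.Agent.Lib.P064 Vale.Agent.Lib.P064E
open scoped Classical

variable {α : Type} [Fintype α] {F : SimpleGraph α}

/-- The number of `F`-neighbours of `y` in `S`. -/
noncomputable def nbIn (F : SimpleGraph α) (S : Finset α) (y : α) : ℕ := (S.filter (F.Adj y)).card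

/-- The weight `om(Q) = in(Q) + (5/8) out(Q)`, written as a sum over the vertices of `Q`. -/
noncomputable def om (F : SimpleGraph α) (K Q : Finset α) : ℝ :=
  ∑ y ∈ Q, ((nbIn F Q y : ℝ) / 2 + 5 / 8 * (nbIn F (K \ Q) y : ℝ))

/-- `M` is a maximal matching of `F[Q]`: the vertices it misses are independent. -/
structure IsMaxMatch (F : SimpleGraph α) (Q : Finset α) (M : Finset (Sym2 α)) : Prop where
  sub : M ⊆ eIn F Q
  disj : ∀ e ∈ M, ∀ e' ∈ M, e ≠ e' → Disjoint e.toFinset e'.toFinset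
  indep : ∀ u ∈ Q \ vs M, ∀ v ∈ Q \ vs M, ¬ F.Adj u v

lemma mem_vs_iff {β : Type} [Fintype β] {T : Finset (Sym2 β)} {x : β} :
    x ∈ vs T ↔ ∃ e ∈ T, x ∈ e := by
  unfold vs
  simp [Finset.mem_biUnion]

/-- A maximal matching exists. -/
lemma exists_maxMatch (F : SimpleGraph α) (Q : Finset α) : ∃ M, IsMaxMatch F Q M := by
  let P : Finset (Finset (Sym2 α)) := (eIn F Q).powerset.filter
    (fun M => ∀ e ∈ M, ∀ e' ∈ M, e ≠ e' → Disjoint e.toFinset e'.toFinset)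
  have hP : P.Nonempty := ⟨∅, by simp [P]⟩
  obtain ⟨M, hM, hmax⟩ := Finset.exists_max_image P Finset.card hP
  have hM' := Finset.mem_filter.1 hM
  refine ⟨M, Finset.mem_powerset.1 hM'.1, hM'.2, ?_⟩
  intro u hu v hv hadj
  have hu' := Finset.mem_sdiff.1 hu
  have hv' := Finset.mem_sdiff.1 hv
  have hnot : s(u, v) ∉ M := by
    intro h
    exact hu'.2 (mem_vs_iff.2 ⟨_, h, by simp⟩)
  have hdisj : ∀ e ∈ M, Disjoint (s(u, v)).toFinset e.toFinset := by
    intro e he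
    rw [Finset.disjoint_left]
    intro x hx hxe
    have hx' : x = u ∨ x = v := by simpa using hx
    have hxe' : x ∈ e := by simpa using hxe
    rcases hx' with rfl | rfl
    · exact hu'.2 (mem_vs_iff.2 ⟨e, he, hxe'⟩)
    · exact hv'.2 (mem_vs_iff.2 ⟨e, he, hxe'⟩)
  have hins : insert s(u, v) M ∈ P := by
    refine Finset.mem_filter.2 ⟨Finset.mem_powerset.2 ?_, ?_⟩
    · intro e he
      rcases Finset.mem_insert.1 he with rfl | he
      · exact mem_eIn_pair.2 ⟨hadj, hu'.1, hv'.1⟩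
      · exact Finset.mem_powerset.1 hM'.1 he
    · intro e he e' he' hne
      rcases Finset.mem_insert.1 he with rfl | he1
      · rcases Finset.mem_insert.1 he' with rfl | he2
        · exact absurd rfl hne
        · exact hdisj e' he2
      · rcases Finset.mem_insert.1 he' with rfl | he2
        · exact (hdisj e he1).symm
        · exact hM'.2 e he1 e' he2 hne
  have := hmax _ hins
  rw [Finset.card_insert_of_notMem hnot] at this
  omega

/-- The vertices of a matching number twice its edges. -/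
lemma IsMaxMatch.card_vs {Q : Finset α} {M : Finset (Sym2 α)} (h : IsMaxMatch F Q M) :
    (vs M).card = 2 * M.card := by
  unfold vs
  rw [Finset.card_biUnion (fun e he e' he' hne => h.disj e he e' he' hne)]
  have h2 : ∀ e ∈ M, e.toFinset.card = 2 := by
    intro e he
    have he' := h.sub he
    induction e using Sym2.ind with
    | _ u v =>
      have hadj := (mem_eIn_pair.1 he').1
      have hne : u ≠ v := hadj.ne
      have h3 : (s(u, v)).toFinset = {u, v} := by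
        ext x
        simp
      rw [h3, Finset.card_pair hne]
  rw [Finset.sum_congr rfl h2]
  simp [mul_comm]

lemma IsMaxMatch.vs_subset {Q : Finset α} {M : Finset (Sym2 α)} (h : IsMaxMatch F Q M) :
    vs M ⊆ Q := by
  intro x hx
  obtain ⟨e, he, hxe⟩ := mem_vs_iff.1 hx
  have he' := h.sub he
  induction e using Sym2.ind with
  | _ u v =>
    have := mem_eIn_pair.1 he'
    have hx' : x = u ∨ x = v := by simpa using hxe
    rcases hx' with rfl | rfl
    · exact this.2.1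
    · exact this.2.2

/-- Every vertex of `vs M` has a neighbour in `vs M`. -/
lemma IsMaxMatch.one_le_nbIn {Q : Finset α} {M : Finset (Sym2 α)} (h : IsMaxMatch F Q M) {y : α}
    (hy : y ∈ vs M) : 1 ≤ nbIn F (vs M) y := by
  obtain ⟨e, he, hye⟩ := mem_vs_iff.1 hy
  have he' := h.sub he
  induction e using Sym2.ind with
  | _ u v =>
    have := mem_eIn_pair.1 he'
    have hy' : y = u ∨ y = v := by simpa using hye
    unfold nbIn
    refine Finset.card_pos.2 ?_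
    rcases hy' with rfl | rfl
    · exact ⟨v, Finset.mem_filter.2 ⟨mem_vs_iff.2 ⟨_, he, by simp⟩, this.1⟩⟩
    · exact ⟨u, Finset.mem_filter.2 ⟨mem_vs_iff.2 ⟨_, he, by simp⟩, this.1.symm⟩⟩

lemma nbIn_union {A B : Finset α} (h : Disjoint A B) (y : α) :
    nbIn F (A ∪ B) y = nbIn F A y + nbIn F B y := by
  unfold nbIn
  rw [Finset.filter_union, Finset.card_union_of_disjoint]
  exact Finset.disjoint_filter_filter h

/-- Double counting between two finsets. -/
lemma sum_nbIn_comm (A B : Finset α) : ∑ y ∈ A, nbIn F B y = ∑ y ∈ B, nbIn F A y := by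
  unfold nbIn
  simp only [Finset.card_filter]
  rw [Finset.sum_comm]
  refine Finset.sum_congr rfl fun x _ => Finset.sum_congr rfl fun y _ => ?_
  simp only [F.adj_comm]

/-- **MATCH**: the charge lemma. `W = Q₀ \ vs M`; the sum on the right is `i + (3/8) c + (5/8) o`,
where `i` = edges inside `Q₀`, `c` = edges from `Q₀` to `Pt`, `o` = edges from `Q₀` to the rest of
`K`. -/
theorem match_charge {K Q₀ Pt R : Finset α} {M : Finset (Sym2 α)}
    (hQ₀ : Q₀ ⊆ K) (hPt : Pt ⊆ K \ Q₀)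
    (hdeg : ∀ y ∈ Q₀, 2 ≤ nbIn F K y) (hin : ∀ y ∈ Q₀, y ∉ R → 1 ≤ nbIn F Q₀ y)
    (hM : IsMaxMatch F Q₀ M) :
    (5 / 4 : ℝ) * ((M.card : ℝ) + ((Q₀ \ vs M).card : ℝ)) ≤
      ∑ y ∈ Q₀, ((nbIn F Q₀ y : ℝ) / 2 + 3 / 8 * (nbIn F Pt y : ℝ) + 5 / 8 * (nbIn F ((K \ Q₀) \ Pt) y : ℝ))
        + 1 / 2 * ((R ∩ (Q₀ \ vs M)).card : ℝ) := by
  set A := vs M with hA
  set W := Q₀ \ A with hW
  set O := (K \ Q₀) \ Pt with hO
  have hAsub : A ⊆ Q₀ := hM.vs_subset
  have hAW : Disjoint A W := Finset.disjoint_sdiff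
  have hQ₀eq : Q₀ = A ∪ W := (Finset.union_sdiff_of_subset hAsub).symm
  -- `nbIn` decompositions
  have hnbQ : ∀ y, nbIn F Q₀ y = nbIn F A y + nbIn F W y := fun y => by
    rw [hQ₀eq]
    exact nbIn_union hAW y
  have hdisjPt : Disjoint Pt O := Finset.disjoint_sdiff
  have hdisjQP : Disjoint Q₀ (Pt ∪ O) := by
    rw [Finset.disjoint_left]
    intro x hx hx'
    rcases Finset.mem_union.1 hx' with h | h
    · exact (Finset.mem_sdiff.1 (hPt h)).2 hx
    · exact (Finset.mem_sdiff.1 (Finset.mem_sdiff.1 h).1).2 hx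
  have hKeq : K = Q₀ ∪ (Pt ∪ O) := by
    ext x
    simp only [Finset.mem_union, hO, Finset.mem_sdiff]
    constructor
    · intro hx
      by_cases h1 : x ∈ Q₀
      · exact Or.inl h1
      · by_cases h2 : x ∈ Pt
        · exact Or.inr (Or.inl h2)
        · exact Or.inr (Or.inr ⟨⟨hx, h1⟩, h2⟩)
    · rintro (h | h | h)
      · exact hQ₀ h
      · exact (Finset.mem_sdiff.1 (hPt h)).1
      · exact h.1.1
  have hnbK : ∀ y, nbIn F K y = nbIn F A y + nbIn F W y + nbIn F Pt y + nbIn F O y := fun y => by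
    rw [hKeq, nbIn_union hdisjQP, nbIn_union hdisjPt, hnbQ]
    ring
  -- `W` is independent
  have hW0 : ∀ w ∈ W, nbIn F W w = 0 := by
    intro w hw
    unfold nbIn
    rw [Finset.card_eq_zero, Finset.filter_eq_empty_iff]
    intro v hv
    exact hM.indep w hw v hv
  -- the double count
  have hcomm : ∑ y ∈ A, (nbIn F W y : ℝ) = ∑ y ∈ W, (nbIn F A y : ℝ) := by
    exact_mod_cast sum_nbIn_comm A W
  -- rewrite the right side
  set f : α → ℝ := fun y => 3 / 8 * (nbIn F Pt y : ℝ) + 5 / 8 * (nbIn F O y : ℝ) with hf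
  have hsum : ∑ y ∈ Q₀, ((nbIn F Q₀ y : ℝ) / 2 + 3 / 8 * (nbIn F Pt y : ℝ) + 5 / 8 * (nbIn F O y : ℝ))
      = ∑ y ∈ A, (1 / 8 * (nbIn F W y : ℝ) + (nbIn F A y : ℝ) / 2 + f y)
        + ∑ y ∈ W, (7 / 8 * (nbIn F A y : ℝ) + f y) := by
    rw [hQ₀eq, Finset.sum_union hAW]
    have h1 : ∑ y ∈ A, ((nbIn F (A ∪ W) y : ℝ) / 2 + 3 / 8 * (nbIn F Pt y : ℝ) + 5 / 8 * (nbIn F O y : ℝ))
        = ∑ y ∈ A, (1 / 8 * (nbIn F W y : ℝ) + (nbIn F A y : ℝ) / 2 + f y)
          + 3 / 8 * ∑ y ∈ A, (nbIn F W y : ℝ) := by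
      rw [Finset.mul_sum, ← Finset.sum_add_distrib]
      refine Finset.sum_congr rfl fun y _ => ?_
      rw [← hQ₀eq, hnbQ y]
      push_cast
      simp only [hf]
      ring
    have h2 : ∑ y ∈ W, ((nbIn F (A ∪ W) y : ℝ) / 2 + 3 / 8 * (nbIn F Pt y : ℝ) + 5 / 8 * (nbIn F O y : ℝ))
        = ∑ y ∈ W, (7 / 8 * (nbIn F A y : ℝ) + f y) - 3 / 8 * ∑ y ∈ W, (nbIn F A y : ℝ) := by
      rw [Finset.mul_sum, ← Finset.sum_sub_distrib]
      refine Finset.sum_congr rfl fun y hy => ?_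
      rw [← hQ₀eq, hnbQ y, hW0 y hy]
      push_cast
      simp only [hf]
      ring
    rw [h1, h2, hcomm]
    ring
  -- per vertex bounds
  have hAlow : ∀ y ∈ A, (5 / 8 : ℝ) ≤ 1 / 8 * (nbIn F W y : ℝ) + (nbIn F A y : ℝ) / 2 + f y := by
    intro y hy
    have h1 : (1 : ℝ) ≤ nbIn F A y := by exact_mod_cast hM.one_le_nbIn hy
    have h2 : (2 : ℝ) ≤ (nbIn F A y : ℝ) + nbIn F W y + nbIn F Pt y + nbIn F O y := by
      have := hdeg y (hAsub hy)
      rw [hnbK] at this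
      exact_mod_cast this
    have h3 : (0 : ℝ) ≤ nbIn F Pt y := Nat.cast_nonneg _
    have h4 : (0 : ℝ) ≤ nbIn F O y := Nat.cast_nonneg _
    simp only [hf]
    linarith
  have hWlow : ∀ y ∈ W, (5 / 4 : ℝ) - 1 / 2 * (if y ∈ R then 1 else 0) ≤
      7 / 8 * (nbIn F A y : ℝ) + f y := by
    intro y hy
    have hyQ : y ∈ Q₀ := (Finset.mem_sdiff.1 hy).1
    have h0 := hW0 y hy
    have h2 : (2 : ℝ) ≤ (nbIn F A y : ℝ) + nbIn F Pt y + nbIn F O y := by
      have := hdeg y hyQ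
      rw [hnbK, h0] at this
      have h' : 2 ≤ nbIn F A y + nbIn F Pt y + nbIn F O y := by omega
      exact_mod_cast h'
    have h3 : (0 : ℝ) ≤ nbIn F Pt y := Nat.cast_nonneg _
    have h4 : (0 : ℝ) ≤ nbIn F O y := Nat.cast_nonneg _
    simp only [hf]
    by_cases hyR : y ∈ R
    · rw [if_pos hyR]
      have h5 : (0 : ℝ) ≤ nbIn F A y := Nat.cast_nonneg _
      linarith
    · rw [if_neg hyR]
      have h5 : 1 ≤ nbIn F Q₀ y := hin y hyQ hyR
      rw [hnbQ, h0] at h5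
      have h6 : (1 : ℝ) ≤ nbIn F A y := by exact_mod_cast (by omega : 1 ≤ nbIn F A y)
      linarith
  have hAsum : (5 / 8 : ℝ) * (A.card : ℝ) ≤
      ∑ y ∈ A, (1 / 8 * (nbIn F W y : ℝ) + (nbIn F A y : ℝ) / 2 + f y) := by
    have := Finset.sum_le_sum hAlow
    simpa [Finset.sum_const, nsmul_eq_mul, mul_comm] using this
  have hWsum : (5 / 4 : ℝ) * (W.card : ℝ) - 1 / 2 * ((R ∩ W).card : ℝ) ≤
      ∑ y ∈ W, (7 / 8 * (nbIn F A y : ℝ) + f y) := by
    have h := Finset.sum_le_sum hWlow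
    have h1 : ∑ y ∈ W, ((5 / 4 : ℝ) - 1 / 2 * (if y ∈ R then 1 else 0))
        = (5 / 4 : ℝ) * (W.card : ℝ) - 1 / 2 * ((R ∩ W).card : ℝ) := by
      rw [Finset.sum_sub_distrib, ← Finset.mul_sum, Finset.sum_const, nsmul_eq_mul]
      have h2 : ∑ y ∈ W, (if y ∈ R then (1 : ℝ) else 0) = ((R ∩ W).card : ℝ) := by
        rw [Finset.sum_ite_mem, Finset.sum_const, nsmul_eq_mul, mul_one, Finset.inter_comm]
      rw [h2]
      ring
    rw [h1] at h
    exact h
  have hcardA : (A.card : ℝ) = 2 * (M.card : ℝ) := by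
    have := hM.card_vs
    rw [← hA] at this
    rw [this]
    push_cast
    ring
  rw [hsum]
  rw [hcardA] at hAsum
  linarith

/-- **Corollary**: the matching bound with no points and no roots: `g ≤ (4/5) om(Q)`. -/
theorem match_om {K Q : Finset α} {M : Finset (Sym2 α)} (hQ : Q ⊆ K)
    (hdeg : ∀ y ∈ Q, 2 ≤ nbIn F K y) (hM : IsMaxMatch F Q M) :
    ((M.card : ℝ) + ((Q \ vs M).card : ℝ)) ≤ 4 / 5 * om F K Q := by
  have hPt : (∅ : Finset α) ⊆ K \ Q := Finset.empty_subset _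
  -- here a `W`-vertex without inner edge has two outer edges: take `R = ∅` after a direct argument
  set A := vs M with hA
  set W := Q \ A with hW
  have hAsub : A ⊆ Q := hM.vs_subset
  have hAW : Disjoint A W := Finset.disjoint_sdiff
  have hQeq : Q = A ∪ W := (Finset.union_sdiff_of_subset hAsub).symm
  have hnbQ : ∀ y, nbIn F Q y = nbIn F A y + nbIn F W y := fun y => by
    rw [hQeq]
    exact nbIn_union hAW y
  have hKeq : K = Q ∪ (K \ Q) := (Finset.union_sdiff_of_subset hQ).symm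
  have hnbK : ∀ y, nbIn F K y = nbIn F A y + nbIn F W y + nbIn F (K \ Q) y := fun y => by
    conv_lhs => rw [hKeq]
    rw [nbIn_union Finset.disjoint_sdiff, hnbQ]
  have hW0 : ∀ w ∈ W, nbIn F W w = 0 := by
    intro w hw
    unfold nbIn
    rw [Finset.card_eq_zero, Finset.filter_eq_empty_iff]
    intro v hv
    exact hM.indep w hw v hv
  have hcomm : ∑ y ∈ A, (nbIn F W y : ℝ) = ∑ y ∈ W, (nbIn F A y : ℝ) := by
    exact_mod_cast sum_nbIn_comm A W
  have hsum : om F K Q = ∑ y ∈ A, (1 / 8 * (nbIn F W y : ℝ) + (nbIn F A y : ℝ) / 2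
        + 5 / 8 * (nbIn F (K \ Q) y : ℝ))
      + ∑ y ∈ W, (7 / 8 * (nbIn F A y : ℝ) + 5 / 8 * (nbIn F (K \ Q) y : ℝ)) := by
    unfold om
    have h0 : ∑ y ∈ Q, ((nbIn F Q y : ℝ) / 2 + 5 / 8 * (nbIn F (K \ Q) y : ℝ))
        = ∑ y ∈ A, ((nbIn F Q y : ℝ) / 2 + 5 / 8 * (nbIn F (K \ Q) y : ℝ))
          + ∑ y ∈ W, ((nbIn F Q y : ℝ) / 2 + 5 / 8 * (nbIn F (K \ Q) y : ℝ)) := by
      rw [← Finset.sum_union hAW, ← hQeq]
    have h1 : ∑ y ∈ A, ((nbIn F Q y : ℝ) / 2 + 5 / 8 * (nbIn F (K \ Q) y : ℝ))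
        = ∑ y ∈ A, (1 / 8 * (nbIn F W y : ℝ) + (nbIn F A y : ℝ) / 2 + 5 / 8 * (nbIn F (K \ Q) y : ℝ))
          + 3 / 8 * ∑ y ∈ A, (nbIn F W y : ℝ) := by
      rw [Finset.mul_sum, ← Finset.sum_add_distrib]
      refine Finset.sum_congr rfl fun y _ => ?_
      rw [hnbQ y]
      push_cast
      ring
    have h2 : ∑ y ∈ W, ((nbIn F Q y : ℝ) / 2 + 5 / 8 * (nbIn F (K \ Q) y : ℝ))
        = ∑ y ∈ W, (7 / 8 * (nbIn F A y : ℝ) + 5 / 8 * (nbIn F (K \ Q) y : ℝ))
          - 3 / 8 * ∑ y ∈ W, (nbIn F A y : ℝ) := by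
      rw [Finset.mul_sum, ← Finset.sum_sub_distrib]
      refine Finset.sum_congr rfl fun y hy => ?_
      rw [hnbQ y, hW0 y hy]
      push_cast
      ring
    rw [h0, h1, h2, hcomm]
    ring
  have hAlow : ∀ y ∈ A, (5 / 8 : ℝ) ≤ 1 / 8 * (nbIn F W y : ℝ) + (nbIn F A y : ℝ) / 2
      + 5 / 8 * (nbIn F (K \ Q) y : ℝ) := by
    intro y hy
    have h1 : (1 : ℝ) ≤ nbIn F A y := by exact_mod_cast hM.one_le_nbIn hy
    have h2 : (2 : ℝ) ≤ (nbIn F A y : ℝ) + nbIn F W y + nbIn F (K \ Q) y := by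
      have := hdeg y (hAsub hy)
      rw [hnbK] at this
      exact_mod_cast this
    have h4 : (0 : ℝ) ≤ nbIn F (K \ Q) y := Nat.cast_nonneg _
    linarith
  have hWlow : ∀ y ∈ W, (5 / 4 : ℝ) ≤ 7 / 8 * (nbIn F A y : ℝ) + 5 / 8 * (nbIn F (K \ Q) y : ℝ) := by
    intro y hy
    have hyQ : y ∈ Q := (Finset.mem_sdiff.1 hy).1
    have h0 := hW0 y hy
    have h2 : (2 : ℝ) ≤ (nbIn F A y : ℝ) + nbIn F (K \ Q) y := by
      have := hdeg y hyQ
      rw [hnbK, h0] at this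
      have h' : 2 ≤ nbIn F A y + nbIn F (K \ Q) y := by omega
      exact_mod_cast h'
    have h5 : (0 : ℝ) ≤ nbIn F A y := Nat.cast_nonneg _
    have h4 : (0 : ℝ) ≤ nbIn F (K \ Q) y := Nat.cast_nonneg _
    linarith
  have hAsum : (5 / 8 : ℝ) * (A.card : ℝ) ≤ ∑ y ∈ A, (1 / 8 * (nbIn F W y : ℝ) + (nbIn F A y : ℝ) / 2
        + 5 / 8 * (nbIn F (K \ Q) y : ℝ)) := by
    have := Finset.sum_le_sum hAlow
    simpa [Finset.sum_const, nsmul_eq_mul, mul_comm] using this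
  have hWsum : (5 / 4 : ℝ) * (W.card : ℝ) ≤
      ∑ y ∈ W, (7 / 8 * (nbIn F A y : ℝ) + 5 / 8 * (nbIn F (K \ Q) y : ℝ)) := by
    have := Finset.sum_le_sum hWlow
    simpa [Finset.sum_const, nsmul_eq_mul, mul_comm] using this
  have hcardA : (A.card : ℝ) = 2 * (M.card : ℝ) := by
    have := hM.card_vs
    rw [← hA] at this
    rw [this]
    push_cast
    ring
  rw [hsum]
  rw [hcardA] at hAsum
  linarith

end Vale.Agent.Lib.P064U
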