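import Vale.Agent.Lib.P064U.TFacts
import Vale.Agent.Lib.P064E.LevelStep
import Vale.Agent.Lib.P064E.Tree2

/-!
Part T: the weighted level bound.  `LevelB`: the number of restrictions is at most
`exp (b om(Q) + c e_Q)`.
-/

open Finset

namespace Vale.Agent.Lib.P064U

open Vale.Agent.Lib.P064 Vale.Agent.Lib.P064E
open scoped Classical

variable {V α : Type} [Fintype V] [Fintype α] {F : SimpleGraph α} {H : SimpleGraph V} {n : ℕ}
  {q l lam : ℝ} {K C : Finset α}

/-- All families of embeddings below `Q` have few restrictions to `Q`, for `Q ⊆ C` of size at most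
`s`: the weighted form. -/
def LevelB (F : SimpleGraph α) (H : SimpleGraph V) (l : ℝ) (K C : Finset α) (s : ℕ)
    (b c : ℝ) : Prop :=
  ∀ Q ⊆ C, Q.Nonempty → Q.card ≤ s →
    ∀ (S : Finset (α → V)) (U : Finset (Sym2 V)),
      (∀ φ ∈ S, IsEmb F H φ) →
      (∀ φ ∈ S, ∀ φ' ∈ S, ∀ x ∈ att F K Q, φ x = φ' x) →
      (∀ e ∈ U, e ∈ H.edgeSet) →
      (∀ φ ∈ S, tchIm F K Q φ ⊆ U) →
      (U.card : ℝ) ≤ 3 * ((tch F K Q).card : ℝ) * l →
      ((S.image (proj Q)).card : ℝ) ≤ Real.exp (b * om F K Q + c * ((tch F K Q).card : ℝ))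

/-- The scale of Part T. -/
noncomputable def scaleT (l : ℝ) : ℕ := 2 * ⌈Real.log (l + 1)⌉₊ + 10

/-- The base of Part T. -/
noncomputable def baseT (l : ℝ) : ℝ := 12 * l * (scaleT l : ℝ) ^ 2

/-- Restrictions through image sets: a fixed image set carries at most `|Q|^|Q|` maps. -/
lemma card_image_proj_le_sets (S : Finset (α → V)) (Q : Finset α)
    (hinj : ∀ f ∈ S, Set.InjOn f Q) :
    ((S.image (proj Q)).card : ℝ) ≤
      ((S.image (fun f => Q.image f)).card : ℝ) * (Q.card : ℝ) ^ Q.card := by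
  classical
  set I := S.image (fun f => Q.image f) with hI
  have hsub : S.image (proj Q) ⊆
      I.biUnion (fun W₀ => (S.filter (fun f => Q.image f = W₀)).image (proj Q)) := by
    intro ψ hψ
    obtain ⟨f, hf, rfl⟩ := Finset.mem_image.1 hψ
    refine Finset.mem_biUnion.2 ⟨Q.image f, Finset.mem_image_of_mem _ hf, ?_⟩
    exact Finset.mem_image_of_mem _ (Finset.mem_filter.2 ⟨hf, rfl⟩)
  have hfib : ∀ W₀ ∈ I,
      (((S.filter (fun f => Q.image f = W₀)).image (proj Q)).card : ℝ) ≤ (Q.card : ℝ) ^ Q.card := by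
    intro W₀ hW₀
    obtain ⟨f₀, hf₀, rfl⟩ := Finset.mem_image.1 hW₀
    have hcard : (Q.image f₀).card = Q.card := Finset.card_image_of_injOn (hinj f₀ hf₀)
    have h1 : ((S.filter (fun f => Q.image f = Q.image f₀)).image (proj Q)).card ≤
        (Q.pi (fun _ => Q.image f₀)).card := by
      refine card_image_le_of_factor _ (proj Q)
        (fun f => (fun x _ => f x : (x : α) → x ∈ Q → V)) _ ?_ ?_
      · intro f _ f' _ hb
        funext x
        unfold proj
        by_cases hx : x ∈ Q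
        · rw [if_pos hx, if_pos hx, congrFun (congrFun hb x) hx]
        · rw [if_neg hx, if_neg hx]
      · intro f hf
        refine Finset.mem_pi.2 fun x hx => ?_
        rw [← (Finset.mem_filter.1 hf).2]
        exact Finset.mem_image_of_mem _ hx
    rw [Finset.card_pi, Finset.prod_const, hcard] at h1
    exact_mod_cast h1
  have h3 : ((S.image (proj Q)).card : ℝ) ≤
      ∑ W₀ ∈ I, (((S.filter (fun f => Q.image f = W₀)).image (proj Q)).card : ℝ) := by
    have h4 := (Finset.card_le_card hsub).trans Finset.card_biUnion_le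
    exact_mod_cast h4
  have h5 := Finset.sum_le_sum hfib
  simp only [Finset.sum_const, nsmul_eq_mul] at h5
  exact h3.trans h5

/-- `|Q| = 2 |M| + |W|`. -/
lemma card_eq_match {Q : Finset α} {M : Finset (Sym2 α)} (hM : IsMaxMatch F Q M) :
    Q.card = 2 * M.card + (Q \ vs M).card := by
  rw [Finset.card_sdiff_of_subset hM.vs_subset, hM.card_vs]
  have := Finset.card_le_card hM.vs_subset
  rw [hM.card_vs] at this
  omega

/-- Members of `M` are mapped into `U`. -/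
lemma map_mem_of_match {Q : Finset α} {M : Finset (Sym2 α)} (hM : IsMaxMatch F Q M) (hQK : Q ⊆ K)
    {φ : α → V} {U : Finset (Sym2 V)} (hφ : tchIm F K Q φ ⊆ U) :
    ∀ e ∈ M, Sym2.map φ e ∈ U := by
  intro e he
  apply hφ
  refine Finset.mem_image.2 ⟨e, ?_, rfl⟩
  have he' := hM.sub he
  induction e using Sym2.ind with
  | _ u v =>
    obtain ⟨h1, h2, h3⟩ := mem_eIn_pair.1 he'
    exact (mem_tch_pair hQK).2 ⟨h1, hQK h2, hQK h3, Or.inl h2⟩

/-- The base of the recursion. -/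
theorem level_baseB (hs : Std n q l lam) (hb : MinBlock F l lam K C) (h2 : 2 ≤ C.card)
    (s : ℕ) (hs1 : 1 ≤ s) {B : ℝ} (hB : 12 * l * (s : ℝ) ^ 2 ≤ B) :
    LevelB F H l K C s (4 / 5 * Real.log B) 1 := by
  intro Q hQC hQne hQs S U hemb hag hUH hSU hUcard
  have hl1 := hs.l1
  have hl0 : 0 < l := by linarith
  have hs1' : (1 : ℝ) ≤ s := by exact_mod_cast hs1
  have hB1 : 1 ≤ B := by nlinarith
  have hB0 : 0 < B := by linarith
  have hlogB : 0 ≤ Real.log B := Real.log_nonneg hB1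
  have hQK : Q ⊆ K := hQC.trans hb.sub
  obtain ⟨e, he⟩ : ∃ e : ℝ, e = ((tch F K Q).card : ℝ) := ⟨_, rfl⟩
  have he0 : 0 ≤ e := by rw [he]; exact Nat.cast_nonneg _
  obtain ⟨M, hM⟩ := exists_maxMatch F Q
  obtain ⟨g, hg⟩ : ∃ g : ℕ, g = M.card + (Q \ vs M).card := ⟨_, rfl⟩
  have hinjS : ∀ φ ∈ S, Function.Injective φ := fun φ hφ => (hemb φ hφ).1
  have hUm : ∀ φ ∈ S, ∀ e ∈ M, Sym2.map φ e ∈ U := fun φ hφ =>
    map_mem_of_match hM hQK (hSU φ hφ)
  have hWv : ∀ φ ∈ S, ∀ w ∈ Q \ vs M, φ w ∈ vs U := by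
    intro φ hφ w hw
    have hwQ := (Finset.mem_sdiff.1 hw).1
    obtain ⟨y, hy, hxy⟩ := hb.exists_inner h2 (hQC hwQ)
    have h3 : s(φ w, φ y) ∈ U := by
      apply hSU φ hφ
      exact Finset.mem_image.2 ⟨s(w, y), (mem_tch_pair hQK).2 ⟨hxy, hQK hwQ, hb.sub hy, Or.inl hwQ⟩, rfl⟩
    exact Finset.mem_biUnion.2 ⟨_, h3, by simp⟩
  have hsets := card_image_sets_le_exp hM S U he0 hl0.le hinjS hUm hWv (by rw [he]; exact hUcard)
  have hrest := card_image_proj_le_sets S Q (fun f hf => (hinjS f hf).injOn)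
  have hcardQ := card_eq_match hM
  have hQ2g : Q.card ≤ 2 * g := by omega
  have hpow : (Q.card : ℝ) ^ Q.card ≤ ((s : ℝ) ^ 2) ^ g := by
    calc (Q.card : ℝ) ^ Q.card ≤ (s : ℝ) ^ Q.card :=
          pow_le_pow_left₀ (Nat.cast_nonneg _) (by exact_mod_cast hQs) _
      _ ≤ (s : ℝ) ^ (2 * g) := pow_le_pow_right₀ hs1' hQ2g
      _ = ((s : ℝ) ^ 2) ^ g := by rw [pow_mul]
  have hdeg : ∀ y ∈ Q, 2 ≤ nbIn F K y := fun y hy => two_le_nbIn hs hb h2 (hQC hy)
  have hgom : (g : ℝ) ≤ 4 / 5 * om F K Q := by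
    have := match_om hQK hdeg hM
    rw [hg]
    push_cast
    exact this
  rw [← hg] at hsets
  have hBg : (12 * l * (s : ℝ) ^ 2) ^ g ≤ B ^ g := pow_le_pow_left₀ (by positivity) hB g
  have hBexp : B ^ g ≤ Real.exp (4 / 5 * Real.log B * om F K Q) := by
    have h3 : B ^ g = Real.exp ((g : ℝ) * Real.log B) := by
      rw [Real.exp_nat_mul, Real.exp_log hB0]
    rw [h3]
    apply Real.exp_le_exp.2
    nlinarith
  have hmain : ((S.image (proj Q)).card : ℝ) ≤ B ^ g * Real.exp e := by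
    refine hrest.trans ?_
    calc ((S.image (fun f => Q.image f)).card : ℝ) * (Q.card : ℝ) ^ Q.card
        ≤ ((12 * l) ^ g * Real.exp e) * ((s : ℝ) ^ 2) ^ g :=
          mul_le_mul hsets hpow (by positivity) (by positivity)
      _ = (12 * l * (s : ℝ) ^ 2) ^ g * Real.exp e := by
          rw [mul_pow (12 * l)]
          ring
      _ ≤ B ^ g * Real.exp e := mul_le_mul_of_nonneg_right hBg (Real.exp_pos _).le
  refine hmain.trans ?_
  rw [Real.exp_add, ← he, one_mul]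
  exact mul_le_mul_of_nonneg_right hBexp (Real.exp_pos _).le

/-- The parts of a forest decomposition, added one at a time. -/
lemma parts_bound (hG : GoodDensity n q H) (hs : Std n q l lam) (hb : MinBlock F l lam K C)
    {s : ℕ} {b c : ℝ} (hlev : LevelB F H l K C s b c)
    {Q Q₀ Lf : Finset α} {p : α → α} {parts : Finset (Finset α)} (hQC : Q ⊆ C)
    (hQs : s < Q.card) (hd : TreeDec F Q s Q₀ Lf p parts)
    (S : Finset (α → V)) (hemb : ∀ φ ∈ S, IsEmb F H φ)
    (hag : ∀ φ ∈ S, ∀ φ' ∈ S, ∀ x ∈ att F K Q, φ x = φ' x) :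
    ((S.image (proj Q)).card : ℝ) ≤
      (∏ P ∈ parts, Real.exp (b * om F K P + c * ((tch F K P).card : ℝ))) *
        (S.image (proj Q₀)).card := by
  have hl0 : 0 < l := by linarith [hs.l1]
  have hQK : Q ⊆ K := hQC.trans hb.sub
  have hQ₀Q : Q₀ ⊆ Q := hd.sub
  have key : ∀ Pp : Finset (Finset α), Pp ⊆ parts →
      ((S.image (proj (Q₀ ∪ Pp.biUnion id))).card : ℝ) ≤
        (∏ P ∈ Pp, Real.exp (b * om F K P + c * ((tch F K P).card : ℝ))) *
          (S.image (proj Q₀)).card := by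
    intro Pp
    induction Pp using Finset.induction_on with
    | empty =>
      intro _
      simp
    | insert P Pp' hP ih =>
      intro hsub
      have hPparts : P ∈ parts := hsub (Finset.mem_insert_self _ _)
      have ih' := ih ((Finset.subset_insert _ _).trans hsub)
      obtain ⟨hPsub, hPne, hPcard⟩ := hd.parts_sub P hPparts
      have hPQ : P ⊆ Q := hPsub.trans Finset.sdiff_subset
      have hPK : P ⊆ K := hPQ.trans hQK
      have hPC' : P ⊆ C := hPQ.trans hQC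
      have hPneC : P ≠ C := by
        rintro rfl
        have := Finset.card_le_card hQC
        omega
      set D := Q₀ ∪ Pp'.biUnion id with hDdef
      have hD' : Q₀ ∪ (insert P Pp').biUnion id = D ∪ P := by
        ext x
        simp only [hDdef, Finset.mem_union, Finset.mem_biUnion, Finset.mem_insert, id]
        constructor
        · rintro (h | ⟨P', h1 | h1, h2⟩)
          · exact Or.inl (Or.inl h)
          · exact Or.inr (h1 ▸ h2)
          · exact Or.inl (Or.inr ⟨P', h1, h2⟩)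
        · rintro ((h | ⟨P', h1, h2⟩) | h)
          · exact Or.inl h
          · exact Or.inr ⟨P', Or.inr h1, h2⟩
          · exact Or.inr ⟨P, Or.inl rfl, h⟩
      rw [hD', Finset.prod_insert hP]
      have hBP : 0 ≤ Real.exp (b * om F K P + c * ((tch F K P).card : ℝ)) := (Real.exp_pos _).le
      have hstep := card_image_proj_step_real S (Finset.subset_union_left : D ⊆ D ∪ P) hBP ?_
      · calc ((S.image (proj (D ∪ P))).card : ℝ)
            ≤ Real.exp (b * om F K P + c * ((tch F K P).card : ℝ)) * (S.image (proj D)).card := hstep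
          _ ≤ Real.exp (b * om F K P + c * ((tch F K P).card : ℝ)) *
              ((∏ P ∈ Pp', Real.exp (b * om F K P + c * ((tch F K P).card : ℝ))) *
                (S.image (proj Q₀)).card) := mul_le_mul_of_nonneg_left ih' hBP
          _ = _ := by ring
      · intro φ₀ hφ₀
        set fib := S.filter (fun φ => proj D φ = proj D φ₀) with hfib
        have hfibS : fib ⊆ S := Finset.filter_subset _ _
        have hfibD : ∀ φ ∈ fib, ∀ x ∈ D, φ x = φ₀ x := fun φ hφ x hx =>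
          proj_eq_apply hx (Finset.mem_filter.1 hφ).2
        have hagD : ∀ φ ∈ fib, ∀ φ' ∈ fib, ∀ x ∈ D, φ x = φ' x := fun φ hφ φ' hφ' x hx => by
          rw [hfibD φ hφ x hx, hfibD φ' hφ' x hx]
        have h1 := card_image_proj_union_le (P := P) fib hagD
        have hembf : ∀ φ ∈ fib, IsEmb F H φ := fun φ hφ => hemb φ (hfibS hφ)
        have hagatt : ∀ φ ∈ fib, ∀ φ' ∈ fib, ∀ x ∈ att F K P, φ x = φ' x := by
          intro φ hφ φ' hφ' x hx
          obtain ⟨hxK, hxP, c', hc', hadj⟩ := mem_att.1 hx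
          by_cases hxQ : x ∈ Q
          · by_cases hxQ₀ : x ∈ Q₀
            · exact hagD φ hφ φ' hφ' x (Finset.mem_union_left _ hxQ₀)
            · exfalso
              obtain ⟨P', hP', hxP'⟩ := hd.parts_cover x (Finset.mem_sdiff.2 ⟨hxQ, hxQ₀⟩)
              by_cases hPP' : P = P'
              · exact hxP (hPP' ▸ hxP')
              · exact hd.parts_nonadj P hPparts P' hP' hPP' c' hc' x hxP' hadj
          · refine hag φ (hfibS hφ) φ' (hfibS hφ') x ?_
            exact mem_att.2 ⟨hxK, hxQ, c', hPQ hc', hadj⟩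
        have hU' : ∀ e ∈ fib.biUnion (tchIm F K P), e ∈ H.edgeSet := fun e he =>
          union_edges fib hembf hPK ∅ (by simp) e (by simpa using he)
        have hcard := local_union hG hs hb hPC' hPne hPneC fib hembf hagatt
        have hcard3 : ((fib.biUnion (tchIm F K P)).card : ℝ) ≤
            3 * ((tch F K P).card : ℝ) * l := by
          have h3 : (0 : ℝ) ≤ ((tch F K P).card : ℝ) * l := by positivity
          linarith
        have h2 := hlev P hPC' hPne hPcard fib (fib.biUnion (tchIm F K P)) hembf hagatt hU'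
          (fun φ hφ => Finset.subset_biUnion_of_mem (tchIm F K P) hφ) hcard3
        exact le_trans (by exact_mod_cast h1) h2
  have hQeq : Q₀ ∪ parts.biUnion id = Q := by
    ext x
    simp only [Finset.mem_union, Finset.mem_biUnion, id]
    constructor
    · rintro (h | ⟨P, hP, hx⟩)
      · exact hQ₀Q h
      · exact Finset.sdiff_subset ((hd.parts_sub P hP).1 hx)
    · intro hx
      by_cases hx0 : x ∈ Q₀
      · exact Or.inl hx0
      · exact Or.inr (hd.parts_cover x (Finset.mem_sdiff.2 ⟨hx, hx0⟩))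
  have hmain := key parts (Finset.Subset.refl _)
  rw [hQeq] at hmain
  exact hmain

/-- The bound on the sum of the matching: `g ≤ (4/5) Ω₀ + (2/5) |Lf|`. -/
lemma match_forest_le (hs : Std n q l lam) (hb : MinBlock F l lam K C) (h2 : 2 ≤ C.card)
    {s : ℕ} {Q Q₀ Lf : Finset α} {p : α → α} {parts : Finset (Finset α)} (hQC : Q ⊆ C)
    (hd : TreeDec F Q s Q₀ Lf p parts) {M : Finset (Sym2 α)} (hM : IsMaxMatch F Q₀ M) :
    ((M.card : ℝ) + ((Q₀ \ vs M).card : ℝ)) ≤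
      4 / 5 * (∑ y ∈ Q₀, ((nbIn F Q₀ y : ℝ) / 2 + 3 / 8 * (nbIn F (Q \ Q₀) y : ℝ)
        + 5 / 8 * (nbIn F ((K \ Q₀) \ (Q \ Q₀)) y : ℝ))) + 2 / 5 * (Lf.card : ℝ) := by
  have hQK : Q ⊆ K := hQC.trans hb.sub
  have hQ₀Q : Q₀ ⊆ Q := hd.sub
  have hclosed : ∀ x ∈ Q₀, p x ∈ Q₀ := by
    intro x hx
    rcases hd.padj x hx with h | h
    · rw [h]
      exact hx
    · exact h.1
  have hmatch := match_charge (F := F) (K := K) (Q₀ := Q₀) (Pt := Q \ Q₀)
    (R := Q₀.filter (fun x => p x = x)) (M := M) (hQ₀Q.trans hQK)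
    (Finset.sdiff_subset_sdiff hQK (le_refl _))
    (fun y hy => two_le_nbIn hs hb h2 (hQC (hQ₀Q hy)))
    (by
      intro y hy hyR
      have hne : p y ≠ y := fun h => hyR (Finset.mem_filter.2 ⟨hy, h⟩)
      rcases hd.padj y hy with h | h
      · exact absurd h hne
      · unfold nbIn
        exact Finset.card_pos.2 ⟨p y, Finset.mem_filter.2 ⟨h.1, h.2⟩⟩)
    hM
  have hR : (((Q₀.filter (fun x => p x = x)) ∩ (Q₀ \ vs M)).card : ℝ) ≤ Lf.card := by
    have h3 := Finset.card_le_card (Finset.inter_subset_left (s₁ := Q₀.filter (fun x => p x = x))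
      (s₂ := Q₀ \ vs M))
    have h4 := roots_card_le hclosed hd.reach hd.lf_sub
    exact_mod_cast h3.trans h4
  linarith

/-- The number of restrictions to `Q₀`. -/
lemma q0_count (hG : GoodDensity n q H) (hs : Std n q l lam) (hb : MinBlock F l lam K C)
    (h2 : 2 ≤ C.card) {s s' : ℕ} (hss : Real.log s' ≤ s) {B : ℝ}
    (hB : 12 * l ≤ B) (hBs : Real.log B ≤ s) {Q Q₀ Lf : Finset α} {p : α → α}
    {parts : Finset (Finset α)} (hQC : Q ⊆ C) (hQne : Q.Nonempty) (hQs' : Q.card ≤ s')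
    (hd : TreeDec F Q s Q₀ Lf p parts)
    (S : Finset (α → V)) (U : Finset (Sym2 V))
    (hemb : ∀ φ ∈ S, IsEmb F H φ) (hUH : ∀ e ∈ U, e ∈ H.edgeSet)
    (hSU : ∀ φ ∈ S, tchIm F K Q φ ⊆ U)
    (hUcard : (U.card : ℝ) ≤ 3 * ((tch F K Q).card : ℝ) * l) :
    ((S.image (proj Q₀)).card : ℝ) ≤ Real.exp (4 / 5 * Real.log B *
      (∑ y ∈ Q₀, ((nbIn F Q₀ y : ℝ) / 2 + 3 / 8 * (nbIn F (Q \ Q₀) y : ℝ)
        + 5 / 8 * (nbIn F ((K \ Q₀) \ (Q \ Q₀)) y : ℝ))) + 9 * ((tch F K Q).card : ℝ)) := by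
  have hl1 := hs.l1
  have hl0 : 0 < l := by linarith
  have hB0 : 0 < B := by linarith
  have hB1 : 1 ≤ B := by linarith
  have hlogB : 0 ≤ Real.log B := Real.log_nonneg hB1
  have hQK : Q ⊆ K := hQC.trans hb.sub
  obtain ⟨e, he⟩ : ∃ e : ℝ, e = ((tch F K Q).card : ℝ) := ⟨_, rfl⟩
  have he0 : 0 ≤ e := by rw [he]; exact Nat.cast_nonneg _
  have hk1 : 1 ≤ Q.card := Finset.card_pos.2 hQne
  have hke : (Q.card : ℝ) ≤ 2 * e := by
    rw [he]
    exact hb.card_le h2 hQC hl1 hs.lam_le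
  have hkl : (Q.card : ℝ) * l ≤ 2 * e * (lam - 1) := by
    rw [he]
    exact hb.card_mul_le h2 hQC
  have hQ₀Q : Q₀ ⊆ Q := hd.sub
  have ht : Q₀.card ≤ Q.card := Finset.card_le_card hQ₀Q
  have hclosed : ∀ x ∈ Q₀, p x ∈ Q₀ := by
    intro x hx
    rcases hd.padj x hx with h | h
    · rw [h]
      exact hx
    · exact h.1
  have hinjS : ∀ f ∈ S, Function.Injective f := fun f hf => (hemb f hf).1
  have hinj : ∀ f ∈ S, Set.InjOn f Q₀ := fun f hf => (hinjS f hf).injOn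
  have hedgeQ : ∀ f ∈ S, ∀ x y, x ∈ Q → y ∈ K → F.Adj x y → s(f x, f y) ∈ U := by
    intro f hf x y hx hy hxy
    apply hSU f hf
    exact Finset.mem_image.2 ⟨s(x, y), (mem_tch_pair hQK).2 ⟨hxy, hQK hx, hy, Or.inl hx⟩, rfl⟩
  have hvs : ∀ f ∈ S, ∀ x ∈ Q₀, f x ∈ vs U := by
    intro f hf x hx
    obtain ⟨y, hy, hxy⟩ := hb.exists_inner h2 (hQC (hQ₀Q hx))
    have h3 := hedgeQ f hf x y (hQ₀Q hx) (hb.sub hy) hxy
    exact Finset.mem_biUnion.2 ⟨_, h3, by simp⟩
  have hedge : ∀ f ∈ S, ∀ x ∈ Q₀, p x ≠ x → s(f x, f (p x)) ∈ U := by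
    intro f hf x hx hne
    rcases hd.padj x hx with h | h
    · exact absurd h hne
    · exact hedgeQ f hf x (p x) (hQ₀Q hx) (hQK (hQ₀Q h.1)) h.2
  have hfor := forest_restrictions_sets hG hs hclosed hd.lf_sub hd.reach U hUH S hinj hedge
  -- the matching
  obtain ⟨M, hM⟩ := exists_maxMatch F Q₀
  obtain ⟨g, hg⟩ : ∃ g : ℕ, g = M.card + (Q₀ \ vs M).card := ⟨_, rfl⟩
  have hUm : ∀ φ ∈ S, ∀ e ∈ M, Sym2.map φ e ∈ U := by
    intro φ hφ e he'
    have he2 := hM.sub he'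
    induction e using Sym2.ind with
    | _ u v =>
      obtain ⟨h1, h3, h4⟩ := mem_eIn_pair.1 he2
      exact hedgeQ φ hφ u v (hQ₀Q h3) (hQK (hQ₀Q h4)) h1
  have hWv : ∀ φ ∈ S, ∀ w ∈ Q₀ \ vs M, φ w ∈ vs U := fun φ hφ w hw =>
    hvs φ hφ w (Finset.mem_sdiff.1 hw).1
  have hsets := card_image_sets_le_exp hM S U he0 hl0.le hinjS hUm hWv (by rw [he]; exact hUcard)
  rw [← hg] at hsets
  have hgle0 := match_forest_le hs hb h2 hQC hd hM
  rw [← he]
  obtain ⟨Ω₀, hΩ₀⟩ : ∃ Ω₀ : ℝ, Ω₀ = ∑ y ∈ Q₀, ((nbIn F Q₀ y : ℝ) / 2 + 3 / 8 * (nbIn F (Q \ Q₀) y : ℝ)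
        + 5 / 8 * (nbIn F ((K \ Q₀) \ (Q \ Q₀)) y : ℝ)) := ⟨_, rfl⟩
  rw [← hΩ₀] at hgle0 ⊢
  have hgle : (g : ℝ) ≤ 4 / 5 * Ω₀ + 2 / 5 * (Lf.card : ℝ) := by
    have hgcast : (g : ℝ) = (M.card : ℝ) + ((Q₀ \ vs M).card : ℝ) := by
      rw [hg]
      push_cast
      ring
    rw [hgcast]
    exact hgle0
  -- the sources
  have hLs : (s : ℝ) * (Lf.card : ℝ) ≤ Q.card := by exact_mod_cast hd.lf_card
  have hLcard0 : (0 : ℝ) ≤ Lf.card := Nat.cast_nonneg _
  have hBg : B ^ g ≤ Real.exp (4 / 5 * Real.log B * Ω₀ + 2 * e) := by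
    have h3 : B ^ g = Real.exp ((g : ℝ) * Real.log B) := by
      rw [Real.exp_nat_mul, Real.exp_log hB0]
    rw [h3]
    apply Real.exp_le_exp.2
    have h4 : (g : ℝ) * Real.log B ≤ (4 / 5 * Ω₀ + 2 / 5 * (Lf.card : ℝ)) * Real.log B :=
      mul_le_mul_of_nonneg_right hgle hlogB
    have h5 : (Lf.card : ℝ) * Real.log B ≤ (Lf.card : ℝ) * s :=
      mul_le_mul_of_nonneg_left hBs hLcard0
    nlinarith
  have hL : s * Lf.card ≤ Q.card := hd.lf_card
  have hsrc := sources_bound (t := Q₀.card) ht hk1 hQs' hL hss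
  have hfx := forest_exp_bound hl0 hs.lam1 ht he0 hkl
  have hexpk : Real.exp (Q.card : ℝ) ≤ Real.exp (2 * e) := Real.exp_le_exp.2 hke
  have h12 : (12 * l) ^ g ≤ B ^ g := pow_le_pow_left₀ (by positivity) hB g
  refine hfor.trans ?_
  calc ((S.image (fun f => Q₀.image f)).card : ℝ) * (Q₀.card : ℝ) ^ Lf.card *
        Real.exp (2 * (Q₀.card : ℝ) * l / lam)
      ≤ ((12 * l) ^ g * Real.exp e) * Real.exp (2 * e) * Real.exp (4 * e) := by
        apply mul_le_mul _ hfx (Real.exp_pos _).le (by positivity)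
        exact mul_le_mul hsets (hsrc.trans hexpk) (by positivity) (by positivity)
    _ ≤ (Real.exp (4 / 5 * Real.log B * Ω₀ + 2 * e) * Real.exp e) * Real.exp (2 * e) *
          Real.exp (4 * e) := by
        gcongr
        exact h12.trans hBg
    _ = _ := by
        rw [← Real.exp_add, ← Real.exp_add, ← Real.exp_add]
        congr 1
        ring

/-- The recursion step: `Q` with `s < |Q| ≤ s'`, `log s' ≤ s`, `log B ≤ s`. -/
theorem level_stepB (hG : GoodDensity n q H) (hs : Std n q l lam) (hb : MinBlock F l lam K C)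
    (h2 : 2 ≤ C.card) {s s' : ℕ} (hs1 : 1 ≤ s) (hss : Real.log s' ≤ s) {B c : ℝ}
    (hB : 12 * l ≤ B) (hBs : Real.log B ≤ s) (hc : 0 ≤ c)
    (hlev : LevelB F H l K C s (4 / 5 * Real.log B) c) :
    LevelB F H l K C s' (4 / 5 * Real.log B) (c + 9) := by
  intro Q hQC hQne hQs' S U hemb hag hUH hSU hUcard
  have hl1 := hs.l1
  have hB1 : 1 ≤ B := by linarith
  have hlogB : 0 ≤ Real.log B := Real.log_nonneg hB1
  have hQK : Q ⊆ K := hQC.trans hb.sub
  obtain ⟨b, hbdef⟩ : ∃ b : ℝ, b = 4 / 5 * Real.log B := ⟨_, rfl⟩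
  rw [← hbdef] at hlev ⊢
  have hb0 : 0 ≤ b := by rw [hbdef]; positivity
  obtain ⟨e, he⟩ : ∃ e : ℝ, e = ((tch F K Q).card : ℝ) := ⟨_, rfl⟩
  have he0 : 0 ≤ e := by rw [he]; exact Nat.cast_nonneg _
  by_cases hQs : Q.card ≤ s
  · refine (hlev Q hQC hQne hQs S U hemb hag hUH hSU hUcard).trans ?_
    apply Real.exp_le_exp.2
    rw [← he]
    nlinarith
  push Not at hQs
  obtain ⟨Q₀, Lf, p, parts, hd⟩ := exists_treeDec F Q s hs1
  have hmain := parts_bound hG hs hb hlev hQC hQs hd S hemb hag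
  have hQ₀count := q0_count hG hs hb h2 hss hB hBs hQC hQne hQs' hd S U hemb hUH hSU hUcard
  rw [← hbdef, ← he] at hQ₀count
  have htchsum := sum_tch_parts_le (F := F) hQK (fun P hP => (hd.parts_sub P hP).1) hd.parts_disj
    hd.parts_nonadj
  have htchsum' : ∑ P ∈ parts, ((tch F K P).card : ℝ) ≤ e := by
    rw [he]
    exact_mod_cast htchsum
  have hdecomp := om_decomp (F := F) (K := K) hd.sub hQK (fun P hP => (hd.parts_sub P hP).1)
    hd.parts_cover hd.parts_disj hd.parts_nonadj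
  obtain ⟨Ω₀, hΩ₀⟩ : ∃ Ω₀ : ℝ, Ω₀ = ∑ y ∈ Q₀, ((nbIn F Q₀ y : ℝ) / 2 + 3 / 8 * (nbIn F (Q \ Q₀) y : ℝ)
        + 5 / 8 * (nbIn F ((K \ Q₀) \ (Q \ Q₀)) y : ℝ)) := ⟨_, rfl⟩
  rw [← hΩ₀] at hdecomp hQ₀count
  have hprod : (∏ P ∈ parts, Real.exp (b * om F K P + c * ((tch F K P).card : ℝ))) ≤
      Real.exp (b * ∑ P ∈ parts, om F K P + c * e) := by
    rw [← Real.exp_sum, Finset.sum_add_distrib, ← Finset.mul_sum, ← Finset.mul_sum]
    apply Real.exp_le_exp.2
    have : c * ∑ P ∈ parts, ((tch F K P).card : ℝ) ≤ c * e :=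
      mul_le_mul_of_nonneg_left htchsum' hc
    linarith
  refine hmain.trans ?_
  refine (mul_le_mul hprod hQ₀count (Nat.cast_nonneg _) (Real.exp_pos _).le).trans ?_
  rw [← Real.exp_add]
  apply Real.exp_le_exp.2
  rw [hdecomp, ← he]
  nlinarith

/-- `log (baseT l) ≤ scaleT l`. -/
lemma log_baseT_le {l : ℝ} (hl : 1 ≤ l) : Real.log (baseT l) ≤ scaleT l := by
  have hl0 : 0 < l := by linarith
  obtain ⟨x, hx⟩ : ∃ x : ℕ, x = ⌈Real.log (l + 1)⌉₊ := ⟨_, rfl⟩
  have hscale : scaleT l = 2 * x + 10 := by rw [hx]; rfl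
  have hs0 : (0 : ℝ) < (scaleT l : ℝ) := by rw [hscale]; positivity
  have hlogl : Real.log l ≤ x := by
    have h1 : Real.log l ≤ Real.log (l + 1) := Real.log_le_log hl0 (by linarith)
    have h2 : Real.log (l + 1) ≤ x := by
      rw [hx]
      exact Nat.le_ceil _
    linarith
  have he3 : (20 : ℝ) ≤ Real.exp 3 := by
    have h1 := Real.exp_one_gt_d9
    have h2 : Real.exp 3 = Real.exp 1 ^ 3 := by
      rw [← Real.exp_nat_mul]
      norm_num
    rw [h2]
    have h3 : (2.7182818283 : ℝ) ^ 3 ≤ Real.exp 1 ^ 3 := pow_le_pow_left₀ (by norm_num) h1.le 3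
    have h4 : (20 : ℝ) ≤ (2.7182818283 : ℝ) ^ 3 := by norm_num
    linarith
  have hlog12 : Real.log 12 ≤ 3 := by
    rw [Real.log_le_iff_le_exp (by norm_num)]
    linarith
  have hlog10 : Real.log 10 ≤ 3 := by
    rw [Real.log_le_iff_le_exp (by norm_num)]
    linarith
  have hlogs : Real.log (scaleT l : ℝ) ≤ 3 + (x : ℝ) / 5 := by
    have hx0 : (0 : ℝ) ≤ x := Nat.cast_nonneg _
    have h1 : (scaleT l : ℝ) = 10 * (1 + (x : ℝ) / 5) := by
      rw [hscale]
      push_cast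
      ring
    rw [h1, Real.log_mul (by norm_num) (by positivity)]
    have h2 : Real.log (1 + (x : ℝ) / 5) ≤ (x : ℝ) / 5 := by
      have := Real.log_le_sub_one_of_pos (show (0 : ℝ) < 1 + (x : ℝ) / 5 by positivity)
      linarith
    linarith
  have hx0 : (0 : ℝ) ≤ x := Nat.cast_nonneg _
  unfold baseT
  rw [Real.log_mul (by positivity) (by positivity), Real.log_mul (by norm_num) hl0.ne',
    Real.log_pow]
  rw [hscale] at hlogs ⊢
  push_cast at hlogs ⊢
  linarith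

/-- The final weighted level bound. -/
theorem level_topB (hG : GoodDensity n q H) (hs : Std n q l lam) (hb : MinBlock F l lam K C)
    (h2 : 2 ≤ C.card) :
    LevelB F H l K C n (4 / 5 * Real.log (baseT l)) 19 := by
  have hl1 := hs.l1
  have hl0 : 0 < l := by linarith
  obtain ⟨x, hx⟩ : ∃ x : ℕ, x = ⌈Real.log (l + 1)⌉₊ := ⟨_, rfl⟩
  have hscale : scaleT l = 2 * x + 10 := by rw [hx]; rfl
  have hs01 : 1 ≤ scaleT l := by omega
  have hs01' : (1 : ℝ) ≤ (scaleT l : ℝ) := by exact_mod_cast hs01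
  have hBge : 12 * l ≤ baseT l := by
    unfold baseT
    have : (1 : ℝ) ≤ (scaleT l : ℝ) ^ 2 := one_le_pow₀ hs01'
    nlinarith
  have hlogB := log_baseT_le hl1
  -- level 0
  have h0 : LevelB F H l K C (scaleT l) (4 / 5 * Real.log (baseT l)) 1 :=
    level_baseB hs hb h2 (scaleT l) hs01 (le_refl _)
  -- level 1
  obtain ⟨s₁, hs₁⟩ : ∃ s₁ : ℕ, s₁ = max (scaleT l) ⌈l⌉₊ := ⟨_, rfl⟩
  have hs₁ge : scaleT l ≤ s₁ := by rw [hs₁]; exact le_max_left _ _
  have hs₁ge' : ⌈l⌉₊ ≤ s₁ := by rw [hs₁]; exact le_max_right _ _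
  have hlogs₁ : Real.log s₁ ≤ scaleT l := by
    have hc1 : (⌈l⌉₊ : ℝ) ≤ l + 1 := (Nat.ceil_lt_add_one hl0.le).le
    have hcp : (0 : ℝ) < (⌈l⌉₊ : ℝ) := by
      have := Nat.le_ceil l
      linarith
    rcases le_total (scaleT l) ⌈l⌉₊ with h | h
    · rw [hs₁, max_eq_right h]
      have h3 : Real.log (⌈l⌉₊ : ℝ) ≤ Real.log (l + 1) := Real.log_le_log hcp hc1
      have h4 : Real.log (l + 1) ≤ x := by
        rw [hx]
        exact Nat.le_ceil _
      have h5 : (x : ℝ) ≤ scaleT l := by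
        rw [hscale]
        push_cast
        have : (0 : ℝ) ≤ x := Nat.cast_nonneg _
        linarith
      linarith
    · rw [hs₁, max_eq_left h]
      have := Real.log_le_sub_one_of_pos (show (0 : ℝ) < (scaleT l : ℝ) by linarith)
      linarith
  have h1 : LevelB F H l K C s₁ (4 / 5 * Real.log (baseT l)) (1 + 9) :=
    level_stepB hG hs hb h2 hs01 hlogs₁ hBge hlogB (by norm_num) h0
  -- level 2
  have hs₁1 : 1 ≤ s₁ := hs01.trans hs₁ge
  have hn : Real.log n ≤ s₁ := by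
    rw [← hs.l_eq]
    have h3 : l ≤ (⌈l⌉₊ : ℝ) := Nat.le_ceil l
    have h4 : (⌈l⌉₊ : ℝ) ≤ s₁ := by exact_mod_cast hs₁ge'
    linarith
  have hlogB' : Real.log (baseT l) ≤ s₁ := by
    have h4 : (scaleT l : ℝ) ≤ s₁ := by exact_mod_cast hs₁ge
    linarith
  have h3 := level_stepB hG hs hb h2 hs₁1 hn hBge hlogB' (by norm_num) h1
  have h4 : (1 : ℝ) + 9 + 9 = 19 := by norm_num
  rw [h4] at h3
  exact h3

end Vale.Agent.Lib.P064U
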