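import Vale.Agent.Lib.P064U.Final

/-!
The thresholds from the bound over minimal non-deficient up-sets.
-/

open Finset

namespace Vale.Agent.Lib.P064U

open Vale.Agent.Lib.P064 Vale.Agent.Lib.P064N

open scoped Classical

/-- The general form. -/
theorem up_thresholds :
    ∃ C : ℝ, 0 < C ∧ ∀ n : ℕ, 3 ≤ n → ∀ (V : Type) [Fintype V] (H : SimpleGraph V),
      Fintype.card V ≤ n → H ≠ ⊥ → 8 * pE n H * Real.sqrt n ≤ 1 → ∀ B : ℝ, Real.exp 1 ≤ B →
      pTilde n H ≤ C * ((pE n H + 1 / n) * (1 + Real.log (Real.log n)) * B *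
          (Real.log n) ^ ((7 / 3) * max 0 (Real.log n / Real.log (1 / pE n H) - 1)) +
          (Real.log n / Real.log B) / n) ∧
      pc n H ≤ C * Real.log n * ((pE n H + 1 / n) * (1 + Real.log (Real.log n)) * B *
          (Real.log n) ^ ((7 / 3) * max 0 (Real.log n / Real.log (1 / pE n H) - 1)) +
          (Real.log n / Real.log B) / n) := by
  refine ⟨512 * Real.exp 60 + Real.exp 100, by positivity, ?_⟩
  intro n hn V _ H hV hH hs B hB
  have hn2 : (3 : ℝ) ≤ n := by exact_mod_cast hn
  have hn0 : (0 : ℝ) < n := by linarith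
  have hn' : 2 ≤ n := by omega
  have hx1 : 1 ≤ Real.log n := by
    have h1 : Real.log (Real.exp 1) ≤ Real.log n :=
      Real.log_le_log (Real.exp_pos 1) (by have := Real.exp_one_lt_d9; linarith)
    rwa [Real.log_exp] at h1
  have hx : 0 < Real.log n := by linarith
  have hE0 := pE_pos hn' hV hH
  have hB1 : 1 ≤ B := (Real.one_le_exp (by norm_num)).trans hB
  have hlB : 1 ≤ Real.log B := by
    have := Real.log_le_log (Real.exp_pos 1) hB
    rwa [Real.log_exp] at this
  obtain ⟨Ee, hEe⟩ : ∃ Ee, Ee = max 0 (Real.log n / Real.log (1 / pE n H) - 1) := ⟨_, rfl⟩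
  rw [← hEe]
  have hEe0 : 0 ≤ Ee := by
    rw [hEe]
    exact le_max_left _ _
  have hy0 : 0 ≤ Real.log (Real.log n) := Real.log_nonneg hx1
  obtain ⟨S, hS⟩ : ∃ S, S = (pE n H + 1 / n) * (1 + Real.log (Real.log n)) * B *
      (Real.log n) ^ ((7 / 3) * Ee) + (Real.log n / Real.log B) / n := ⟨_, rfl⟩
  rw [← hS]
  have hpow1 : 1 ≤ (Real.log n) ^ ((7 / 3) * Ee) := Real.one_le_rpow hx1 (by positivity)
  have hS1 : 0 ≤ (Real.log n / Real.log B) / n := by positivity
  have hSn : 1 / (n : ℝ) ≤ S := by
    rw [hS]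
    have h1 : 1 / (n : ℝ) ≤ (pE n H + 1 / n) * (1 + Real.log (Real.log n)) * B *
      (Real.log n) ^ ((7 / 3) * Ee) := by
      have h2 : 1 / (n : ℝ) ≤ pE n H + 1 / n := by linarith
      have h3 : (1 : ℝ) ≤ (1 + Real.log (Real.log n)) * B * (Real.log n) ^ ((7 / 3) * Ee) := by
        calc (1 : ℝ) = 1 * 1 * 1 := by norm_num
          _ ≤ _ := by
              apply mul_le_mul _ hpow1 (by norm_num) (by positivity)
              apply mul_le_mul _ hB1 (by norm_num) (by positivity)
              linarith
      have h4 : 0 < 1 / (n : ℝ) := by positivity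
      calc 1 / (n : ℝ) = 1 / (n : ℝ) * 1 := by ring
        _ ≤ (pE n H + 1 / n) * ((1 + Real.log (Real.log n)) * B * (Real.log n) ^ ((7 / 3) * Ee)) :=
            mul_le_mul h2 h3 (by norm_num) (by positivity)
        _ = _ := by ring
    linarith
  have hS0 : 0 < S := lt_of_lt_of_le (by positivity) hSn
  have hexp0 : 0 < Real.exp 60 := Real.exp_pos _
  have hexp1 : 0 < Real.exp 100 := Real.exp_pos _
  by_cases hc : Real.log n < 100
  · -- small `n`
    have hnlt : (n : ℝ) < Real.exp 100 := by
      rw [← Real.exp_log hn0]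
      exact Real.exp_lt_exp.2 hc
    have h1 : (1 : ℝ) ≤ Real.exp 100 * (1 / n) := by
      rw [mul_one_div, le_div_iff₀ hn0]
      linarith
    have h2 : (1 : ℝ) ≤ Real.exp 100 * S := by
      have : Real.exp 100 * (1 / n) ≤ Real.exp 100 * S :=
        mul_le_mul_of_nonneg_left hSn (by positivity)
      linarith
    have h4 : 0 ≤ 512 * Real.exp 60 * S := by positivity
    constructor
    · have h3 := pTilde_le_one (n := n) (H := H) hV
      have : (512 * Real.exp 60 + Real.exp 100) * S = 512 * Real.exp 60 * S + Real.exp 100 * S := by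
        ring
      rw [this]
      linarith
    · have h3 := pc_le_one (n := n) (H := H) hV
      have h5 : (1 : ℝ) * 1 ≤ Real.log n * (Real.exp 100 * S) :=
        mul_le_mul hx1 h2 (by norm_num) (by linarith)
      have h6 : 0 ≤ Real.log n * (512 * Real.exp 60 * S) := by positivity
      have : (512 * Real.exp 60 + Real.exp 100) * Real.log n * S =
          Real.log n * (512 * Real.exp 60 * S) + Real.log n * (Real.exp 100 * S) := by
        ring
      rw [this]
      linarith
  · push Not at hc
    obtain ⟨Θ, hΘ0, hΘ, hΘle⟩ := up_core (H := H) hn' hV hH hc hs hB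
    rw [← hEe] at hΘle
    have hrpow : Real.exp ((7 / 3) * Ee * Real.log (Real.log n)) =
        (Real.log n) ^ ((7 / 3) * Ee) := by
      rw [Real.rpow_def_of_pos hx]
      congr 1
      ring
    rw [hrpow, ← hS] at hΘle
    have h1 := pTilde_le_of_embBound hV hΘ0 hΘ
    have h2 := pc_le_of_embBound hn' hV hH hΘ0 hΘ
    constructor
    · have h4 : 0 ≤ Real.exp 60 * S := by positivity
      have h5 : 0 ≤ Real.exp 100 * S := by positivity
      have : (512 * Real.exp 60 + Real.exp 100) * S = 512 * (Real.exp 60 * S) + Real.exp 100 * S := by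
        ring
      rw [this]
      linarith
    · have h3 : 512 * Real.log n * Θ ≤ 512 * Real.log n * (Real.exp 60 * S) :=
        mul_le_mul_of_nonneg_left hΘle (by positivity)
      have h4 : 0 ≤ Real.exp 100 * (Real.log n * S) := by positivity
      have : (512 * Real.exp 60 + Real.exp 100) * Real.log n * S =
          512 * Real.log n * (Real.exp 60 * S) + Real.exp 100 * (Real.log n * S) := by
        ring
      rw [this]
      linarith

end Vale.Agent.Lib.P064U
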