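import Vale.Agent.Lib.P064U.Walk
import Vale.Agent.Lib.P064.Peel

/-!
Minimal non-deficient up-sets.
-/

open Finset

namespace Vale.Agent.Lib.P064U

open Vale.Agent.Lib.P064 Vale.Agent.Lib.P064N

open scoped Classical

variable {V α : Type}

/-- `N` is an up-set of `W`: no arc enters it from the rest of `W`. -/
def Up (R : Finset (α × α)) (W N : Finset α) : Prop :=
  N ⊆ W ∧ ∀ u ∈ W, u ∉ N → ∀ v ∈ N, (u, v) ∉ R

/-- `N` is not deficient. -/
def ND [Fintype α] (F : SimpleGraph α) (ρ : ℝ) (W N : Finset α) : Prop :=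
  ((newE F (W \ N) N).card : ℝ) ≤ ρ * N.card

variable [Fintype α] {F : SimpleGraph α} {R : Finset (α × α)} {W N : Finset α} {ρ : ℝ}

/-- A minimal non-deficient up-set. -/
lemma exists_min_up (hne : W.Nonempty) (hW : ND F ρ W W) :
    ∃ N, N.Nonempty ∧ Up R W N ∧ ND F ρ W N ∧
      ∀ N' : Finset α, N'.Nonempty → N' ⊆ N → N' ≠ N → Up R W N' → ¬ ND F ρ W N' := by
  let 𝒞 := W.powerset.filter (fun N => N.Nonempty ∧ Up R W N ∧ ND F ρ W N)
  have h𝒞 : 𝒞.Nonempty := ⟨W, Finset.mem_filter.2 ⟨Finset.mem_powerset.2 (Finset.Subset.refl _), hne,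
    ⟨Finset.Subset.refl _, fun u hu hu' => absurd hu hu'⟩, hW⟩⟩
  obtain ⟨N, hN, hmin⟩ := Finset.exists_min_image 𝒞 Finset.card h𝒞
  obtain ⟨_, h2, h3, h4⟩ := Finset.mem_filter.1 hN
  refine ⟨N, h2, h3, h4, ?_⟩
  intro N' hN'ne hN'N hN'ne2 hUp hND
  have hmem : N' ∈ 𝒞 := Finset.mem_filter.2
    ⟨Finset.mem_powerset.2 hUp.1, hN'ne, hUp, hND⟩
  have h5 := hmin N' hmem
  have h6 := Finset.card_lt_card (hN'N.ssubset_of_ne hN'ne2)
  omega

/-- Every closed set around the start has a deficient complement. -/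
lemma deficient_of_min {x : α}
    (hmin : ∀ N' : Finset α, N'.Nonempty → N' ⊆ N → N' ≠ N → Up R W N' → ¬ ND F ρ W N')
    (hxN : x ∈ N) {A : Finset α} (hD : insert x (W \ N) ⊆ A) (hAW : A ⊆ W)
    (hCl : Cl R W A) (hA : A ≠ W) :
    ρ * ((W \ A).card : ℝ) < (newE F A (W \ A)).card := by
  have hsub : W \ A ⊆ N := by
    intro y hy
    obtain ⟨h1, h2⟩ := Finset.mem_sdiff.1 hy
    by_contra h3
    exact h2 (hD (Finset.mem_insert_of_mem (Finset.mem_sdiff.2 ⟨h1, h3⟩)))
  have hxA : x ∈ A := hD (Finset.mem_insert_self _ _)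
  have hne1 : (W \ A).Nonempty := by
    by_contra h1
    rw [Finset.not_nonempty_iff_eq_empty] at h1
    exact hA (Finset.Subset.antisymm hAW (Finset.sdiff_eq_empty_iff_subset.1 h1))
  have hne2 : W \ A ≠ N := by
    intro h1
    rw [← h1] at hxN
    exact (Finset.mem_sdiff.1 hxN).2 hxA
  have hUp' : Up R W (W \ A) := by
    refine ⟨Finset.sdiff_subset, ?_⟩
    intro u hu hu' v hv
    have huA : u ∈ A := by
      by_contra h1
      exact hu' (Finset.mem_sdiff.2 ⟨hu, h1⟩)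
    obtain ⟨h2, h3⟩ := Finset.mem_sdiff.1 hv
    exact hCl u huA v h2 h3
  have h1 := hmin _ hne1 hsub hne2 hUp'
  unfold ND at h1
  rw [Finset.sdiff_sdiff_eq_self hAW] at h1
  linarith

/-- A minimal non-deficient up-set is connected. -/
lemma min_up_conn (hRF : ∀ u v, (u, v) ∈ R → F.Adj u v) (hUp : Up R W N) (hND : ND F ρ W N)
    (hmin : ∀ N' : Finset α, N'.Nonempty → N' ⊆ N → N' ≠ N → Up R W N' → ¬ ND F ρ W N')
    {D : Finset α} (hDne : D.Nonempty) (hDN : D ⊆ N) (hne : D ≠ N) :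
    ∃ u ∈ D, ∃ v ∈ N \ D, F.Adj u v := by
  by_contra hcon
  push Not at hcon
  have hNW := hUp.1
  set E := W \ N with hE
  have hne2 : (N \ D).Nonempty := by
    by_contra h1
    rw [Finset.not_nonempty_iff_eq_empty] at h1
    exact hne (Finset.Subset.antisymm hDN (Finset.sdiff_eq_empty_iff_subset.1 h1))
  have hsub2 : N \ D ⊆ N := Finset.sdiff_subset
  have hne3 : N \ D ≠ N := by
    intro h1
    obtain ⟨y, hy⟩ := hDne
    have h2 : y ∈ N \ D := by
      rw [h1]
      exact hDN hy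
    exact (Finset.mem_sdiff.1 h2).2 hy
  have hUpD : Up R W D := by
    refine ⟨hDN.trans hNW, ?_⟩
    intro u hu hu' v hv huv
    by_cases huN : u ∈ N
    · exact hcon v hv u (Finset.mem_sdiff.2 ⟨huN, hu'⟩) (hRF u v huv).symm
    · exact hUp.2 u hu huN v (hDN hv) huv
  have hUpD2 : Up R W (N \ D) := by
    refine ⟨hsub2.trans hNW, ?_⟩
    intro u hu hu' v hv huv
    by_cases huN : u ∈ N
    · have huD : u ∈ D := by
        by_contra h1
        exact hu' (Finset.mem_sdiff.2 ⟨huN, h1⟩)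
      exact hcon u huD v hv (hRF u v huv)
    · exact hUp.2 u hu huN v (hsub2 hv) huv
  have h1 := hmin D hDne hDN hne hUpD
  have h2 := hmin (N \ D) hne2 hsub2 hne3 hUpD2
  unfold ND at h1 h2 hND
  push Not at h1 h2
  have hUN : D ∪ (N \ D) = N := Finset.union_sdiff_of_subset hDN
  have hsplit := newE_card_split (F := F) (W \ N) D (N \ D)
  rw [hUN] at hsplit
  have hEq : W \ (N \ D) = (W \ N) ∪ D := by
    ext y
    simp only [Finset.mem_sdiff, Finset.mem_union]
    constructor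
    · rintro ⟨h3, h4⟩
      by_cases h5 : y ∈ N
      · right
        by_contra h6
        exact h4 ⟨h5, h6⟩
      · exact Or.inl ⟨h3, h5⟩
    · rintro (⟨h3, h4⟩ | h3)
      · exact ⟨h3, fun h5 => h4 h5.1⟩
      · exact ⟨hNW (hDN h3), fun h5 => h5.2 h3⟩
  rw [hEq] at h2
  have hle : (newE F (W \ D) D).card ≤ (newE F (W \ N) D).card := by
    refine Finset.card_le_card ?_
    intro e he
    induction e using Sym2.ind with
    | _ u v =>
      obtain ⟨huv, h3, h4, h5⟩ := mem_newE_pair.1 he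
      -- one endpoint in `D`
      have hkey : u ∈ D ∨ v ∈ D := by
        by_contra h6
        push Not at h6
        exact h5 ⟨h3.resolve_right h6.1, h4.resolve_right h6.2⟩
      have hnot : ∀ a b : α, F.Adj a b → a ∈ D → b ∈ W \ D → b ∈ W \ N := by
        intro a b hab ha hb
        obtain ⟨h6, h7⟩ := Finset.mem_sdiff.1 hb
        refine Finset.mem_sdiff.2 ⟨h6, ?_⟩
        intro h8
        exact hcon a ha b (Finset.mem_sdiff.2 ⟨h8, h7⟩) hab
      refine mem_newE_pair.2 ⟨huv, ?_, ?_, ?_⟩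
      · by_cases huD : u ∈ D
        · exact Or.inr huD
        · have hvD := hkey.resolve_left huD
          exact Or.inl (hnot v u huv.symm hvD (h3.resolve_right huD))
      · by_cases hvD : v ∈ D
        · exact Or.inr hvD
        · have huD := hkey.resolve_right hvD
          exact Or.inl (hnot u v huv huD (h4.resolve_right hvD))
      · rintro ⟨h6, h7⟩
        rcases hkey with h8 | h8
        · exact (Finset.mem_sdiff.1 h6).2 (hDN h8)
        · exact (Finset.mem_sdiff.1 h7).2 (hDN h8)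
  have hcardN : (N.card : ℝ) = D.card + (N \ D).card := by
    have h3 : N.card = D.card + (N \ D).card := by
      conv_lhs => rw [← hUN]
      exact Finset.card_union_of_disjoint Finset.disjoint_sdiff
    exact_mod_cast h3
  rw [hcardN, hsplit] at hND
  have hle' : ((newE F (W \ D) D).card : ℝ) ≤ (newE F (W \ N) D).card := by exact_mod_cast hle
  push_cast at hND
  rw [mul_add] at hND
  linarith

/-- The edge count of a minimal non-deficient up-set. -/
lemma min_up_card (hRF : ∀ u v, (u, v) ∈ R → F.Adj u v) (hUp : Up R W N) (hND : ND F ρ W N)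
    (hNne : N.Nonempty)
    (hmin : ∀ N' : Finset α, N'.Nonempty → N' ⊆ N → N' ≠ N → Up R W N' → ¬ ND F ρ W N') :
    N.card + (core F (W \ N) N).card ≤ (newE F (W \ N) N).card + 1 := by
  set R' : Finset (α × α) := (N ×ˢ N).filter (fun p => F.Adj p.1 p.2) with hR'
  have hb : IsBlock R' (W \ N) N := by
    refine ⟨hNne, Finset.disjoint_sdiff, ?_, ?_⟩
    · intro u v huv _
      exact Finset.mem_union_right _ (Finset.mem_product.1 (Finset.mem_filter.1 huv).1).2
    · intro x hx D hxD hDN hDne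
      obtain ⟨u, hu, v, hv, huv⟩ := min_up_conn hRF hUp hND hmin ⟨x, hxD⟩ hDN hDne
      refine ⟨u, hu, v, hv, Finset.mem_filter.2 ⟨Finset.mem_product.2
        ⟨hDN hu, (Finset.mem_sdiff.1 hv).1⟩, huv⟩⟩
  exact newE_card R' (fun u v h => (Finset.mem_filter.1 h).2) hb

/-- The real form of the covering count. -/
lemma cover_count_real [Fintype V] {C : Finset α} (S : Finset (α → V)) (𝓜 : Finset (α → V))
    (hcov : ∀ φ ∈ S, ∃ x ∈ C, ∃ φ' ∈ 𝓜, ∃ y ∈ C, φ x = φ' y) {W₀ : ℝ} (hW₀ : 0 ≤ W₀) (G : Finset α)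
    (hbound : ∀ x ∈ C, ∀ z : V, (((S.filter (fun φ => φ x = z)).image (proj G)).card : ℝ) ≤ W₀) :
    ((S.image (proj G)).card : ℝ) ≤ C.card * (𝓜.card * C.card) * W₀ := by
  let Z : Finset V := 𝓜.biUnion (fun φ' => C.image φ')
  have hZ : Z.card ≤ 𝓜.card * C.card := by
    refine Finset.card_biUnion_le.trans ?_
    calc ∑ φ' ∈ 𝓜, (C.image φ').card ≤ ∑ _φ' ∈ 𝓜, C.card :=
          Finset.sum_le_sum fun _ _ => Finset.card_image_le
      _ = 𝓜.card * C.card := by simp
  let Sx : α × V → Finset (α → V) := fun p => S.filter (fun φ => φ p.1 = p.2)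
  have hsub : S.image (proj G) ⊆ (C ×ˢ Z).biUnion (fun p => (Sx p).image (proj G)) := by
    intro ψ hψ
    obtain ⟨φ, hφ, rfl⟩ := Finset.mem_image.1 hψ
    obtain ⟨x, hx, φ', hφ', y, hy, hxy⟩ := hcov φ hφ
    refine Finset.mem_biUnion.2 ⟨(x, φ x), Finset.mem_product.2 ⟨hx, ?_⟩, ?_⟩
    · refine Finset.mem_biUnion.2 ⟨φ', hφ', ?_⟩
      rw [hxy]
      exact Finset.mem_image_of_mem _ hy
    · exact Finset.mem_image_of_mem _ (Finset.mem_filter.2 ⟨hφ, rfl⟩)
  have h1 : (S.image (proj G)).card ≤ ∑ p ∈ C ×ˢ Z, ((Sx p).image (proj G)).card :=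
    (Finset.card_le_card hsub).trans Finset.card_biUnion_le
  have h2 : ((S.image (proj G)).card : ℝ) ≤ ∑ p ∈ C ×ˢ Z, (((Sx p).image (proj G)).card : ℝ) := by
    exact_mod_cast h1
  have h3 : ∑ p ∈ C ×ˢ Z, (((Sx p).image (proj G)).card : ℝ) ≤ ∑ _p ∈ C ×ˢ Z, W₀ := by
    apply Finset.sum_le_sum
    rintro ⟨x, z⟩ hp
    exact hbound x (Finset.mem_product.1 hp).1 z
  rw [Finset.sum_const, nsmul_eq_mul, Finset.card_product] at h3
  refine h2.trans (h3.trans ?_)
  push_cast
  have hZ' : (Z.card : ℝ) ≤ 𝓜.card * C.card := by exact_mod_cast hZ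
  have h5 : (C.card : ℝ) * Z.card ≤ C.card * (𝓜.card * C.card) :=
    mul_le_mul_of_nonneg_left hZ' (Nat.cast_nonneg _)
  exact mul_le_mul_of_nonneg_right h5 hW₀

end Vale.Agent.Lib.P064U
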