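import Vale.Agent.Lib.P064U.WDefs

/-!
Part W5: the accounting.
-/

open Finset

namespace Vale.Agent.Lib.P064U

open Vale.Agent.Lib.P064 Vale.Agent.Lib.P064E
open scoped Classical

variable {β : Type} [Fintype β]

/-- The combinatorial partition of the non-root vertices (blueprint, ACCOUNTING; read with `B = Zb ∪ B₂ ∪ D`).
`f x = Δ` on `B`, `f x = τ` off `B`.  `a` counts `y` with `par y ∉ B`; `s` counts `y ∉ B` non-leaf, with a tree child, with
`par y ∈ Zb`: first child gives `s ≤ a`; `d` counts such `y` without tree child: each has a non-tree edge, so `d + 2 (v-1) ≤ 2 e`;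
`ℓ' x` counts twins of `x ∈ Zb` which are non-root; all others are paid by `(d₀+1) (|D|+|B₂|) + |Z|`. -/
theorem acc_partition (G : SimpleGraph β) (z : β) (par : β → β) (r : β → ℕ) (hparz : par z = z)
    (hpar : ∀ v, v ≠ z → r (par v) < r v ∧ G.Adj (par v) v)
    (d₀ : ℕ) (Z Zb B₂ D B : Finset β)
    (hZ : ∀ x, x ∈ Z ↔ d₀ < (nb G x).card)
    (hZbZ : Zb ⊆ Z) (hB₂ : Disjoint B₂ Z) (hD : Disjoint D Z)
    (hB : B = Zb ∪ B₂ ∪ D) {τ Δ : ℝ} (hτ : 1 ≤ τ) (hΔ : 1 ≤ Δ) :
    ∃ (a s d : ℕ) (ℓ' : β → ℕ),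
      s ≤ a ∧ d + 2 * (Fintype.card β - 1) ≤ 2 * (eIn G univ).card ∧
      Fintype.card β - 1 ≤ (eIn G univ).card ∧
      a + s + d + ∑ x ∈ Zb, ℓ' x ≤ Fintype.card β - 1 ∧
      (∀ x ∈ Zb, ℓ' x ≤ (twins G D x).card) ∧
      ∏ y ∈ univ.erase z, (if par y ∈ B then Δ else τ) ≤
        τ ^ a * Δ ^ (s + d + ∑ x ∈ Zb, ℓ' x + (d₀ + 1) * (D.card + B₂.card) + Z.card) := by
  classical
  set E : Finset β := univ.erase z with hE
  have hEcard : E.card = Fintype.card β - 1 := by
    rw [hE, Finset.card_erase_of_mem (mem_univ z), Finset.card_univ]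
  have hEmem : ∀ {y}, y ∈ E → y ≠ z := fun {y} hy => (Finset.mem_erase.1 hy).1
  -- the four classes
  let Q : β → Prop := fun y => par y ∈ Zb ∧ y ∉ Z ∧ y ∉ D ∧ y ∉ B₂
  set P1 : Finset β := E.filter fun y => par y ∉ B with hP1
  set L' : Finset β := E.filter fun y => Q y ∧ (nb G y).card = 1 with hL'
  set Sc : Finset β := E.filter fun y => Q y ∧ (nb G y).card ≠ 1 ∧ ∃ c, par c = y with hSc
  set Dc : Finset β := E.filter fun y => Q y ∧ (nb G y).card ≠ 1 ∧ ¬ ∃ c, par c = y with hDc
  have hZbB : ∀ x, x ∈ Zb → x ∈ B := by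
    intro x hx
    rw [hB]
    simp [hx]
  have hQB : ∀ y, Q y → y ∉ B := by
    intro y hy hyB
    rw [hB] at hyB
    simp only [Finset.mem_union] at hyB
    rcases hyB with (h | h) | h
    · exact hy.2.1 (hZbZ h)
    · exact hy.2.2.2 h
    · exact hy.2.2.1 h
  -- `s ≤ a`
  have hsa : Sc.card ≤ P1.card := by
    have hsub : Sc ⊆ P1.image par := by
      intro y hy
      obtain ⟨hyE, hyQ, _, c, hc⟩ := Finset.mem_filter.1 hy
      have hcz : c ≠ z := by
        rintro rfl
        rw [hparz] at hc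
        exact hEmem hyE hc.symm
      refine Finset.mem_image.2 ⟨c, Finset.mem_filter.2 ⟨Finset.mem_erase.2 ⟨hcz, mem_univ c⟩, ?_⟩, hc⟩
      rw [hc]
      exact hQB y hyQ
    exact (Finset.card_le_card hsub).trans Finset.card_image_le
  -- tree edges
  set T : Finset (Sym2 β) := E.image fun y => s(par y, y) with hT
  have hTcard : T.card = E.card := by
    refine Finset.card_image_of_injOn ?_
    intro y hy y' hy' h
    have hyz := hEmem hy
    have hyz' := hEmem hy'
    simp only [Sym2.eq_iff] at h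
    rcases h with ⟨_, h⟩ | ⟨h1, h2⟩
    · exact h
    · have h3 := (hpar y hyz).1
      have h4 := (hpar y' hyz').1
      rw [h1] at h3
      rw [← h2] at h4
      omega
  have hTsub : T ⊆ eIn G univ := by
    intro e he
    obtain ⟨y, hy, rfl⟩ := Finset.mem_image.1 he
    exact mem_eIn_pair.2 ⟨(hpar y (hEmem hy)).2, mem_univ _, mem_univ _⟩
  -- the non-tree edges
  have hDcN : Dc.card ≤ 2 * (eIn G univ \ T).card := by
    have hex : ∀ y ∈ Dc, ∃ w, G.Adj y w ∧ w ≠ par y := by
      intro y hy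
      obtain ⟨hyE, _, hne, _⟩ := Finset.mem_filter.1 hy
      have hadj := (hpar y (hEmem hyE)).2
      have hpos : 1 ≤ (nb G y).card :=
        Finset.card_pos.2 ⟨par y, mem_nb.2 hadj.symm⟩
      have h2 : 1 < (nb G y).card := by omega
      obtain ⟨w, hw, hwne⟩ := Finset.exists_mem_ne h2 (par y)
      exact ⟨w, mem_nb.1 hw, hwne⟩
    choose! w hw1 hw2 using hex
    have h1 : Dc.card ≤ 2 * (Dc.image fun y => s(y, w y)).card := by
      refine Finset.card_le_mul_card_image _ 2 ?_
      intro e _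
      induction e using Sym2.ind with
      | _ u v =>
        refine (Finset.card_le_card (t := {u, v}) ?_).trans Finset.card_le_two
        intro y hy
        have h := (Finset.mem_filter.1 hy).2
        simp only [Sym2.eq_iff] at h
        simp only [Finset.mem_insert, Finset.mem_singleton]
        rcases h with ⟨h, _⟩ | ⟨h, _⟩
        · exact Or.inl h
        · exact Or.inr h
    refine h1.trans (Nat.mul_le_mul_left 2 (Finset.card_le_card ?_))
    intro e he
    obtain ⟨y, hy, rfl⟩ := Finset.mem_image.1 he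
    refine Finset.mem_sdiff.2 ⟨mem_eIn_pair.2 ⟨hw1 y hy, mem_univ _, mem_univ _⟩, ?_⟩
    intro hmem
    obtain ⟨u, hu, hue⟩ := Finset.mem_image.1 hmem
    obtain ⟨hyE, _, _, hnc⟩ := Finset.mem_filter.1 hy
    simp only [Sym2.eq_iff] at hue
    rcases hue with ⟨h1, _⟩ | ⟨h1, h2⟩
    · exact hnc ⟨u, h1⟩
    · exact hw2 y hy (by rw [← h1, h2])
  have hecard : (eIn G univ).card = T.card + (eIn G univ \ T).card := by
    rw [add_comm, Finset.card_sdiff_add_card_eq_card hTsub]
  -- the sum of the four classes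
  have hsum4 : P1.card + Sc.card + Dc.card + L'.card ≤ E.card := by
    have h12 : Disjoint P1 Sc := by
      refine Finset.disjoint_left.2 fun y h1 h2 => ?_
      have h3 := (Finset.mem_filter.1 h1).2
      have h4 := (Finset.mem_filter.1 h2).2.1.1
      exact h3 (hZbB _ h4)
    have h13 : Disjoint (P1 ∪ Sc) Dc := by
      refine Finset.disjoint_left.2 fun y h1 h2 => ?_
      obtain ⟨_, h4, _, h6⟩ := Finset.mem_filter.1 h2
      rcases Finset.mem_union.1 h1 with h | h
      · exact (Finset.mem_filter.1 h).2 (hZbB _ h4.1)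
      · exact h6 (Finset.mem_filter.1 h).2.2.2
    have h14 : Disjoint (P1 ∪ Sc ∪ Dc) L' := by
      refine Finset.disjoint_left.2 fun y h1 h2 => ?_
      obtain ⟨_, h4, h6⟩ := Finset.mem_filter.1 h2
      rcases Finset.mem_union.1 h1 with h | h
      · rcases Finset.mem_union.1 h with h | h
        · exact (Finset.mem_filter.1 h).2 (hZbB _ h4.1)
        · exact (Finset.mem_filter.1 h).2.2.1 h6
      · exact (Finset.mem_filter.1 h).2.2.1 h6
    rw [← Finset.card_union_of_disjoint h12, ← Finset.card_union_of_disjoint h13,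
      ← Finset.card_union_of_disjoint h14]
    refine Finset.card_le_card ?_
    refine Finset.union_subset (Finset.union_subset (Finset.union_subset ?_ ?_) ?_) ?_ <;>
      exact Finset.filter_subset _ _
  -- the rest
  have hrest : (E.filter fun y => par y ∈ B).card ≤ Sc.card + Dc.card + L'.card +
      (d₀ + 1) * (D.card + B₂.card) + Z.card := by
    have hsub : (E.filter fun y => par y ∈ B) ⊆
        Sc ∪ Dc ∪ L' ∪ ((D ∪ B₂).biUnion fun x => nb G x) ∪ (D ∪ B₂) ∪ Z := by
      intro y hy
      obtain ⟨hyE, hyB⟩ := Finset.mem_filter.1 hy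
      have hyz := hEmem hyE
      simp only [Finset.mem_union]
      by_cases h1 : y ∈ Z
      · exact Or.inr h1
      by_cases h2 : y ∈ D
      · exact Or.inl (Or.inr (Or.inl h2))
      by_cases h3 : y ∈ B₂
      · exact Or.inl (Or.inr (Or.inr h3))
      rw [hB] at hyB
      simp only [Finset.mem_union] at hyB
      rcases hyB with (h | h) | h
      · have hQ : Q y := ⟨h, h1, h2, h3⟩
        by_cases h4 : (nb G y).card = 1
        · exact Or.inl (Or.inl (Or.inl (Or.inr
            (Finset.mem_filter.2 ⟨hyE, hQ, h4⟩))))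
        by_cases h5 : ∃ c, par c = y
        · exact Or.inl (Or.inl (Or.inl (Or.inl (Or.inl
            (Finset.mem_filter.2 ⟨hyE, hQ, h4, h5⟩)))))
        · exact Or.inl (Or.inl (Or.inl (Or.inl (Or.inr
            (Finset.mem_filter.2 ⟨hyE, hQ, h4, h5⟩)))))
      · refine Or.inl (Or.inl (Or.inr (Finset.mem_biUnion.2
          ⟨par y, Finset.mem_union.2 (Or.inr h), mem_nb.2 (hpar y hyz).2⟩)))
      · refine Or.inl (Or.inl (Or.inr (Finset.mem_biUnion.2
          ⟨par y, Finset.mem_union.2 (Or.inl h), mem_nb.2 (hpar y hyz).2⟩)))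
    have hbi : ((D ∪ B₂).biUnion fun x => nb G x).card ≤ (D ∪ B₂).card * d₀ := by
      refine Finset.card_biUnion_le_card_mul _ _ _ ?_
      intro x hx
      have hxZ : x ∉ Z := by
        rcases Finset.mem_union.1 hx with h | h
        · exact Finset.disjoint_left.1 hD h
        · exact Finset.disjoint_left.1 hB₂ h
      rw [hZ] at hxZ
      omega
    have hDB : (D ∪ B₂).card ≤ D.card + B₂.card := Finset.card_union_le _ _
    have h0 := Finset.card_le_card hsub
    have h1 := Finset.card_union_le (Sc ∪ Dc ∪ L' ∪ ((D ∪ B₂).biUnion fun x => nb G x) ∪ (D ∪ B₂)) Z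
    have h2 := Finset.card_union_le (Sc ∪ Dc ∪ L' ∪ ((D ∪ B₂).biUnion fun x => nb G x)) (D ∪ B₂)
    have h3 := Finset.card_union_le (Sc ∪ Dc ∪ L') ((D ∪ B₂).biUnion fun x => nb G x)
    have h4 := Finset.card_union_le (Sc ∪ Dc) L'
    have h5 := Finset.card_union_le Sc Dc
    have h6 : (D ∪ B₂).card * d₀ ≤ (D.card + B₂.card) * d₀ := Nat.mul_le_mul_right _ hDB
    have h7 : (d₀ + 1) * (D.card + B₂.card) = (D.card + B₂.card) * d₀ + (D.card + B₂.card) := by
      ring
    omega
  -- fibres over `Zb`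
  have hfib : ∑ x ∈ Zb, (L'.filter fun y => par y = x).card = L'.card := by
    refine (Finset.card_eq_sum_card_fiberwise ?_).symm
    intro y hy
    exact (Finset.mem_filter.1 hy).2.1.1
  refine ⟨P1.card, Sc.card, Dc.card, fun x => (L'.filter fun y => par y = x).card, hsa, ?_, ?_, ?_, ?_, ?_⟩
  · rw [← hEcard, hecard, hTcard]
    omega
  · rw [← hEcard, ← hTcard]
    exact Finset.card_le_card hTsub
  · rw [hfib, ← hEcard]
    exact hsum4
  · intro x _
    refine Finset.card_le_card ?_
    intro y hy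
    obtain ⟨hyL, hyx⟩ := Finset.mem_filter.1 hy
    obtain ⟨hyE, hyQ, hy1⟩ := Finset.mem_filter.1 hyL
    unfold twins
    refine Finset.mem_filter.2 ⟨mem_nb.2 ?_, hy1, hyQ.2.2.1⟩
    rw [← hyx]
    exact (hpar y (hEmem hyE)).2
  · rw [Finset.prod_ite, Finset.prod_const, Finset.prod_const, hfib, mul_comm]
    have hτ0 : 0 ≤ τ ^ P1.card := by positivity
    refine mul_le_mul_of_nonneg_left ?_ hτ0
    refine pow_le_pow_right₀ hΔ ?_
    omega

/-- `d₀ |Z| ≤ 2 e`. -/
lemma card_big_le (G : SimpleGraph β) (d₀ : ℕ) (Z : Finset β)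
    (hZ : ∀ x, x ∈ Z ↔ d₀ < (nb G x).card) : d₀ * Z.card ≤ 2 * (eIn G univ).card := by
  classical
  have h1 : d₀ * Z.card ≤ ∑ x ∈ Z, (nb G x).card := by
    rw [mul_comm, ← smul_eq_mul]
    refine Finset.card_nsmul_le_sum _ _ _ ?_
    intro x hx
    exact ((hZ x).1 hx).le
  have h2 : ∑ x ∈ Z, (nb G x).card ≤ ∑ x, (nb G x).card :=
    Finset.sum_le_sum_of_subset (Finset.subset_univ Z)
  have h3 : ∑ x, (nb G x).card ≤ 2 * (eIn G univ).card := by
    have h4 : ∀ x, (nb G x).card ≤ ((eIn G univ).filter fun e => x ∈ e).card := by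
      intro x
      refine Finset.card_le_card_of_injOn (fun u => s(x, u)) ?_ ?_
      · intro u hu
        have hu' : u ∈ nb G x := hu
        exact Finset.mem_filter.2 ⟨mem_eIn_pair.2 ⟨mem_nb.1 hu', mem_univ _, mem_univ _⟩,
          Sym2.mem_mk_left _ _⟩
      · intro u hu u' hu' h
        have hu1 : u ∈ nb G x := hu
        have hadj := mem_nb.1 hu1
        simp only [Sym2.eq_iff] at h
        rcases h with ⟨_, h⟩ | ⟨h1, h2⟩
        · exact h
        · rw [h2, ← h1]
    calc ∑ x, (nb G x).card ≤ ∑ x, ((eIn G univ).filter fun e => x ∈ e).card :=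
          Finset.sum_le_sum fun x _ => h4 x
      _ = ∑ e ∈ eIn G univ, (univ.filter fun x => x ∈ e).card := by
          simp only [Finset.card_filter]
          rw [Finset.sum_comm]
      _ ≤ ∑ _e ∈ eIn G univ, 2 := by
          refine Finset.sum_le_sum ?_
          intro e _
          induction e using Sym2.ind with
          | _ u v =>
            refine (Finset.card_le_card (t := {u, v}) ?_).trans Finset.card_le_two
            intro y hy
            have h := (Finset.mem_filter.1 hy).2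
            simp only [Sym2.mem_iff] at h
            simpa using h
      _ = 2 * (eIn G univ).card := by
          rw [Finset.sum_const, smul_eq_mul, mul_comm]
  omega

end Vale.Agent.Lib.P064U
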