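import Vale.Agent.Lib.P064U.WDefs

/-!
Part W5c: the accounting of notes/P064U_W2.md (helper50): partition and charging.
-/

open Finset

namespace Vale.Agent.Lib.P064U

open Vale.Agent.Lib.P064 Vale.Agent.Lib.P064E
open scoped Classical

variable {β : Type} [Fintype β]

/-- The partition of the non-root vertices.  `f x = Δ` on `B`, `f x = τ` off `B`.  `a` counts `y` with `par y ∉ B`.  The children of `D` and `B₂`
number at most `d₀ (|D|+|B₂|)`.  `ℓ' x` counts the twins of `x ∈ Zb` with `par y = x`, `y ≠ z`.  A remaining child `y` of a vertex of `Zb` has a tree descendant `End y`,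
reached along vertices off `B`, which is in `B` or has no tree child: `End y` has parent off `B` or equals `y`, and the `End` map is injective (take a
terminal vertex of maximal rank among the vertices reached from `y` through vertices off `B`; parents of `y` are in `B`, so each vertex is reached from a unique `y`).
If `End y ∉ B` it has a non-tree edge: otherwise it is a leaf, `hleaf` gives that its parent is in `B`, so `End y = y`, a leaf off `B`, hence a twin: excluded.
`d` counts the values `End y ∉ B`: each carries a non-tree edge and each non-tree edge is carried at most twice, and tree edges `s(y, par y)` are `v-1` distinct edges, so `d + 2 (v-1) ≤ 2 e`. -/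
theorem acc_partition2 (G : SimpleGraph β) (z : β) (par : β → β) (r : β → ℕ) (hparz : par z = z)
    (hpar : ∀ v, v ≠ z → r (par v) < r v ∧ G.Adj (par v) v)
    (d₀ : ℕ) (Zb B₂ D B : Finset β)
    (hB₂ : ∀ x ∈ B₂, (nb G x).card ≤ d₀) (hD : ∀ x ∈ D, (nb G x).card ≤ d₀)
    (hB : B = Zb ∪ B₂ ∪ D)
    (hleaf : ∀ y x, (nb G y).card = 1 → G.Adj y x → x ∈ B)
    {τ Δ : ℝ} (hτ : 1 ≤ τ) (hΔ : 1 ≤ Δ) :
    ∃ (a d : ℕ) (ℓ' : β → ℕ),
      d + 2 * (Fintype.card β - 1) ≤ 2 * (eIn G univ).card ∧
      (Zb = ∅ → d = 0) ∧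
      Fintype.card β - 1 ≤ (eIn G univ).card ∧
      a + ∑ x ∈ Zb, ℓ' x ≤ Fintype.card β - 1 ∧
      (∀ x ∈ Zb, ℓ' x ≤ (twins G D x).card) ∧
      ∏ y ∈ univ.erase z, (if par y ∈ B then Δ else τ) ≤
        τ ^ a * Δ ^ (d + ∑ x ∈ Zb, ℓ' x + (d₀ + 1) * (D.card + B₂.card) + Zb.card) := by
  classical
  set E : Finset β := univ.erase z with hE
  have hEcard : E.card = Fintype.card β - 1 := by
    rw [hE, Finset.card_erase_of_mem (mem_univ z), Finset.card_univ]
  have hEmem : ∀ {y}, y ∈ E → y ≠ z := fun {y} hy => (Finset.mem_erase.1 hy).1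
  have hZbB : ∀ x, x ∈ Zb → x ∈ B := by
    intro x hx
    rw [hB]
    simp [hx]
  -- the descent relation
  let step : β → β → Prop := fun a b => a ∉ B ∧ b ≠ z ∧ par b = a
  have hstep_rank : ∀ a b, step a b → r a < r b := by
    rintro a b ⟨_, hbz, rfl⟩
    exact (hpar b hbz).1
  have hterm : ∀ y, ∃ t, Relation.ReflTransGen step y t ∧ (t ∈ B ∨ ∀ c, c ≠ z → par c ≠ t) := by
    intro y
    obtain ⟨t, ht, hmax⟩ := Finset.exists_max_image
      (univ.filter fun t => Relation.ReflTransGen step y t) r
      ⟨y, Finset.mem_filter.2 ⟨mem_univ _, Relation.ReflTransGen.refl⟩⟩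
    have ht' := (Finset.mem_filter.1 ht).2
    refine ⟨t, ht', ?_⟩
    by_contra hcon
    push Not at hcon
    obtain ⟨htB, c, hcz, hc⟩ := hcon
    have hst : step t c := ⟨htB, hcz, hc⟩
    have h1 := hmax c (Finset.mem_filter.2 ⟨mem_univ _, ht'.tail hst⟩)
    have h2 := hstep_rank t c hst
    omega
  choose End hEnd1 hEnd2 using hterm
  have huniq : ∀ y t, Relation.ReflTransGen step y t → par y ∈ B → ∀ y', par y' ∈ B →
      Relation.ReflTransGen step y' t → y' = y := by
    intro y t hyt hy
    induction hyt with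
    | refl =>
      intro y' _ hr
      rcases Relation.ReflTransGen.cases_tail hr with h | ⟨c, _, hc⟩
      · exact h.symm
      · exact absurd (hc.2.2 ▸ hy) hc.1
    | tail hab hbc ih =>
      intro y' hy' hr
      rcases Relation.ReflTransGen.cases_tail hr with h | ⟨c, hrc, hc⟩
      · exfalso
        subst h
        exact hbc.1 (hbc.2.2 ▸ hy')
      · have hcb : c = _ := hc.2.2.symm.trans hbc.2.2
        subst hcb
        exact ih y' hy' hrc
  -- the classes
  set P1 : Finset β := E.filter fun y => par y ∉ B with hP1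
  set L' : Finset β := E.filter fun y => par y ∈ Zb ∧ (nb G y).card = 1 ∧ y ∉ D with hL'
  set R : Finset β := E.filter fun y => par y ∈ Zb ∧ ¬ ((nb G y).card = 1 ∧ y ∉ D) with hR
  set Rd : Finset β := R.filter fun y => End y ∉ B with hRd
  set RB : Finset β := R.filter fun y => End y ∈ B with hRB
  have hEndInj : Set.InjOn End (R : Set β) := by
    intro y hy y' hy' h
    have h1 : par y ∈ B := hZbB _ (Finset.mem_filter.1 (Finset.mem_coe.1 hy)).2.1
    have h2 : par y' ∈ B := hZbB _ (Finset.mem_filter.1 (Finset.mem_coe.1 hy')).2.1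
    have h3 := hEnd1 y'
    rw [← h] at h3
    exact (huniq y _ (hEnd1 y) h1 y' h2 h3).symm
  have hRBcard : RB.card ≤ Zb.card + B₂.card + D.card := by
    have h1 : RB.card ≤ B.card := by
      refine Finset.card_le_card_of_injOn End ?_ ?_
      · intro y hy
        exact (Finset.mem_filter.1 (Finset.mem_coe.1 hy)).2
      · exact hEndInj.mono (fun y hy => (Finset.mem_filter.1 (Finset.mem_coe.1 hy)).1)
    have h2 : B.card ≤ Zb.card + B₂.card + D.card := by
      rw [hB]
      have h3 := Finset.card_union_le (Zb ∪ B₂) D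
      have h4 := Finset.card_union_le Zb B₂
      omega
    omega
  -- tree edges
  set T : Finset (Sym2 β) := E.image fun y => s(par y, y) with hT
  have hTcard : T.card = E.card := by
    refine Finset.card_image_of_injOn ?_
    intro y hy y' hy' h
    have hyz := hEmem hy
    have hyz' := hEmem hy'
    simp only [Sym2.eq_iff] at h
    rcases h with ⟨_, h⟩ | ⟨h1, h2⟩
    · exact h
    · have h3 := (hpar y hyz).1
      have h4 := (hpar y' hyz').1
      rw [h1] at h3
      rw [← h2] at h4
      omega
  have hTsub : T ⊆ eIn G univ := by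
    intro e he
    obtain ⟨y, hy, rfl⟩ := Finset.mem_image.1 he
    exact mem_eIn_pair.2 ⟨(hpar y (hEmem hy)).2, mem_univ _, mem_univ _⟩
  -- the non-tree edges
  set W : Finset β := Rd.image End with hW
  have hWcard : W.card = Rd.card := by
    refine Finset.card_image_of_injOn ?_
    exact hEndInj.mono (fun y hy => (Finset.mem_filter.1 (Finset.mem_coe.1 hy)).1)
  have hWprop : ∀ w ∈ W, w ≠ z ∧ (∀ c, c ≠ z → par c ≠ w) ∧ ∃ u, G.Adj w u ∧ u ≠ par w := by
    intro w hw
    obtain ⟨y, hy, rfl⟩ := Finset.mem_image.1 hw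
    obtain ⟨hyR, hyB⟩ := Finset.mem_filter.1 hy
    obtain ⟨hyE, hyZb, hytw⟩ := Finset.mem_filter.1 hyR
    have hchild : ∀ c, c ≠ z → par c ≠ End y := (hEnd2 y).resolve_left hyB
    have hne : End y ≠ z := by
      rcases Relation.ReflTransGen.cases_tail (hEnd1 y) with h | ⟨c, _, hc⟩
      · rw [h]
        exact hEmem hyE
      · exact hc.2.1
    refine ⟨hne, hchild, ?_⟩
    have hadj := (hpar _ hne).2
    have hpos : 1 ≤ (nb G (End y)).card :=
      Finset.card_pos.2 ⟨par (End y), mem_nb.2 hadj.symm⟩
    have h2 : 1 < (nb G (End y)).card := by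
      by_contra hcon
      have h1 : (nb G (End y)).card = 1 := by omega
      have hpB : par (End y) ∈ B := hleaf _ _ h1 hadj.symm
      rcases Relation.ReflTransGen.cases_tail (hEnd1 y) with h | ⟨c, _, hc⟩
      · -- `End y = y`
        have hyy : End y = y := h
        rw [hyy] at h1 hyB
        apply hytw
        refine ⟨h1, fun hyD => hyB ?_⟩
        rw [hB]
        simp [hyD]
      · exact hc.1 (hc.2.2 ▸ hpB)
    obtain ⟨u, hu, hune⟩ := Finset.exists_mem_ne h2 (par (End y))
    exact ⟨u, mem_nb.1 hu, hune⟩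
  have hRdN : Rd.card ≤ 2 * (eIn G univ \ T).card := by
    rw [← hWcard]
    have hex : ∀ w ∈ W, ∃ u, G.Adj w u ∧ u ≠ par w := fun w hw => (hWprop w hw).2.2
    choose! u hu1 hu2 using hex
    have h1 : W.card ≤ 2 * (W.image fun y => s(y, u y)).card := by
      refine Finset.card_le_mul_card_image _ 2 ?_
      intro e _
      induction e using Sym2.ind with
      | _ a b =>
        refine (Finset.card_le_card (t := {a, b}) ?_).trans Finset.card_le_two
        intro y hy
        have h := (Finset.mem_filter.1 hy).2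
        simp only [Sym2.eq_iff] at h
        simp only [Finset.mem_insert, Finset.mem_singleton]
        rcases h with ⟨h, _⟩ | ⟨h, _⟩
        · exact Or.inl h
        · exact Or.inr h
    refine h1.trans (Nat.mul_le_mul_left 2 (Finset.card_le_card ?_))
    intro e he
    obtain ⟨y, hy, rfl⟩ := Finset.mem_image.1 he
    refine Finset.mem_sdiff.2 ⟨mem_eIn_pair.2 ⟨hu1 y hy, mem_univ _, mem_univ _⟩, ?_⟩
    intro hmem
    obtain ⟨c, hc, hce⟩ := Finset.mem_image.1 hmem
    obtain ⟨_, hchild, _⟩ := hWprop y hy
    simp only [Sym2.eq_iff] at hce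
    rcases hce with ⟨h1, _⟩ | ⟨h1, h2⟩
    · exact hchild c (hEmem hc) h1
    · exact hu2 y hy (by rw [← h1, h2])
  have hecard : (eIn G univ).card = T.card + (eIn G univ \ T).card := by
    rw [add_comm, Finset.card_sdiff_add_card_eq_card hTsub]
  -- the sum of two classes
  have hsum2 : P1.card + L'.card ≤ E.card := by
    have h12 : Disjoint P1 L' := by
      refine Finset.disjoint_left.2 fun y h1 h2 => ?_
      have h3 := (Finset.mem_filter.1 h1).2
      have h4 := (Finset.mem_filter.1 h2).2.1
      exact h3 (hZbB _ h4)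
    rw [← Finset.card_union_of_disjoint h12]
    refine Finset.card_le_card ?_
    exact Finset.union_subset (Finset.filter_subset _ _) (Finset.filter_subset _ _)
  -- the rest
  have hrest : (E.filter fun y => par y ∈ B).card ≤ Rd.card + L'.card +
      (d₀ + 1) * (D.card + B₂.card) + Zb.card := by
    have hsub : (E.filter fun y => par y ∈ B) ⊆
        Rd ∪ L' ∪ RB ∪ ((D ∪ B₂).biUnion fun x => nb G x) := by
      intro y hy
      obtain ⟨hyE, hyB⟩ := Finset.mem_filter.1 hy
      have hyz := hEmem hyE
      simp only [Finset.mem_union]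
      by_cases h1 : par y ∈ Zb
      · by_cases h2 : (nb G y).card = 1 ∧ y ∉ D
        · exact Or.inl (Or.inl (Or.inr (Finset.mem_filter.2 ⟨hyE, h1, h2.1, h2.2⟩)))
        · have hyR : y ∈ R := Finset.mem_filter.2 ⟨hyE, h1, h2⟩
          by_cases h3 : End y ∈ B
          · exact Or.inl (Or.inr (Finset.mem_filter.2 ⟨hyR, h3⟩))
          · exact Or.inl (Or.inl (Or.inl (Finset.mem_filter.2 ⟨hyR, h3⟩)))
      · refine Or.inr (Finset.mem_biUnion.2 ⟨par y, ?_, mem_nb.2 (hpar y hyz).2⟩)
        rw [hB] at hyB
        simp only [Finset.mem_union] at hyB ⊢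
        rcases hyB with (h | h) | h
        · exact absurd h h1
        · exact Or.inr h
        · exact Or.inl h
    have hbi : ((D ∪ B₂).biUnion fun x => nb G x).card ≤ (D ∪ B₂).card * d₀ := by
      refine Finset.card_biUnion_le_card_mul _ _ _ ?_
      intro x hx
      rcases Finset.mem_union.1 hx with h | h
      · exact hD x h
      · exact hB₂ x h
    have hDB : (D ∪ B₂).card ≤ D.card + B₂.card := Finset.card_union_le _ _
    have h0 := Finset.card_le_card hsub
    have h1 := Finset.card_union_le (Rd ∪ L' ∪ RB) ((D ∪ B₂).biUnion fun x => nb G x)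
    have h2 := Finset.card_union_le (Rd ∪ L') RB
    have h3 := Finset.card_union_le Rd L'
    have h6 : (D ∪ B₂).card * d₀ ≤ (D.card + B₂.card) * d₀ := Nat.mul_le_mul_right _ hDB
    have h7 : (d₀ + 1) * (D.card + B₂.card) = (D.card + B₂.card) * d₀ + (D.card + B₂.card) := by
      ring
    omega
  -- fibres over `Zb`
  have hfib : ∑ x ∈ Zb, (L'.filter fun y => par y = x).card = L'.card := by
    refine (Finset.card_eq_sum_card_fiberwise ?_).symm
    intro y hy
    exact (Finset.mem_filter.1 hy).2.1
  refine ⟨P1.card, Rd.card, fun x => (L'.filter fun y => par y = x).card, ?_, ?_, ?_, ?_, ?_, ?_⟩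
  · rw [← hEcard, hecard, hTcard]
    omega
  · intro hZ
    have : Rd = ∅ := by
      refine Finset.eq_empty_of_forall_notMem ?_
      intro y hy
      have h1 := (Finset.mem_filter.1 (Finset.mem_filter.1 hy).1).2.1
      rw [hZ] at h1
      simp at h1
    rw [this]
    rfl
  · rw [← hEcard, ← hTcard]
    exact Finset.card_le_card hTsub
  · rw [hfib, ← hEcard]
    exact hsum2
  · intro x _
    refine Finset.card_le_card ?_
    intro y hy
    obtain ⟨hyL, hyx⟩ := Finset.mem_filter.1 hy
    obtain ⟨hyE, _, hy1, hy2⟩ := Finset.mem_filter.1 hyL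
    unfold twins
    refine Finset.mem_filter.2 ⟨mem_nb.2 ?_, hy1, hy2⟩
    rw [← hyx]
    exact (hpar y (hEmem hyE)).2
  · rw [Finset.prod_ite, Finset.prod_const, Finset.prod_const, hfib, mul_comm]
    have hτ0 : 0 ≤ τ ^ P1.card := by positivity
    refine mul_le_mul_of_nonneg_left ?_ hτ0
    refine pow_le_pow_right₀ hΔ ?_
    exact hrest

end Vale.Agent.Lib.P064U
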