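import Vale.Agent.Lib.P064U.WDefs

/-!
Part W5d: the numeric accounting of notes/P064U_W2.md.
-/

open Finset

namespace Vale.Agent.Lib.P064U

open Vale.Agent.Lib.P064 Vale.Agent.Lib.P064E
open scoped Classical

variable {β : Type} [Fintype β]

/-- `(v + p |D|) (D₀^p/p!)^|D| Δ^((d₀+1)|D|) ≤ v` by N5; `Δ^((d₀+1)|B₂|) ≤ e^v`; `Δ^d ≤ e^(v+e)`; `Δ^|Zb| ≤ exp(d₀ |Zb|) ≤ e^(2e)`;
`∏_{Zb} Δ^ℓ'/tw! ≤ (Δ/d₀)^(Σℓ') exp(d₀ |Zb|)` (`Real.pow_div_factorial_le_exp`, `ℓ' ≤ tw`); `τ^a (Δ/d₀)^Σℓ' ≤ K^(v-1) ≤ K^e`. -/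
theorem acc_numeric2 {v e a d : ℕ} {p d₀ : ℕ} (Zb B₂ D : Finset β) (ℓ' tw : β → ℕ)
    {τ Δ K D₀ : ℝ} (hτ1 : 1 ≤ τ) (hτK : τ ≤ K) (hΔ1 : 1 ≤ Δ) (hD₀ : 0 ≤ D₀)
    (hd₀ : 1 ≤ d₀) (hA : Δ ≤ K * d₀)
    (hN5 : (1 + (p : ℝ)) * (D₀ ^ p / p.factorial) * Δ ^ (d₀ + 1) ≤ 1)
    (hN8 : Δ ≤ Real.exp d₀)
    (hB₂ : ((d₀ + 1 : ℕ) : ℝ) * B₂.card * Real.log Δ ≤ v)
    (hdΔ : (d : ℝ) * Real.log Δ ≤ v + e)
    (hZe : d₀ * Zb.card ≤ 2 * e) (hDv : D.card ≤ v) (hv : 1 ≤ v)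
    (hve : v - 1 ≤ e)
    (hsum : a + ∑ x ∈ Zb, ℓ' x ≤ v - 1) (htw : ∀ x ∈ Zb, ℓ' x ≤ tw x) :
    ((v : ℝ) + p * D.card) * (D₀ ^ p / p.factorial) ^ D.card *
        ((∏ x ∈ Zb, ((tw x).factorial : ℝ))⁻¹ *
          (τ ^ a * Δ ^ (d + ∑ x ∈ Zb, ℓ' x + (d₀ + 1) * (D.card + B₂.card) + Zb.card))) ≤
      v * Real.exp (2 * v + 5 * e) * K ^ e := by
  have hK1 : 1 ≤ K := hτ1.trans hτK
  have hK0 : 0 < K := by linarith
  have hτ0 : 0 < τ := by linarith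
  have hΔ0 : 0 < Δ := by linarith
  have hv1 : (1 : ℝ) ≤ v := by exact_mod_cast hv
  obtain ⟨A, hAdef⟩ : ∃ A, A = D₀ ^ p / (p.factorial : ℝ) := ⟨_, rfl⟩
  have hA0 : 0 ≤ A := by rw [hAdef]; positivity
  rw [← hAdef] at hN5 ⊢
  obtain ⟨L, hL⟩ : ∃ L, L = ∑ x ∈ Zb, ℓ' x := ⟨_, rfl⟩
  rw [← hL] at hsum ⊢
  have hexpZ : Real.exp ((d₀ : ℝ) * Zb.card) ≤ Real.exp (2 * e) := by
    apply Real.exp_le_exp.2
    exact_mod_cast hZe
  -- F1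
  have hF1 : ((v : ℝ) + p * D.card) * A ^ D.card * (Δ ^ (d₀ + 1)) ^ D.card ≤ v := by
    have hb : 1 + (D.card : ℝ) * p ≤ (1 + (p : ℝ)) ^ D.card :=
      one_add_mul_le_pow (by have : (0 : ℝ) ≤ p := Nat.cast_nonneg _; linarith) _
    have hp0 : (0 : ℝ) ≤ (D.card : ℝ) * p := by positivity
    have h1 : ((v : ℝ) + p * D.card) ≤ v * (1 + (p : ℝ)) ^ D.card := by
      have h2 : (v : ℝ) * (1 + (D.card : ℝ) * p) ≤ v * (1 + (p : ℝ)) ^ D.card :=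
        mul_le_mul_of_nonneg_left hb (by linarith)
      nlinarith
    have h2 : (1 + (p : ℝ)) ^ D.card * A ^ D.card * (Δ ^ (d₀ + 1)) ^ D.card ≤ 1 := by
      rw [← mul_pow, ← mul_pow]
      exact pow_le_one₀ (by positivity) hN5
    have h3 : 0 ≤ A ^ D.card * (Δ ^ (d₀ + 1)) ^ D.card := by positivity
    calc ((v : ℝ) + p * D.card) * A ^ D.card * (Δ ^ (d₀ + 1)) ^ D.card
        = ((v : ℝ) + p * D.card) * (A ^ D.card * (Δ ^ (d₀ + 1)) ^ D.card) := by ring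
      _ ≤ (v * (1 + (p : ℝ)) ^ D.card) * (A ^ D.card * (Δ ^ (d₀ + 1)) ^ D.card) :=
          mul_le_mul_of_nonneg_right h1 h3
      _ = v * ((1 + (p : ℝ)) ^ D.card * A ^ D.card * (Δ ^ (d₀ + 1)) ^ D.card) := by ring
      _ ≤ v * 1 := mul_le_mul_of_nonneg_left h2 (by linarith)
      _ = v := mul_one _
  -- F2
  have hF2 : Δ ^ ((d₀ + 1) * B₂.card) ≤ Real.exp v := by
    have h1 : Δ ^ ((d₀ + 1) * B₂.card) =
        Real.exp (((((d₀ + 1) * B₂.card : ℕ) : ℝ)) * Real.log Δ) := by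
      rw [Real.exp_nat_mul, Real.exp_log hΔ0]
    rw [h1]
    apply Real.exp_le_exp.2
    rw [Nat.cast_mul]
    exact hB₂
  -- F3
  have hF3 : Δ ^ Zb.card ≤ Real.exp (2 * e) := by
    have h1 : Δ ^ Zb.card ≤ (Real.exp d₀) ^ Zb.card := pow_le_pow_left₀ hΔ0.le hN8 _
    have h2 : (Real.exp d₀) ^ Zb.card = Real.exp ((d₀ : ℝ) * Zb.card) := by
      rw [← Real.exp_nat_mul]
      congr 1
      ring
    rw [h2] at h1
    exact h1.trans hexpZ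
  -- Fd
  have hFd : Δ ^ d ≤ Real.exp ((v : ℝ) + e) := by
    have h1 : Δ ^ d = Real.exp ((d : ℝ) * Real.log Δ) := by
      rw [Real.exp_nat_mul, Real.exp_log hΔ0]
    rw [h1]
    exact Real.exp_le_exp.2 hdΔ
  -- F4
  have hF4 : τ ^ a ≤ K ^ a := pow_le_pow_left₀ hτ0.le hτK _
  -- F6
  have hF6 : (∏ x ∈ Zb, ((tw x).factorial : ℝ))⁻¹ * Δ ^ L ≤ K ^ L * Real.exp (2 * e) := by
    have hterm : ∀ y ∈ Zb, Δ ^ ℓ' y / ((tw y).factorial : ℝ) ≤ K ^ ℓ' y * Real.exp d₀ := by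
      intro y hy
      have h1 : ((ℓ' y).factorial : ℝ) ≤ ((tw y).factorial : ℝ) := by
        exact_mod_cast Nat.factorial_le (htw y hy)
      have h2 : (0 : ℝ) < ((ℓ' y).factorial : ℝ) := by exact_mod_cast Nat.factorial_pos _
      have h3 : Δ ^ ℓ' y / ((tw y).factorial : ℝ) ≤ Δ ^ ℓ' y / ((ℓ' y).factorial : ℝ) :=
        div_le_div_of_nonneg_left (by positivity) h2 h1
      have h4 : Δ ^ ℓ' y ≤ (K * d₀) ^ ℓ' y := pow_le_pow_left₀ hΔ0.le hA _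
      have h5 := Real.pow_div_factorial_le_exp (d₀ : ℝ) (Nat.cast_nonneg _) (ℓ' y)
      calc Δ ^ ℓ' y / ((tw y).factorial : ℝ) ≤ Δ ^ ℓ' y / ((ℓ' y).factorial : ℝ) := h3
        _ ≤ (K * d₀) ^ ℓ' y / ((ℓ' y).factorial : ℝ) :=
            div_le_div_of_nonneg_right h4 h2.le
        _ = K ^ ℓ' y * ((d₀ : ℝ) ^ ℓ' y / ((ℓ' y).factorial : ℝ)) := by
            rw [mul_pow]
            ring
        _ ≤ K ^ ℓ' y * Real.exp d₀ := mul_le_mul_of_nonneg_left h5 (by positivity)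
    have h1 : (∏ x ∈ Zb, ((tw x).factorial : ℝ))⁻¹ * Δ ^ L =
        ∏ y ∈ Zb, (Δ ^ ℓ' y / ((tw y).factorial : ℝ)) := by
      rw [Finset.prod_div_distrib, Finset.prod_pow_eq_pow_sum, ← hL]
      field_simp
    rw [h1]
    have h2 : ∏ y ∈ Zb, (Δ ^ ℓ' y / ((tw y).factorial : ℝ)) ≤
        ∏ y ∈ Zb, (K ^ ℓ' y * Real.exp d₀) :=
      Finset.prod_le_prod (fun y _ => by positivity) hterm
    refine h2.trans ?_
    rw [Finset.prod_mul_distrib, Finset.prod_pow_eq_pow_sum, ← hL, Finset.prod_const]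
    apply mul_le_mul_of_nonneg_left _ (by positivity)
    have h3 : Real.exp d₀ ^ Zb.card = Real.exp ((d₀ : ℝ) * Zb.card) := by
      rw [← Real.exp_nat_mul]
      congr 1
      ring
    rw [h3]
    exact hexpZ
  -- assembly
  obtain ⟨Pr, hPr⟩ : ∃ Pr : ℝ, Pr = (∏ x ∈ Zb, ((tw x).factorial : ℝ))⁻¹ := ⟨_, rfl⟩
  rw [← hPr] at hF6 ⊢
  have hPr0 : 0 ≤ Pr := by rw [hPr]; positivity
  obtain ⟨F1, hF1def⟩ : ∃ F, F = ((v : ℝ) + p * D.card) * A ^ D.card * (Δ ^ (d₀ + 1)) ^ D.card :=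
    ⟨_, rfl⟩
  rw [← hF1def] at hF1
  have hF10 : 0 ≤ F1 := by rw [hF1def]; positivity
  have e0 : ((v : ℝ) + p * D.card) * A ^ D.card *
      (Pr * (τ ^ a * Δ ^ (d + L + (d₀ + 1) * (D.card + B₂.card) + Zb.card))) =
      F1 * (Δ ^ ((d₀ + 1) * B₂.card) * (Δ ^ Zb.card * (τ ^ a * (Δ ^ d * (Pr * Δ ^ L))))) := by
    rw [hF1def]
    ring
  rw [e0]
  have hP6 : 0 ≤ Pr * Δ ^ L := by positivity
  have h6 : Δ ^ d * (Pr * Δ ^ L) ≤ Real.exp ((v : ℝ) + e) * (K ^ L * Real.exp (2 * e)) :=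
    mul_le_mul hFd hF6 hP6 (by positivity)
  have h7 : τ ^ a * (Δ ^ d * (Pr * Δ ^ L)) ≤
      K ^ a * (Real.exp ((v : ℝ) + e) * (K ^ L * Real.exp (2 * e))) :=
    mul_le_mul hF4 h6 (by positivity) (by positivity)
  have h8 : Δ ^ Zb.card * (τ ^ a * (Δ ^ d * (Pr * Δ ^ L))) ≤
      Real.exp (2 * e) * (K ^ a * (Real.exp ((v : ℝ) + e) * (K ^ L * Real.exp (2 * e)))) :=
    mul_le_mul hF3 h7 (by positivity) (by positivity)
  have h9 : Δ ^ ((d₀ + 1) * B₂.card) * (Δ ^ Zb.card * (τ ^ a * (Δ ^ d * (Pr * Δ ^ L)))) ≤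
      Real.exp v * (Real.exp (2 * e) * (K ^ a * (Real.exp ((v : ℝ) + e) * (K ^ L * Real.exp (2 * e))))) :=
    mul_le_mul hF2 h8 (by positivity) (by positivity)
  have h10 := mul_le_mul hF1 h9 (by positivity) (by linarith)
  refine h10.trans ?_
  have h11 : Real.exp v * (Real.exp (2 * e) * (K ^ a * (Real.exp ((v : ℝ) + e) * (K ^ L * Real.exp (2 * e))))) =
      Real.exp (2 * v + 5 * e) * K ^ (a + L) := by
    have h12 : Real.exp (2 * (v : ℝ) + 5 * e) =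
        Real.exp v * (Real.exp (2 * e) * (Real.exp ((v : ℝ) + e) * Real.exp (2 * e))) := by
      rw [← Real.exp_add, ← Real.exp_add, ← Real.exp_add]
      congr 1
      ring
    rw [h12]
    ring
  rw [h11]
  have h13 : K ^ (a + L) ≤ K ^ e := pow_le_pow_right₀ hK1 (by omega)
  calc (v : ℝ) * (Real.exp (2 * v + 5 * e) * K ^ (a + L))
      ≤ v * (Real.exp (2 * v + 5 * e) * K ^ e) := by
        apply mul_le_mul_of_nonneg_left _ (by linarith)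
        exact mul_le_mul_of_nonneg_left h13 (Real.exp_pos _).le
    _ = _ := by ring

end Vale.Agent.Lib.P064U
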