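import Vale.Agent.Lib.P064U.WDefs

/-!
Part W6a: chord-heavy vertices.
-/

open Finset

namespace Vale.Agent.Lib.P064U

open Vale.Agent.Lib.P064 Vale.Agent.Lib.P064E
open scoped Classical

variable {V β : Type} [Fintype V] [Fintype β] {H : SimpleGraph V} {n : ℕ} {q l lam : ℝ}

/-- Chord-heavy vertices: `|B₂| (τ/4 - d₀) lam ≤ 2 (v l - e lam)` for an embedding `φ` of `G`
(all `H`-edges inside `φ(β)`: `T lam ≤ v l` by `density_log`, at least `e` of them are images of edges of `G`; a vertex of `B₂`
touches at least `τ/4 - d₀` others). -/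
theorem chord_bound (hG : GoodDensity n q H) (hs : Std n q l lam) (G : SimpleGraph β) {φ : β → V}
    (hφ : φ ∈ emb G H) {τ : ℝ} {d₀ : ℕ} (B₂ : Finset β) (hdeg : ∀ x ∈ B₂, (nb G x).card ≤ d₀)
    (hheavy : ∀ x ∈ B₂, τ / 4 ≤ (((nb H (φ x)) ∩ univ.image φ).card : ℝ)) :
    (B₂.card : ℝ) * (τ / 4 - d₀) * lam ≤
      2 * ((Fintype.card β : ℝ) * l - ((eIn G univ).card : ℝ) * lam) := by
  obtain ⟨hinj, hhom⟩ := mem_emb.1 hφ
  set Im : Finset V := univ.image φ with hIm
  set T : Finset (Sym2 V) := eIn H Im with hT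
  set EG : Finset (Sym2 V) := (eIn G univ).image (Sym2.map φ) with hEG
  have hEGsub : EG ⊆ T := by
    intro e he
    obtain ⟨e', he', rfl⟩ := Finset.mem_image.1 he
    induction e' using Sym2.ind with
    | _ a b =>
      have hab := (mem_eIn_pair.1 he').1
      rw [Sym2.map_mk]
      exact mem_eIn_pair.2 ⟨hhom a b hab, Finset.mem_image_of_mem _ (mem_univ _),
        Finset.mem_image_of_mem _ (mem_univ _)⟩
  have hEGcard : EG.card = (eIn G univ).card :=
    Finset.card_image_of_injective _ (Sym2.map.injective hinj)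
  set D : Finset (Sym2 V) := T \ EG with hD
  have hDcard : (D.card : ℝ) = (T.card : ℝ) - (EG.card : ℝ) := by
    rw [hD, Finset.card_sdiff_of_subset hEGsub, Nat.cast_sub (Finset.card_le_card hEGsub)]
  have hTedge : ∀ e ∈ T, e ∈ H.edgeSet := by
    intro e he
    exact (Finset.mem_filter.1 he).2.1
  have hdens := density_log hG hs T hTedge
  have hvs : (vs T).card ≤ Fintype.card β := by
    have h1 : vs T ⊆ Im := by
      intro w hw
      obtain ⟨e, he, hwe⟩ := Finset.mem_biUnion.1 hw
      exact (Finset.mem_filter.1 he).2.2 w (Sym2.mem_toFinset.1 hwe)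
    calc (vs T).card ≤ Im.card := Finset.card_le_card h1
      _ ≤ (univ : Finset β).card := Finset.card_image_le
      _ = Fintype.card β := Finset.card_univ
  have hl : 0 ≤ l := by linarith [hs.l1]
  have hlam : 0 ≤ lam := by linarith [hs.lam1]
  have h1 : (T.card : ℝ) * lam ≤ (Fintype.card β : ℝ) * l := by
    refine hdens.trans (mul_le_mul_of_nonneg_right ?_ hl)
    exact_mod_cast hvs
  -- the chords at a heavy vertex
  have hcount : ∀ x ∈ B₂, τ / 4 - d₀ ≤ ((D.filter (fun e => φ x ∈ e)).card : ℝ) := by
    intro x hx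
    set N : Finset V := (nb H (φ x)) ∩ Im with hN
    set M : Finset V := (nb G x).image φ with hM
    have hMcard : M.card ≤ d₀ := Finset.card_image_le.trans (hdeg x hx)
    have h2 : N.card ≤ (N \ M).card + M.card := by
      have := Finset.card_le_card_sdiff_add_card (s := N) (t := M)
      omega
    have h3 : (N \ M).card ≤ (D.filter (fun e => φ x ∈ e)).card := by
      refine Finset.card_le_card_of_injOn (fun w => s(φ x, w)) ?_ ?_
      · intro w hw
        have hw' := Finset.mem_sdiff.1 hw
        have hwN := Finset.mem_inter.1 hw'.1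
        have hadj : H.Adj (φ x) w := mem_nb.1 hwN.1
        refine Finset.mem_filter.2 ⟨Finset.mem_sdiff.2 ⟨?_, ?_⟩, Sym2.mem_mk_left _ _⟩
        · exact mem_eIn_pair.2 ⟨hadj, Finset.mem_image_of_mem _ (mem_univ _), hwN.2⟩
        · intro hE
          obtain ⟨e', he', hee⟩ := Finset.mem_image.1 hE
          induction e' using Sym2.ind with
          | _ a b =>
            have hab := (mem_eIn_pair.1 he').1
            rw [Sym2.map_mk] at hee
            rcases Sym2.eq_iff.1 hee with ⟨h4, h5⟩ | ⟨h4, h5⟩
            · have h6 : a = x := hinj h4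
              subst h6
              exact hw'.2 (by
                rw [hM]
                exact Finset.mem_image.2 ⟨b, mem_nb.2 hab, h5⟩)
            · have h6 : b = x := hinj h5
              subst h6
              exact hw'.2 (by
                rw [hM]
                exact Finset.mem_image.2 ⟨a, mem_nb.2 hab.symm, h4⟩)
      · intro w _ w' _ hww
        exact (Sym2.congr_right.1 hww)
    have h4 := hheavy x hx
    have h5 : (N.card : ℝ) ≤ ((D.filter (fun e => φ x ∈ e)).card : ℝ) + (d₀ : ℝ) := by
      have : N.card ≤ (D.filter (fun e => φ x ∈ e)).card + d₀ := by omega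
      exact_mod_cast this
    linarith
  -- double counting
  have hdouble : ∑ x ∈ B₂, (D.filter (fun e => φ x ∈ e)).card ≤ 2 * D.card := by
    have h2 : ∑ x ∈ B₂, (D.filter (fun e => φ x ∈ e)).card
        = ∑ e ∈ D, (B₂.filter (fun x => φ x ∈ e)).card := by
      simp only [Finset.card_filter]
      rw [Finset.sum_comm]
    rw [h2]
    calc ∑ e ∈ D, (B₂.filter (fun x => φ x ∈ e)).card ≤ ∑ _e ∈ D, 2 := by
          refine Finset.sum_le_sum ?_
          intro e _
          induction e using Sym2.ind with
          | _ a b =>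
            have h3 : (B₂.filter (fun x => φ x ∈ s(a, b))).card ≤ ({a, b} : Finset V).card := by
              refine Finset.card_le_card_of_injOn φ ?_ hinj.injOn
              intro x hx
              have := (Finset.mem_filter.1 hx).2
              simpa using Sym2.mem_iff.1 this
            exact h3.trans Finset.card_le_two
      _ = 2 * D.card := by simp [mul_comm]
  have h7 : (B₂.card : ℝ) * (τ / 4 - d₀) ≤ 2 * (D.card : ℝ) := by
    have h8 : ∑ _x ∈ B₂, (τ / 4 - (d₀ : ℝ)) ≤ ∑ x ∈ B₂, ((D.filter (fun e => φ x ∈ e)).card : ℝ) :=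
      Finset.sum_le_sum hcount
    rw [Finset.sum_const, nsmul_eq_mul] at h8
    have h9 : (∑ x ∈ B₂, ((D.filter (fun e => φ x ∈ e)).card : ℝ)) ≤ 2 * (D.card : ℝ) := by
      exact_mod_cast hdouble
    linarith
  have h10 : (B₂.card : ℝ) * (τ / 4 - d₀) * lam ≤ 2 * (D.card : ℝ) * lam :=
    mul_le_mul_of_nonneg_right h7 hlam
  have h11 : (EG.card : ℝ) = ((eIn G univ).card : ℝ) := by exact_mod_cast hEGcard
  rw [hDcard, h11] at h10
  nlinarith

end Vale.Agent.Lib.P064U
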