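import Vale.Agent.Lib.P064U.WPeel

/-!
Part W6c: connected graphs, all types.
-/

open Finset

namespace Vale.Agent.Lib.P064U

open Vale.Agent.Lib.P064 Vale.Agent.Lib.P064E
open scoped Classical

variable {V β : Type} [Fintype V] [Fintype β] {H : SimpleGraph V} {n : ℕ} {q l lam : ℝ}

/-- The connected case: sum `typed_bound` over the `2^v` types. -/
theorem conn_bound (hG : GoodDensity n q H) {τ Δ K : ℝ} {p d₀ : ℕ} (hV : Fintype.card V ≤ n)
    (hpar : WPar n q l lam τ Δ K p d₀)
    (G : SimpleGraph β) [Nonempty β]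
    (hconn : ∀ D : Finset β, D.Nonempty → D ≠ univ → ∃ u ∈ D, ∃ w, w ∉ D ∧ G.Adj u w) :
    ((emb G H).card : ℝ) ≤
      Real.exp (8 * (Fintype.card β : ℝ) + 5 * ((eIn G univ).card : ℝ)) * K ^ (eIn G univ).card *
        ((n : ℝ) ^ Fintype.card β * q ^ (eIn G univ).card) := by
  set X : ℝ := Real.exp (7 * (Fintype.card β : ℝ) + 5 * ((eIn G univ).card : ℝ)) *
      K ^ (eIn G univ).card * ((n : ℝ) ^ Fintype.card β * q ^ (eIn G univ).card) with hX
  have hsub : emb G H ⊆ (univ : Finset (Finset β)).biUnion fun B => typed G H τ B := by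
    intro φ hφ
    refine Finset.mem_biUnion.2 ⟨univ.filter fun x => τ ≤ ((nb H (φ x)).card : ℝ), mem_univ _, ?_⟩
    refine Finset.mem_filter.2 ⟨hφ, fun x => ?_⟩
    simp
  have hcard : ((emb G H).card : ℝ) ≤ ∑ B : Finset β, ((typed G H τ B).card : ℝ) := by
    have h1 := (Finset.card_le_card hsub).trans Finset.card_biUnion_le
    exact_mod_cast h1
  have hsum : ∑ B : Finset β, ((typed G H τ B).card : ℝ) ≤ ∑ _B : Finset β, X := by
    refine Finset.sum_le_sum fun B _ => ?_
    exact typed_bound (H := H) hG hV hpar _ β G B rfl inferInstance hconn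
  have hcst : ∑ _B : Finset β, X = (2 : ℝ) ^ Fintype.card β * X := by
    rw [Finset.sum_const, Finset.card_univ, Fintype.card_finset, nsmul_eq_mul]
    push_cast
    ring
  have h2 : (2 : ℝ) ^ Fintype.card β ≤ Real.exp (Fintype.card β : ℝ) := by
    have h3 : Real.exp (Fintype.card β : ℝ) = Real.exp 1 ^ Fintype.card β := by
      rw [← Real.exp_nat_mul]
      norm_num
    rw [h3]
    refine pow_le_pow_left₀ (by norm_num) ?_ _
    have := Real.add_one_le_exp (1 : ℝ)
    linarith
  have hK0 : 0 < K := by linarith [hpar.τK, hpar.τ32]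
  have hq0 : 0 < q := hpar.std.q0
  have hY0 : 0 ≤ K ^ (eIn G univ).card * ((n : ℝ) ^ Fintype.card β * q ^ (eIn G univ).card) := by
    positivity
  calc ((emb G H).card : ℝ) ≤ ∑ B : Finset β, ((typed G H τ B).card : ℝ) := hcard
    _ ≤ (2 : ℝ) ^ Fintype.card β * X := hsum.trans_eq hcst
    _ ≤ Real.exp (Fintype.card β : ℝ) * X := by
        refine mul_le_mul_of_nonneg_right h2 ?_
        rw [hX]
        positivity
    _ = Real.exp (8 * (Fintype.card β : ℝ) + 5 * ((eIn G univ).card : ℝ)) * K ^ (eIn G univ).card *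
        ((n : ℝ) ^ Fintype.card β * q ^ (eIn G univ).card) := by
        have h5 : Real.exp (8 * (Fintype.card β : ℝ) + 5 * ((eIn G univ).card : ℝ)) =
            Real.exp (Fintype.card β : ℝ) *
              Real.exp (7 * (Fintype.card β : ℝ) + 5 * ((eIn G univ).card : ℝ)) := by
          rw [← Real.exp_add]
          congr 1
          ring
        rw [hX, h5]
        ring

end Vale.Agent.Lib.P064U
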