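import Vale.Agent.Lib.P064U.WDefs

/-!
The numeric parameters of the window bound (notes/P064U_W2.md).
-/

open Finset

namespace Vale.Agent.Lib.P064U

open Vale.Agent.Lib.P064 Vale.Agent.Lib.P064E
open scoped Classical

variable {V β : Type}

/-- The numeric parameters of the window bound. -/
structure WPar (n : ℕ) (q l lam : ℝ) (τ Δ K : ℝ) (p d₀ : ℕ) : Prop where
  std : Std n q l lam
  D1 : 1 ≤ (n : ℝ) * q
  τ32 : 32 ≤ τ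
  τK : τ ≤ K
  Δ1 : 1 ≤ Δ
  Δdeg : Real.exp 2 * ((n : ℝ) * q + l) ≤ Δ
  d₀1 : 1 ≤ d₀
  A : Δ ≤ K * d₀
  τ8 : 8 * l ≤ τ * lam
  hall : ((p : ℝ) + 1) * (2 * l) ≤ τ * lam
  N5 : (1 + (p : ℝ)) * (((n : ℝ) * q) ^ p / p.factorial) * Δ ^ (d₀ + 1) ≤ 1
  N8 : Δ ^ 2 ≤ Real.exp d₀
  N7a : ((d₀ + 1 : ℕ) : ℝ) ≤ τ / 32
  N7b : 2 * (l - lam) * Real.log Δ ≤ lam

/-- Embeddings of `G` with hub set exactly `B`. -/
noncomputable def typed [Fintype V] [Fintype β] (G : SimpleGraph β) (H : SimpleGraph V) (τ : ℝ) (B : Finset β) :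
    Finset (β → V) :=
  (emb G H).filter fun φ => ∀ x, x ∈ B ↔ τ ≤ ((nb H (φ x)).card : ℝ)

end Vale.Agent.Lib.P064U
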