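import Vale.Agent.Lib.P064U.WDeco
import Vale.Agent.Lib.P064U.WAnchor
import Vale.Agent.Lib.P064U.WWalk
import Vale.Agent.Lib.P064U.WAcc2
import Vale.Agent.Lib.P064U.WAcc
import Vale.Agent.Lib.P064U.WAccN2
import Vale.Agent.Lib.P064U.WChord
import Vale.Agent.Lib.P064U.WPar

/-!
Part W6: the bound for a connected graph with a type in which all leaves hang at hubs (notes/P064U_W2.md, Step 2, 3).
-/

open Finset

namespace Vale.Agent.Lib.P064U

open Vale.Agent.Lib.P064 Vale.Agent.Lib.P064E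
open scoped Classical

variable {V β : Type} [Fintype V] [Fintype β] {H : SimpleGraph V} {n : ℕ} {q l lam : ℝ}

/-- The edges at a vertex are edges. -/
lemma nb_card_le_eIn (G : SimpleGraph β) (x : β) : (nb G x).card ≤ (eIn G univ).card := by
  refine Finset.card_le_card_of_injOn (fun y => s(x, y)) ?_ ?_
  · intro y hy
    have hy' : G.Adj x y := mem_nb.1 hy
    exact mem_eIn_pair.2 ⟨hy', mem_univ _, mem_univ _⟩
  · intro y hy y' hy' h
    have h1 : s(x, y) = s(x, y') := h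
    have h2 := Sym2.congr_right.1 h1
    exact h2

/-- Numeric: the chord-heavy vertices pay. -/
lemma b2_numeric {b τ lam l lD d v e : ℝ} (hb1 : 1 ≤ b) (hlam0 : 0 < lam) (hlaml : lam ≤ l) (hlogΔ : 0 ≤ lD)
    (hτ : 32 ≤ τ) (hd32 : d + 1 ≤ τ / 32) (hN7b : 2 * (l - lam) * lD ≤ lam) (hve : v - 1 ≤ e)
    (hv0 : 0 ≤ v) (hd0 : 0 ≤ d)
    (hc : b * (τ / 4 - d) * lam ≤ 2 * (v * l - e * lam)) : (d + 1) * b * lD ≤ v := by
  have hτ8 : τ / 8 ≤ τ / 4 - d := by linarith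
  have hb0 : 0 ≤ b := by linarith
  have h1 : b * (τ / 8) * lam ≤ 2 * (v * l - e * lam) := by
    refine le_trans ?_ hc
    apply mul_le_mul_of_nonneg_right _ hlam0.le
    exact mul_le_mul_of_nonneg_left hτ8 hb0
  have h2 : v * l - e * lam ≤ v * (l - lam) + lam := by
    have : (v - 1) * lam ≤ e * lam := mul_le_mul_of_nonneg_right hve hlam0.le
    nlinarith
  have h3 : 4 * lam ≤ b * (τ / 8) * lam := by
    have h4 : (4 : ℝ) ≤ b * (τ / 8) := by
      have h5 : (4 : ℝ) ≤ τ / 8 := by linarith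
      nlinarith
    exact mul_le_mul_of_nonneg_right h4 hlam0.le
  have h5 : lam ≤ v * (l - lam) := by linarith
  have h6 : b * τ * lam ≤ 32 * (v * (l - lam)) := by nlinarith
  have h8 : (d + 1) * (b * lam) ≤ (τ / 32) * (b * lam) :=
    mul_le_mul_of_nonneg_right hd32 (by positivity)
  have h7 : (d + 1) * b * lam ≤ v * (l - lam) := by nlinarith
  have h10 : (d + 1) * b * lam * lD ≤ v * (l - lam) * lD := mul_le_mul_of_nonneg_right h7 hlogΔ
  have h11 : v * ((l - lam) * lD) ≤ v * (lam / 2) := mul_le_mul_of_nonneg_left (by linarith) hv0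
  have hv1 : 0 ≤ v * lam := by positivity
  have h9 : (d + 1) * b * lD * lam ≤ v * lam := by nlinarith
  exact le_of_mul_le_mul_right h9 hlam0

/-- Numeric: the non-tree vertices pay. -/
lemma d_numeric {lam l lD d v e : ℝ} (hlam0 : 0 < lam) (hlaml : lam ≤ l) (hlogΔ : 0 ≤ lD)
    (hN7b : 2 * (l - lam) * lD ≤ lam) (hle : 2 * lD ≤ e) (hdens : e * lam ≤ v * l)
    (hdR : d + 2 * (v - 1) ≤ 2 * e) (hv0 : 0 ≤ v) (hd0 : 0 ≤ d) : d * lD ≤ v + e := by
  have h1 : d * lam ≤ 2 * (v * (l - lam)) + 2 * lam := by nlinarith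
  have h3 : d * lam * lD ≤ (2 * (v * (l - lam)) + 2 * lam) * lD := mul_le_mul_of_nonneg_right h1 hlogΔ
  have h4 : v * (2 * (l - lam) * lD) ≤ v * lam := mul_le_mul_of_nonneg_left hN7b hv0
  have h5 : lam * (2 * lD) ≤ lam * e := mul_le_mul_of_nonneg_left hle hlam0.le
  have h2 : d * lD * lam ≤ (v + e) * lam := by nlinarith
  exact le_of_mul_le_mul_right h2 hlam0

/-- The count at a fixed root. -/
theorem core_root (hG : GoodDensity n q H) {τ Δ K : ℝ} {p d₀ : ℕ} (hV : Fintype.card V ≤ n)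
    (hpar : WPar n q l lam τ Δ K p d₀)
    (G : SimpleGraph β) [Nonempty β]
    (hconn : ∀ D : Finset β, D.Nonempty → D ≠ univ → ∃ u ∈ D, ∃ w, w ∉ D ∧ G.Adj u w)
    (B Zb B₂ D : Finset β) (hleaf : ∀ y x, (nb G y).card = 1 → G.Adj y x → x ∈ B)
    (hB : B = Zb ∪ B₂ ∪ D) (hZb : ∀ x ∈ Zb, d₀ < (nb G x).card)
    (hB₂d : ∀ x ∈ B₂, (nb G x).card ≤ d₀) (hDd : ∀ x ∈ D, (nb G x).card ≤ d₀)
    (E : Finset (β → V)) (hE : ∀ φ ∈ E, φ ∈ emb G H)
    (hEB : ∀ φ ∈ E, ∀ x, x ∈ B ↔ τ ≤ ((nb H (φ x)).card : ℝ))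
    {φ₀ : β → V} (hφ₀ : φ₀ ∈ E)
    (hEheavy : ∀ x ∈ B₂, τ / 4 ≤ (((nb H (φ₀ x)) ∩ univ.image φ₀).card : ℝ))
    {A : Finset V} {hh : ℝ} (hh0 : 0 ≤ hh)
    (hAcard : (A.card : ℝ) ≤ 2 * hh * ((Fintype.card β : ℝ) + (p : ℝ) * D.card))
    (hh' : hh ≤ Real.exp 1 * ((n : ℝ) ^ Fintype.card β * q ^ (eIn G univ).card) *
        (((n : ℝ) * q) ^ p / p.factorial) ^ D.card * (∏ x ∈ Zb, (((twins G D x).card).factorial : ℝ))⁻¹)
    (z : β) :
    ∑ a ∈ A, (((E.filter fun φ => φ z = a).card : ℕ) : ℝ) ≤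
      2 * Real.exp 1 * ((n : ℝ) ^ Fintype.card β * q ^ (eIn G univ).card) *
        ((Fintype.card β : ℝ) * Real.exp (2 * (Fintype.card β : ℝ) + 5 * ((eIn G univ).card : ℝ)) * K ^ (eIn G univ).card) := by
  have hs := hpar.std
  set v := Fintype.card β with hv
  set e := (eIn G univ).card with he
  set R : ℝ := (n : ℝ) ^ v * q ^ e with hR
  have hl1 := hs.l1
  have hlam1 := hs.lam1
  have hq0 := hs.q0
  have hτ1 : (1 : ℝ) ≤ τ := by linarith [hpar.τ32]
  have hK1 : (1 : ℝ) ≤ K := hτ1.trans hpar.τK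
  have hR0 : 0 ≤ R := by positivity
  have hΔ1 := hpar.Δ1
  have hlogΔ : 0 ≤ Real.log Δ := Real.log_nonneg hΔ1
  have hv1 : 1 ≤ v := Fintype.card_pos
  have hd₀1 : 1 ≤ d₀ := hpar.d₀1
  set tw : β → ℕ := fun x => (twins G D x).card with htw
  set Tw : ℝ := ∏ x ∈ Zb, ((tw x).factorial : ℝ) with hTw
  have hTw0 : 0 < Tw := Finset.prod_pos fun x _ => by positivity
  set D₀ : ℝ := (n : ℝ) * q with hD₀
  have hD₀0 : 0 ≤ D₀ := by positivity
  set Gain : ℝ := (D₀ ^ p / p.factorial) ^ D.card with hGain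
  have hGain0 : 0 ≤ Gain := by positivity
  have hdens : (e : ℝ) * lam ≤ (v : ℝ) * l := by
    have h1 := chord_bound (τ := 0) (d₀ := 0) hG hs G (hE φ₀ hφ₀) ∅ (by simp) (by simp)
    simp only [Finset.card_empty, Nat.cast_zero, zero_mul] at h1
    linarith
  have hlam0 : 0 < lam := by linarith
  have hlaml : lam ≤ l := hs.lam_le
  have hf : ∀ φ ∈ E, ∀ x, ((nb H (φ x)).card : ℝ) ≤ if x ∈ B then Δ else τ := by
    intro φ hφ x
    by_cases hx : x ∈ B
    · rw [if_pos hx]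
      have h1 := degree_bound hG hq0 hs.q1 hs.n1 hV hpar.D1 (φ x)
      have h2 : ((nb H (φ x)).card : ℝ) = (((univ : Finset V).filter (fun b => H.Adj (φ x) b)).card : ℝ) := rfl
      rw [h2]
      refine h1.trans ?_
      rw [← hs.l_eq]
      exact hpar.Δdeg
    · rw [if_neg hx]
      have h1 := (hEB φ hφ x).not.1 hx
      linarith [not_le.1 h1]
  obtain ⟨par, r, hparz, hparv⟩ := exists_par_rank (F := G) (I := univ) (x := z) (mem_univ z)
    (fun D' hD' _ hne => by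
      obtain ⟨u, hu, w, hw, ha⟩ := hconn D' hD' hne
      exact ⟨u, hu, w, Finset.mem_sdiff.2 ⟨mem_univ _, hw⟩, ha⟩)
  have hpar' : ∀ v', v' ≠ z → r (par v') < r v' ∧ G.Adj (par v') v' := fun v' hv' =>
    ⟨(hparv v' (mem_univ _) hv').2.1, (hparv v' (mem_univ _) hv').2.2⟩
  set W : ℝ := ∏ y ∈ univ.erase z, (if par y ∈ B then Δ else τ) with hW
  have hwalk : ∀ a : V, (((E.filter fun φ => φ z = a).card : ℕ) : ℝ) ≤ W := fun a =>
    walk_count G E hE z a par r hparz hpar' (fun x => if x ∈ B then Δ else τ)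
      (fun x => by split_ifs <;> linarith) hf
  obtain ⟨a', d, ℓ', hd1, hd2, hve, hsum, htwle, hprod⟩ :=
    acc_partition2 G z par r hparz hpar' d₀ Zb B₂ D B hB₂d hDd hB hleaf hτ1 hΔ1
  have hveR : (v : ℝ) - 1 ≤ e := by
    have h1 : ((v - 1 : ℕ) : ℝ) ≤ e := by exact_mod_cast hve
    rwa [Nat.cast_sub hv1, Nat.cast_one] at h1
  have hN8 : Δ ≤ Real.exp d₀ := by
    have h1 : Δ ≤ Δ ^ 2 := by nlinarith
    exact h1.trans hpar.N8
  have hlogN8 : 2 * Real.log Δ ≤ d₀ := by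
    have h1 := Real.log_le_log (by positivity) hpar.N8
    rw [Real.log_pow, Real.log_exp] at h1
    simpa using h1
  have hB₂' : ((d₀ + 1 : ℕ) : ℝ) * B₂.card * Real.log Δ ≤ v := by
    rcases B₂.eq_empty_or_nonempty with hemp | hne
    · rw [hemp]
      simp
    have hb1 : (1 : ℝ) ≤ B₂.card := by exact_mod_cast Finset.card_pos.2 hne
    have hc := chord_bound hG hs G (hE φ₀ hφ₀) (τ := τ) (d₀ := d₀) B₂ hB₂d hEheavy
    have hcast : ((d₀ + 1 : ℕ) : ℝ) = (d₀ : ℝ) + 1 := by push_cast; ring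
    have h : ((d₀ : ℝ) + 1) * (B₂.card : ℝ) * Real.log Δ ≤ v :=
      b2_numeric hb1 hlam0 hlaml hlogΔ hpar.τ32 (by
        have h2 := hpar.N7a
        rw [hcast] at h2
        exact h2) hpar.N7b hveR (Nat.cast_nonneg _) (Nat.cast_nonneg _) hc
    rw [hcast]
    exact h
  have hdΔ : (d : ℝ) * Real.log Δ ≤ v + e := by
    by_cases hd0 : d = 0
    · rw [hd0]
      simp only [Nat.cast_zero, zero_mul]
      positivity
    have hZne : Zb ≠ ∅ := fun hZ => hd0 (hd2 hZ)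
    obtain ⟨x, hx⟩ := Finset.nonempty_iff_ne_empty.2 hZne
    have hde : (d₀ : ℝ) ≤ e := by
      have h1 := hZb x hx
      have h2 := nb_card_le_eIn G x
      exact_mod_cast (le_of_lt h1).trans h2
    have hdR : (d : ℝ) + 2 * ((v : ℝ) - 1) ≤ 2 * e := by
      have h1 : ((d + 2 * (v - 1) : ℕ) : ℝ) ≤ ((2 * e : ℕ) : ℝ) := by exact_mod_cast hd1
      push_cast [Nat.cast_sub hv1] at h1
      linarith
    exact d_numeric hlam0 hlaml hlogΔ hpar.N7b (hlogN8.trans hde) hdens hdR (Nat.cast_nonneg _) (Nat.cast_nonneg _)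
  have hZe : d₀ * Zb.card ≤ 2 * e := by
    have h1 := card_big_le G d₀ (univ.filter fun x => d₀ < (nb G x).card)
      (fun x => by simp)
    refine le_trans (Nat.mul_le_mul_left _ (Finset.card_le_card ?_)) h1
    intro x hx
    exact Finset.mem_filter.2 ⟨mem_univ _, hZb x hx⟩
  have hDv : D.card ≤ v := Finset.card_le_univ D
  have hnum := acc_numeric2 (v := v) (e := e) (a := a') (d := d) (p := p) (d₀ := d₀) Zb B₂ D ℓ' tw
    (τ := τ) (Δ := Δ) (K := K) (D₀ := D₀) hτ1 hpar.τK hΔ1 hD₀0 hd₀1 hpar.A hpar.N5 hN8 hB₂' hdΔ hZe hDv hv1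
    hve hsum htwle
  set P : ℝ := τ ^ a' * Δ ^ (d + ∑ x ∈ Zb, ℓ' x + (d₀ + 1) * (D.card + B₂.card) + Zb.card) with hP
  have hW0 : 0 ≤ W := Finset.prod_nonneg fun y _ => by split_ifs <;> linarith
  have hsumA : ∑ a ∈ A, (((E.filter fun φ => φ z = a).card : ℕ) : ℝ) ≤ (A.card : ℝ) * W := by
    have := Finset.sum_le_card_nsmul A (fun a => (((E.filter fun φ => φ z = a).card : ℕ) : ℝ)) W
      (fun a _ => hwalk a)
    simpa [nsmul_eq_mul] using this
  have hsize0 : 0 ≤ (v : ℝ) + (p : ℝ) * D.card := by positivity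
  have hP0 : 0 ≤ P := by positivity
  have hA0 : (0:ℝ) ≤ 2 * hh * ((v : ℝ) + (p : ℝ) * D.card) := by positivity
  calc ∑ a ∈ A, (((E.filter fun φ => φ z = a).card : ℕ) : ℝ) ≤ (A.card : ℝ) * W := hsumA
    _ ≤ (2 * hh * ((v : ℝ) + (p : ℝ) * D.card)) * P :=
        mul_le_mul hAcard hprod hW0 hA0
    _ ≤ (2 * (Real.exp 1 * R * Gain * Tw⁻¹) * ((v : ℝ) + (p : ℝ) * D.card)) * P := by
        gcongr
    _ = 2 * Real.exp 1 * R * ((((v : ℝ) + (p : ℝ) * D.card) * Gain) * (Tw⁻¹ * P)) := by ring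
    _ ≤ _ := mul_le_mul_of_nonneg_left hnum (by positivity)

/-- The core count for a fixed set of chord-heavy vertices. -/
theorem core_fixed (hG : GoodDensity n q H) {τ Δ K : ℝ} {p d₀ : ℕ} (hV : Fintype.card V ≤ n)
    (hpar : WPar n q l lam τ Δ K p d₀)
    (G : SimpleGraph β) [Nonempty β] (hiso : ∀ x, ∃ y, G.Adj x y)
    (hconn : ∀ D : Finset β, D.Nonempty → D ≠ univ → ∃ u ∈ D, ∃ w, w ∉ D ∧ G.Adj u w)
    (B Zb B₂ D : Finset β) (hleaf : ∀ y x, (nb G y).card = 1 → G.Adj y x → x ∈ B)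
    (hB : B = Zb ∪ B₂ ∪ D) (hZb : ∀ x ∈ Zb, d₀ < (nb G x).card)
    (hB₂d : ∀ x ∈ B₂, (nb G x).card ≤ d₀) (hDd : ∀ x ∈ D, (nb G x).card ≤ d₀)
    (E : Finset (β → V)) (hE : ∀ φ ∈ E, φ ∈ emb G H)
    (hEB : ∀ φ ∈ E, ∀ x, x ∈ B ↔ τ ≤ ((nb H (φ x)).card : ℝ))
    (hEheavy : ∀ φ ∈ E, ∀ x ∈ B₂, τ / 4 ≤ (((nb H (φ x)) ∩ univ.image φ).card : ℝ))
    (hElight : ∀ φ ∈ E, ∀ x ∈ D, (((nb H (φ x)) ∩ univ.image φ).card : ℝ) < τ / 4) :
    (E.card : ℝ) ≤ (Fintype.card β : ℝ) *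
      (2 * Real.exp 1 * ((n : ℝ) ^ Fintype.card β * q ^ (eIn G univ).card) *
        ((Fintype.card β : ℝ) * Real.exp (2 * (Fintype.card β : ℝ) + 5 * ((eIn G univ).card : ℝ)) * K ^ (eIn G univ).card)) := by
  have hs := hpar.std
  set v := Fintype.card β with hv
  set e := (eIn G univ).card with he
  set R : ℝ := (n : ℝ) ^ v * q ^ e with hR
  have hq0 := hs.q0
  have hτ1 : (1 : ℝ) ≤ τ := by linarith [hpar.τ32]
  have hK1 : (1 : ℝ) ≤ K := hτ1.trans hpar.τK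
  have hR0 : 0 ≤ R := by positivity
  rcases E.eq_empty_or_nonempty with rfl | ⟨φ₀, hφ₀⟩
  · simp only [Finset.card_empty, Nat.cast_zero]
    positivity
  have hτ0 : 0 < τ := by linarith
  obtain ⟨h, ψ, A, hψinj, hψhom, hψdis, hAcard, hAhit⟩ :=
    anchor (p := p) hG hs hτ0 hpar.τ8 hpar.hall G E hE D
      (fun φ hφ x hx => (hEB φ hφ x).1 (by rw [hB]; exact Finset.mem_union_right _ hx))
      hElight
  have hedge : 1 ≤ e := by
    obtain ⟨x⟩ := (inferInstance : Nonempty β)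
    have h1 : 1 ≤ (nb G x).card := by
      obtain ⟨y, hy⟩ := hiso x
      exact Finset.card_pos.2 ⟨y, mem_nb.2 hy⟩
    exact h1.trans (nb_card_le_eIn G x)
  have hh : 1 ≤ h := by
    by_contra hcon
    have h0 : h = 0 := by omega
    rw [h0] at hAcard
    have hA0 : (A.card : ℝ) ≤ 0 := by simpa using hAcard
    have hA1 : A.card = 0 := by
      have : (A.card : ℝ) = 0 := le_antisymm hA0 (Nat.cast_nonneg _)
      exact_mod_cast this
    obtain ⟨z, hz⟩ := hAhit φ₀ hφ₀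
    rw [Finset.card_eq_zero] at hA1
    rw [hA1] at hz
    simp at hz
  have hd₀1 : 1 ≤ d₀ := hpar.d₀1
  have hhb := deco_h_bound hG hq0 hs.q1 G D Zb p
    (fun x hx => by have := hZb x hx; omega) hedge hh ψ hψinj hψhom hψdis
  set Tw : ℝ := ∏ x ∈ Zb, (((twins G D x).card).factorial : ℝ) with hTw
  have hTw0 : 0 < Tw := Finset.prod_pos fun x _ => by positivity
  set D₀ : ℝ := (n : ℝ) * q with hD₀
  have hfac0 : (0 : ℝ) < p.factorial := by positivity
  have hh' : (h : ℝ) ≤ Real.exp 1 * R * (D₀ ^ p / p.factorial) ^ D.card * Tw⁻¹ := by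
    have h1 : (h : ℝ) * (((p.factorial : ℝ) ^ D.card) * Tw) ≤ Real.exp 1 * (R * (D₀ ^ p) ^ D.card) := hhb
    have h2 : (0 : ℝ) < ((p.factorial : ℝ) ^ D.card) * Tw := by positivity
    have h3 : (h : ℝ) ≤ Real.exp 1 * (R * (D₀ ^ p) ^ D.card) / (((p.factorial : ℝ) ^ D.card) * Tw) :=
      (le_div_iff₀ h2).2 h1
    refine h3.trans (le_of_eq ?_)
    rw [div_pow]
    field_simp
  have hz : ∀ z : β, ∑ a ∈ A, (((E.filter fun φ => φ z = a).card : ℕ) : ℝ) ≤ _ := fun z =>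
    core_root hG hV hpar G hconn B Zb B₂ D hleaf hB hZb hB₂d hDd E hE hEB hφ₀ (hEheavy φ₀ hφ₀)
      (A := A) (hh := (h : ℝ)) (Nat.cast_nonneg _) hAcard hh' z
  have hcover : E ⊆ univ.biUnion fun z : β => A.biUnion fun a => E.filter fun φ => φ z = a := by
    intro φ hφ
    obtain ⟨z, hz'⟩ := hAhit φ hφ
    exact Finset.mem_biUnion.2 ⟨z, mem_univ _, Finset.mem_biUnion.2 ⟨φ z, hz', Finset.mem_filter.2 ⟨hφ, rfl⟩⟩⟩
  have hcard1 : (E.card : ℝ) ≤ ∑ z : β, ∑ a ∈ A, (((E.filter fun φ => φ z = a).card : ℕ) : ℝ) := by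
    have h1 : E.card ≤ ∑ z : β, ∑ a ∈ A, (E.filter fun φ => φ z = a).card := by
      refine (Finset.card_le_card hcover).trans ?_
      refine Finset.card_biUnion_le.trans ?_
      exact Finset.sum_le_sum fun z _ => Finset.card_biUnion_le
    exact_mod_cast h1
  refine hcard1.trans ?_
  have hsum := Finset.sum_le_sum (s := (univ : Finset β)) fun z _ => hz z
  refine hsum.trans (le_of_eq ?_)
  rw [Finset.sum_const, Finset.card_univ, nsmul_eq_mul]

/-- The core bound: sum over `B₂ ⊂ B \ Z`; `anchor`, `deco_h_bound`, `walk_count`, `acc_partition2`, `chord_bound`, `acc_numeric2`. -/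
theorem core_bound (hG : GoodDensity n q H) {τ Δ K : ℝ} {p d₀ : ℕ} (hV : Fintype.card V ≤ n)
    (hpar : WPar n q l lam τ Δ K p d₀)
    (G : SimpleGraph β) [Nonempty β] (hiso : ∀ x, ∃ y, G.Adj x y)
    (hconn : ∀ D : Finset β, D.Nonempty → D ≠ univ → ∃ u ∈ D, ∃ w, w ∉ D ∧ G.Adj u w)
    (B : Finset β) (hleaf : ∀ y x, (nb G y).card = 1 → G.Adj y x → x ∈ B) :
    ((typed G H τ B).card : ℝ) ≤
      Real.exp (7 * (Fintype.card β : ℝ) + 5 * ((eIn G univ).card : ℝ)) * K ^ (eIn G univ).card *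
        ((n : ℝ) ^ Fintype.card β * q ^ (eIn G univ).card) := by
  have hs := hpar.std
  set v := Fintype.card β with hv
  set e := (eIn G univ).card with he
  set R : ℝ := (n : ℝ) ^ v * q ^ e with hR
  have hq0 := hs.q0
  have hτ1 : (1 : ℝ) ≤ τ := by linarith [hpar.τ32]
  have hK1 : (1 : ℝ) ≤ K := hτ1.trans hpar.τK
  set Zs : Finset β := univ.filter fun x => d₀ < (nb G x).card with hZs
  set Zb : Finset β := B ∩ Zs with hZb
  set N : Finset β := B \ Zs with hN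
  let heavy : (β → V) → Finset β := fun φ =>
    N.filter fun x => τ / 4 ≤ (((nb H (φ x)) ∩ univ.image φ).card : ℝ)
  have hsub : ∀ φ ∈ typed G H τ B, heavy φ ∈ N.powerset := fun φ _ =>
    Finset.mem_powerset.2 (Finset.filter_subset _ _)
  have hv1 : 1 ≤ v := Fintype.card_pos
  have hv1R : (1 : ℝ) ≤ v := by exact_mod_cast hv1
  set Bnd : ℝ := (v : ℝ) * (2 * Real.exp 1 * R *
    ((v : ℝ) * Real.exp (2 * (v : ℝ) + 5 * (e : ℝ)) * K ^ e)) with hBnd
  have hfib : ∀ B₂ ∈ N.powerset, (((typed G H τ B).filter fun φ => heavy φ = B₂).card : ℝ) ≤ Bnd := by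
    intro B₂ hB₂
    have hB₂N : B₂ ⊆ N := Finset.mem_powerset.1 hB₂
    set E := (typed G H τ B).filter fun φ => heavy φ = B₂ with hE
    have hEt : ∀ φ ∈ E, φ ∈ typed G H τ B := fun φ hφ => (Finset.mem_filter.1 hφ).1
    have hEh : ∀ φ ∈ E, heavy φ = B₂ := fun φ hφ => (Finset.mem_filter.1 hφ).2
    refine core_fixed hG hV hpar G hiso hconn B Zb B₂ (N \ B₂) hleaf ?_ ?_ ?_ ?_ E
      (fun φ hφ => (Finset.mem_filter.1 (hEt φ hφ)).1) (fun φ hφ => (Finset.mem_filter.1 (hEt φ hφ)).2) ?_ ?_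
    · ext x
      simp only [hZb, hN, Finset.mem_union, Finset.mem_inter, Finset.mem_sdiff]
      have hB₂x : x ∈ B₂ → x ∈ B := fun h => (Finset.mem_sdiff.1 (hB₂N h)).1
      tauto
    · intro x hx
      exact (Finset.mem_filter.1 (Finset.mem_inter.1 hx).2).2
    · intro x hx
      have h1 := (Finset.mem_sdiff.1 (hB₂N hx)).2
      have h2 : ¬ d₀ < (nb G x).card := fun h => h1 (Finset.mem_filter.2 ⟨mem_univ _, h⟩)
      omega
    · intro x hx
      have h1 := (Finset.mem_sdiff.1 (Finset.mem_sdiff.1 hx).1).2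
      have h2 : ¬ d₀ < (nb G x).card := fun h => h1 (Finset.mem_filter.2 ⟨mem_univ _, h⟩)
      omega
    · intro φ hφ x hx
      rw [← hEh φ hφ] at hx
      exact (Finset.mem_filter.1 hx).2
    · intro φ hφ x hx
      obtain ⟨hxN, hxB⟩ := Finset.mem_sdiff.1 hx
      by_contra hcon
      push Not at hcon
      apply hxB
      rw [← hEh φ hφ]
      exact Finset.mem_filter.2 ⟨hxN, hcon⟩
  have hBnd0 : 0 ≤ Bnd := by positivity
  have hcard : ((typed G H τ B).card : ℝ) ≤ (N.powerset.card : ℝ) * Bnd := by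
    have h1 := Finset.card_eq_sum_card_fiberwise (s := typed G H τ B) (t := N.powerset) (f := heavy)
      (fun φ hφ => hsub φ (Finset.mem_coe.1 hφ))
    have h2 : ((typed G H τ B).card : ℝ) =
        ∑ B₂ ∈ N.powerset, (((typed G H τ B).filter fun φ => heavy φ = B₂).card : ℝ) := by
      rw [h1]
      push_cast
      rfl
    rw [h2]
    have := Finset.sum_le_card_nsmul N.powerset
      (fun B₂ => (((typed G H τ B).filter fun φ => heavy φ = B₂).card : ℝ)) Bnd hfib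
    simpa [nsmul_eq_mul] using this
  refine hcard.trans ?_
  have hNv : (N.powerset.card : ℝ) ≤ Real.exp v := by
    rw [Finset.card_powerset]
    have h1 : N.card ≤ v := Finset.card_le_univ N
    have h2 : ((2 ^ N.card : ℕ) : ℝ) ≤ (2 : ℝ) ^ v := by
      push_cast
      exact pow_le_pow_right₀ (by norm_num) h1
    refine h2.trans ?_
    rw [← Real.exp_one_pow]
    have h3 : (2 : ℝ) ≤ Real.exp 1 := by
      have := Real.add_one_le_exp (1 : ℝ)
      linarith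
    exact pow_le_pow_left₀ (by norm_num) h3 v
  have hvexp : (v : ℝ) ≤ Real.exp v := by
    have := Real.add_one_le_exp (v : ℝ)
    linarith
  have h2e : 2 * Real.exp 1 ≤ Real.exp (2 * (v : ℝ)) := by
    have h3 : (2 : ℝ) ≤ Real.exp 1 := by
      have := Real.add_one_le_exp (1 : ℝ)
      linarith
    have h4 : Real.exp 1 * Real.exp 1 ≤ Real.exp (2 * (v : ℝ)) := by
      rw [← Real.exp_add]
      exact Real.exp_le_exp.2 (by linarith)
    nlinarith [Real.exp_pos (1 : ℝ)]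
  have hR0 : 0 ≤ R := by positivity
  have hK0 : 0 ≤ K ^ e := by positivity
  have hexp : Real.exp (7 * (v : ℝ) + 5 * (e : ℝ)) =
      Real.exp v * Real.exp v * Real.exp (2 * (v : ℝ)) * Real.exp v * Real.exp (2 * (v : ℝ) + 5 * (e : ℝ)) := by
    rw [← Real.exp_add, ← Real.exp_add, ← Real.exp_add, ← Real.exp_add]
    congr 1
    ring
  rw [hexp]
  calc (N.powerset.card : ℝ) * Bnd
      ≤ Real.exp v * Bnd := mul_le_mul_of_nonneg_right hNv hBnd0
    _ = Real.exp v * (v : ℝ) * (2 * Real.exp 1) * (v : ℝ) * Real.exp (2 * (v : ℝ) + 5 * (e : ℝ)) * (K ^ e * R) := by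
        rw [hBnd]
        ring
    _ ≤ Real.exp v * Real.exp v * Real.exp (2 * (v : ℝ)) * Real.exp v * Real.exp (2 * (v : ℝ) + 5 * (e : ℝ)) * (K ^ e * R) := by
        gcongr
    _ = _ := by ring

end Vale.Agent.Lib.P064U
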