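import Vale.Agent.Lib.P064U.WCopies

/-!
Part W2: the decorated graph: size, twin classes, and the bound for pairwise disjoint decorated copies.
-/

open Finset

namespace Vale.Agent.Lib.P064U

open Vale.Agent.Lib.P064 Vale.Agent.Lib.P064E
open scoped Classical

variable {V β : Type} [Fintype β] {H : SimpleGraph V} {n : ℕ} {q : ℝ}

/-- The number of edges of the decorated graph. -/
lemma deco_edges (G : SimpleGraph β) (D : Finset β) (p : ℕ) :
    (deco G D p).edgeSet.ncard = (eIn G univ).card + D.card * p := by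
  set A : Finset (Sym2 (β ⊕ (↥D × Fin p))) := (eIn G univ).image (Sym2.map Sum.inl) with hA
  set B : Finset (Sym2 (β ⊕ (↥D × Fin p))) :=
    (univ : Finset (↥D × Fin p)).image (fun c => s(Sum.inl c.1.1, Sum.inr c)) with hB
  have hset : (deco G D p).edgeSet = ((A ∪ B : Finset _) : Set _) := by
    apply Set.Subset.antisymm
    · intro e
      induction e using Sym2.ind with
      | _ a b =>
        intro he
        have he' : (deco G D p).Adj a b := he
        rcases a with x | c <;> rcases b with y | d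
        · have hxy : G.Adj x y := he'
          refine Finset.mem_coe.2 (Finset.mem_union_left _ (Finset.mem_image.2 ⟨s(x, y), ?_, rfl⟩))
          exact mem_eIn_pair.2 ⟨hxy, mem_univ _, mem_univ _⟩
        · have hx : x = d.1.1 := he'
          refine Finset.mem_coe.2 (Finset.mem_union_right _ (Finset.mem_image.2 ⟨d, mem_univ _, ?_⟩))
          rw [hx]
        · have hy : y = c.1.1 := he'
          refine Finset.mem_coe.2 (Finset.mem_union_right _ (Finset.mem_image.2 ⟨c, mem_univ _, ?_⟩))
          rw [hy]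
          exact Sym2.eq_swap
        · exact he'.elim
    · intro e he
      rcases Finset.mem_union.1 (Finset.mem_coe.1 he) with h | h
      · obtain ⟨e', he', rfl⟩ := Finset.mem_image.1 h
        induction e' using Sym2.ind with
        | _ u v =>
          have := (mem_eIn_pair.1 he').1
          exact this
      · obtain ⟨c, -, rfl⟩ := Finset.mem_image.1 h
        show (deco G D p).Adj (Sum.inl c.1.1) (Sum.inr c)
        exact rfl
  have hdisj : Disjoint A B := by
    rw [Finset.disjoint_left]
    intro e he he2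
    obtain ⟨e', -, rfl⟩ := Finset.mem_image.1 he
    obtain ⟨c, -, hc⟩ := Finset.mem_image.1 he2
    induction e' using Sym2.ind with
    | _ u v =>
      have h3 : s((Sum.inl c.1.1 : β ⊕ (↥D × Fin p)), Sum.inr c) = s(Sum.inl u, Sum.inl v) := hc
      rcases Sym2.eq_iff.1 h3 with ⟨_, h⟩ | ⟨_, h⟩ <;> exact absurd h (by simp)
  have hAc : A.card = (eIn G univ).card :=
    Finset.card_image_of_injective _ (Sym2.map.injective Sum.inl_injective)
  have hBc : B.card = D.card * p := by
    rw [hB, Finset.card_image_of_injective]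
    · simp
    · intro c c' h
      have h3 : s((Sum.inl c.1.1 : β ⊕ (↥D × Fin p)), Sum.inr c) = s(Sum.inl c'.1.1, Sum.inr c') := h
      rcases Sym2.eq_iff.1 h3 with ⟨_, h⟩ | ⟨h, _⟩
      · exact Sum.inr_injective h
      · exact absurd h (by simp)
  rw [hset, Set.ncard_coe_finset, Finset.card_union_of_disjoint hdisj, hAc, hBc]

/-- A subproduct of factors at least one. -/
private lemma prod_sub_le {ι : Type} [Fintype ι] (s : Finset ι) (g : ι → ℝ) (hg : ∀ i, 1 ≤ g i) :
    ∏ i ∈ s, g i ≤ ∏ i, g i := by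
  rw [← Finset.prod_sdiff (Finset.subset_univ s)]
  have h1 : (1 : ℝ) ≤ ∏ i ∈ univ \ s, g i := by
    have := Finset.prod_le_prod (s := univ \ s) (f := fun _ => (1 : ℝ)) (g := g)
      (fun _ _ => zero_le_one) (fun i _ => hg i)
    simpa using this
  have h2 : (0 : ℝ) ≤ ∏ i ∈ s, g i :=
    Finset.prod_nonneg fun i _ => le_trans zero_le_one (hg i)
  nlinarith

/-- A leaf lies among the twins of at most one vertex. -/
private lemma twins_unique (G : SimpleGraph β) (D : Finset β) {x x' y : β}
    (h : y ∈ twins G D x) (h' : y ∈ twins G D x') : x = x' := by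
  have h1 := (Finset.mem_filter.1 h)
  have h2 := (Finset.mem_filter.1 h')
  have hx : x ∈ nb G y := mem_nb.2 (mem_nb.1 h1.1).symm
  have hx' : x' ∈ nb G y := mem_nb.2 (mem_nb.1 h2.1).symm
  exact Finset.card_le_one.1 (le_of_eq h1.2.1) x hx x' hx'

/-- The class map for the decorated graph. -/
private noncomputable def cls (G : SimpleGraph β) (D Zb : Finset β) (p : ℕ) :
    (β ⊕ (↥D × Fin p)) → β ⊕ (β ⊕ β)
  | Sum.inl y =>
      if h : ∃ x, x ∈ Zb ∧ y ∈ twins G D x then Sum.inr (Sum.inl h.choose) else Sum.inl y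
  | Sum.inr d => Sum.inr (Sum.inr d.1.1)

private lemma cls_twin (G : SimpleGraph β) (D Zb : Finset β) (p : ℕ) {x y : β}
    (hx : x ∈ Zb) (hy : y ∈ twins G D x) :
    cls G D Zb p (Sum.inl y) = Sum.inr (Sum.inl x) := by
  have h : ∃ x, x ∈ Zb ∧ y ∈ twins G D x := ⟨x, hx, hy⟩
  simp only [cls, dif_pos h]
  rw [twins_unique G D h.choose_spec.2 hy]

private lemma cls_twin_inv (G : SimpleGraph β) (D Zb : Finset β) (p : ℕ) {x y : β}
    (h : cls G D Zb p (Sum.inl y) = Sum.inr (Sum.inl x)) : x ∈ Zb ∧ y ∈ twins G D x := by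
  by_cases hh : ∃ x, x ∈ Zb ∧ y ∈ twins G D x
  · simp only [cls, dif_pos hh] at h
    have h3 : hh.choose = x := by
      have := Sum.inr_injective h
      exact Sum.inl_injective this
    rw [← h3]
    exact hh.choose_spec
  · simp [cls, dif_neg hh] at h

private lemma cls_adj (G : SimpleGraph β) (D Zb : Finset β) (p : ℕ)
    {a a' b : β ⊕ (↥D × Fin p)} (hc : cls G D Zb p a = cls G D Zb p a')
    (h : (deco G D p).Adj a b) : (deco G D p).Adj a' b := by
  rcases a with y | d <;> rcases a' with y' | d'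
  · by_cases hh : ∃ x, x ∈ Zb ∧ y ∈ twins G D x
    · obtain ⟨x, hx, hy⟩ := hh
      have h1 := cls_twin G D Zb p hx hy
      have h2 : y' ∈ twins G D x := (cls_twin_inv G D Zb p (x := x) (y := y') (hc ▸ h1)).2
      have hy1 := Finset.mem_filter.1 hy
      have hy2 := Finset.mem_filter.1 h2
      rcases b with z | e
      · have hyz : G.Adj y z := h
        have hzx : z = x := by
          have hx' : x ∈ nb G y := mem_nb.2 (mem_nb.1 hy1.1).symm
          have hz' : z ∈ nb G y := mem_nb.2 hyz
          exact Finset.card_le_one.1 (le_of_eq hy1.2.1) z hz' x hx'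
        subst hzx
        exact (mem_nb.1 hy2.1).symm
      · have hye : y = e.1.1 := h
        exact absurd (hye ▸ e.1.2) hy1.2.2
    · have h1 : cls G D Zb p (Sum.inl y) = Sum.inl y := by simp [cls, dif_neg hh]
      by_cases hh' : ∃ x, x ∈ Zb ∧ y' ∈ twins G D x
      · have h2 : cls G D Zb p (Sum.inl y') = Sum.inr (Sum.inl hh'.choose) := by
          simp [cls, dif_pos hh']
        rw [h1, h2] at hc
        exact absurd hc (by simp)
      · have h2 : cls G D Zb p (Sum.inl y') = Sum.inl y' := by simp [cls, dif_neg hh']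
        rw [h1, h2] at hc
        have := Sum.inl_injective hc
        rw [← this]
        exact h
  · exfalso
    by_cases hh : ∃ x, x ∈ Zb ∧ y ∈ twins G D x
    · have h1 : cls G D Zb p (Sum.inl y) = Sum.inr (Sum.inl hh.choose) := by
        simp [cls, dif_pos hh]
      have h2 : cls G D Zb p (Sum.inr d') = Sum.inr (Sum.inr d'.1.1) := rfl
      rw [h1, h2] at hc
      exact absurd hc (by simp)
    · have h1 : cls G D Zb p (Sum.inl y) = Sum.inl y := by simp [cls, dif_neg hh]
      have h2 : cls G D Zb p (Sum.inr d') = Sum.inr (Sum.inr d'.1.1) := rfl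
      rw [h1, h2] at hc
      exact absurd hc (by simp)
  · exfalso
    by_cases hh : ∃ x, x ∈ Zb ∧ y' ∈ twins G D x
    · have h1 : cls G D Zb p (Sum.inl y') = Sum.inr (Sum.inl hh.choose) := by
        simp [cls, dif_pos hh]
      have h2 : cls G D Zb p (Sum.inr d) = Sum.inr (Sum.inr d.1.1) := rfl
      rw [h1, h2] at hc
      exact absurd hc (by simp)
    · have h1 : cls G D Zb p (Sum.inl y') = Sum.inl y' := by simp [cls, dif_neg hh]
      have h2 : cls G D Zb p (Sum.inr d) = Sum.inr (Sum.inr d.1.1) := rfl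
      rw [h1, h2] at hc
      exact absurd hc (by simp)
  · have h1 : cls G D Zb p (Sum.inr d) = Sum.inr (Sum.inr d.1.1) := rfl
    have h2 : cls G D Zb p (Sum.inr d') = Sum.inr (Sum.inr d'.1.1) := rfl
    rw [h1, h2] at hc
    have h3 : d.1.1 = d'.1.1 := Sum.inr_injective (Sum.inr_injective hc)
    rcases b with z | e
    · have hz : z = d.1.1 := h
      show z = d'.1.1
      rw [hz, h3]
    · exact h.elim

/-- The product of the factorials of the class sizes dominates the required product. -/
private lemma cls_prod (G : SimpleGraph β) (D Zb : Finset β) (p : ℕ) :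
    ((p.factorial : ℝ) ^ D.card) * ∏ x ∈ Zb, (((twins G D x).card).factorial : ℝ) ≤
      ∏ k : β ⊕ (β ⊕ β),
        (((univ.filter fun a => cls G D Zb p a = k).card).factorial : ℝ) := by
  set f : β ⊕ (β ⊕ β) → ℝ :=
    fun k => (((univ.filter fun a => cls G D Zb p a = k).card).factorial : ℝ) with hf
  have hf1 : ∀ k, 1 ≤ f k := fun k => by
    have := Nat.factorial_pos ((univ.filter fun a => cls G D Zb p a = k).card)
    simp only [hf]
    exact_mod_cast this
  rw [Fintype.prod_sum_type, Fintype.prod_sum_type]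
  have h1 : ∏ x ∈ Zb, (((twins G D x).card).factorial : ℝ) ≤ ∏ x, f (Sum.inr (Sum.inl x)) := by
    refine le_trans ?_ (prod_sub_le Zb _ (fun x => hf1 _))
    refine Finset.prod_le_prod (fun x _ => by positivity) (fun x hx => ?_)
    simp only [hf]
    have hcard : (twins G D x).card ≤
        (univ.filter fun a => cls G D Zb p a = Sum.inr (Sum.inl x)).card := by
      refine Finset.card_le_card_of_injOn Sum.inl ?_ (fun a _ b _ h => Sum.inl_injective h)
      intro y hy
      have hy' : y ∈ twins G D x := hy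
      exact Finset.mem_coe.2 (Finset.mem_filter.2 ⟨mem_univ _, cls_twin G D Zb p hx hy'⟩)
    exact_mod_cast Nat.factorial_le hcard
  have h2 : (p.factorial : ℝ) ^ D.card ≤ ∏ x, f (Sum.inr (Sum.inr x)) := by
    refine le_trans ?_ (prod_sub_le D _ (fun x => hf1 _))
    rw [← Finset.prod_const]
    refine Finset.prod_le_prod (fun x _ => by positivity) (fun x hx => ?_)
    simp only [hf]
    have hcard : p ≤ (univ.filter fun a => cls G D Zb p a = Sum.inr (Sum.inr x)).card := by
      have : (univ : Finset (Fin p)).card ≤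
          (univ.filter fun a => cls G D Zb p a = Sum.inr (Sum.inr x)).card := by
        refine Finset.card_le_card_of_injOn (fun i => Sum.inr (⟨x, hx⟩, i)) ?_ ?_
        · intro i _
          exact Finset.mem_coe.2 (Finset.mem_filter.2 ⟨mem_univ _, rfl⟩)
        · intro i _ j _ h
          have := Sum.inr_injective h
          exact (Prod.mk.inj this).2
      simpa using this
    exact_mod_cast Nat.factorial_le hcard
  have h3 : (1 : ℝ) ≤ ∏ y, f (Sum.inl y) := by
    have := Finset.prod_le_prod (s := univ) (f := fun _ : β => (1 : ℝ))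
      (g := fun y => f (Sum.inl y)) (fun _ _ => zero_le_one) (fun i _ => hf1 _)
    simpa using this
  have hA : (0 : ℝ) ≤ ∏ x ∈ Zb, (((twins G D x).card).factorial : ℝ) := by positivity
  have hB : (0 : ℝ) ≤ (p.factorial : ℝ) ^ D.card := by positivity
  have hC : (0 : ℝ) ≤ ∏ x, f (Sum.inr (Sum.inl x)) := le_trans hA h1
  have hDD : (0 : ℝ) ≤ ∏ x, f (Sum.inr (Sum.inr x)) := le_trans hB h2
  calc ((p.factorial : ℝ) ^ D.card) * ∏ x ∈ Zb, (((twins G D x).card).factorial : ℝ)
      ≤ (∏ x, f (Sum.inr (Sum.inr x))) * ∏ x, f (Sum.inr (Sum.inl x)) :=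
        mul_le_mul h2 h1 hA hDD
    _ = 1 * ((∏ x, f (Sum.inr (Sum.inl x))) * ∏ x, f (Sum.inr (Sum.inr x))) := by ring
    _ ≤ (∏ y, f (Sum.inl y)) * ((∏ x, f (Sum.inr (Sum.inl x))) * ∏ x, f (Sum.inr (Sum.inr x))) :=
        mul_le_mul_of_nonneg_right h3 (mul_nonneg hC hDD)

/-- The bound for `h` pairwise disjoint decorated copies.  Here `Zb` is a set of vertices of degree at least two
(so the twins at vertices of `Zb` form classes for which adjacency in `deco G D p` depends on classes only, with
the classes: the twins at `x ∈ Zb`; the decorations at `x ∈ D`; singletons). -/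
theorem deco_h_bound (hG : GoodDensity n q H) (hq0 : 0 < q) (hq1 : q ≤ 1)
    (G : SimpleGraph β) (D Zb : Finset β) (p : ℕ) (hZb : ∀ x ∈ Zb, 2 ≤ (nb G x).card)
    (hedge : 1 ≤ (eIn G univ).card) {h : ℕ} (hh : 1 ≤ h)
    (ψ : Fin h → (β ⊕ (↥D × Fin p)) → V) (hinj : ∀ i, Function.Injective (ψ i))
    (hhom : ∀ i a b, (deco G D p).Adj a b → H.Adj (ψ i a) (ψ i b))
    (hdis : ∀ i j, i ≠ j → ∀ a b, ψ i a ≠ ψ j b) :
    (h : ℝ) * (((p.factorial : ℝ) ^ D.card) * ∏ x ∈ Zb, (((twins G D x).card).factorial : ℝ)) ≤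
      Real.exp 1 * (((n : ℝ) ^ Fintype.card β * q ^ (eIn G univ).card) *
        (((n : ℝ) * q) ^ p) ^ D.card) := by
  have : Nonempty (Fin h) := ⟨⟨0, hh⟩⟩
  have hW : (deco G D p).edgeSet.Nonempty := by
    obtain ⟨e, he⟩ := Finset.card_pos.1 hedge
    induction e using Sym2.ind with
    | _ u v =>
      have huv : G.Adj u v := (mem_eIn_pair.1 he).1
      refine ⟨s(Sum.inl u, Sum.inl v), ?_⟩
      exact huv
  have hcc : ∀ a b a' b', cls G D Zb p a = cls G D Zb p a' → cls G D Zb p b = cls G D Zb p b' →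
      (deco G D p).Adj a b → (deco G D p).Adj a' b' := by
    intro a b a' b' h1 h2 h3
    have h4 := cls_adj G D Zb p h1 h3
    have h5 := cls_adj G D Zb p h2 h4.symm
    exact h5.symm
  have hmain := copies_factorial hG hq0 hq1 (deco G D p) hW (cls G D Zb p) hcc ψ hinj hhom hdis
  rw [Fintype.card_fin] at hmain
  set g₀ : ℝ := ∏ k : β ⊕ (β ⊕ β),
        (((univ.filter fun a => cls G D Zb p a = k).card).factorial : ℝ) with hg₀
  set R : ℝ := (n : ℝ) ^ Fintype.card (β ⊕ (↥D × Fin p)) * q ^ (deco G D p).edgeSet.ncard with hR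
  have hle := cls_prod G D Zb p
  have hg0 : 0 ≤ g₀ := by
    rw [hg₀]; positivity
  have hR0 : 0 ≤ R := by
    rw [hR]; positivity
  have hmain' : ((h.factorial : ℕ) : ℝ) * g₀ ^ h ≤ R ^ h := by
    convert hmain
  have hfin := card_mul_le_of_factorial hh hg0 hR0 hmain'
  have hRe : R = ((n : ℝ) ^ Fintype.card β * q ^ (eIn G univ).card) *
        (((n : ℝ) * q) ^ p) ^ D.card := by
    rw [hR, deco_edges, Fintype.card_sum, Fintype.card_prod, Fintype.card_coe, Fintype.card_fin]
    ring
  calc (h : ℝ) * (((p.factorial : ℝ) ^ D.card) * ∏ x ∈ Zb, (((twins G D x).card).factorial : ℝ))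
      ≤ (h : ℝ) * g₀ := mul_le_mul_of_nonneg_left hle (by positivity)
    _ ≤ Real.exp 1 * R := hfin
    _ = _ := by rw [hRe]

end Vale.Agent.Lib.P064U
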