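import Vale.Agent.Lib.P064U.WCore

/-!
Part W6p: peeling the leaves below non-hubs (notes/P064U_W2.md, Step 1).
-/

open Finset

namespace Vale.Agent.Lib.P064U

open Vale.Agent.Lib.P064 Vale.Agent.Lib.P064E
open scoped Classical

variable {V : Type} [Fintype V] {H : SimpleGraph V} {n : ℕ} {q l lam : ℝ}

lemma mem_typed_peel {β : Type} [Fintype β] {G : SimpleGraph β} {τ : ℝ} {B : Finset β} {φ : β → V} :
    φ ∈ typed G H τ B ↔ φ ∈ emb G H ∧ ∀ x, x ∈ B ↔ τ ≤ ((nb H (φ x)).card : ℝ) := by
  unfold typed
  exact Finset.mem_filter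

/-- Deleting a leaf `y` with neighbour `x ∉ B`: fibres of the restriction have size at most `τ`. -/
theorem peel_typed {β : Type} [Fintype β] (G : SimpleGraph β) {τ : ℝ} (hτ : 0 ≤ τ) (B : Finset β) {y x : β}
    (hy : (nb G y).card = 1) (hxy : G.Adj y x) (hx : x ∉ B) :
    ((typed G H τ B).card : ℝ) ≤
      τ * ((typed (G.comap (Subtype.val : {u // u ≠ y} → β)) H τ (B.subtype fun u => u ≠ y)).card : ℝ) := by
  set G' := G.comap (Subtype.val : {u // u ≠ y} → β) with hG'
  set B' := B.subtype fun u => u ≠ y with hB'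
  have hxne : x ≠ y := hxy.ne'
  set x' : {u // u ≠ y} := ⟨x, hxne⟩ with hx'
  set f : (β → V) → ({u // u ≠ y} → V) := fun φ u => φ u.1 with hf
  have hmaps : ∀ φ ∈ typed G H τ B, f φ ∈ typed G' H τ B' := by
    intro φ hφ
    obtain ⟨h1, h2⟩ := mem_typed_peel.1 hφ
    obtain ⟨h3, h4⟩ := mem_emb.1 h1
    refine mem_typed_peel.2 ⟨mem_emb.2 ⟨?_, ?_⟩, ?_⟩
    · intro a b hab
      exact Subtype.ext (h3 hab)
    · intro a b hab
      exact h4 _ _ hab
    · intro a
      rw [hB', Finset.mem_subtype]
      exact h2 a.1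
  have hsum := Finset.card_eq_sum_card_fiberwise (f := f) (s := typed G H τ B)
    (t := typed G' H τ B') hmaps
  have hfib : ∀ ψ ∈ typed G' H τ B',
      ((((typed G H τ B).filter (fun φ => f φ = ψ)).card : ℕ) : ℝ) ≤ τ := by
    intro ψ _
    rcases ((typed G H τ B).filter (fun φ => f φ = ψ)).eq_empty_or_nonempty with h0 | ⟨φ₀, hφ₀⟩
    · rw [h0]
      simpa using hτ
    obtain ⟨h1, h2⟩ := Finset.mem_filter.1 hφ₀
    obtain ⟨h3, h4⟩ := mem_typed_peel.1 h1
    have hdeg : ((nb H (φ₀ x)).card : ℝ) < τ := by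
      by_contra hcon
      exact hx ((h4 x).2 (not_lt.1 hcon))
    have hψx : ψ x' = φ₀ x := by rw [← h2]
    have hcard : ((typed G H τ B).filter (fun φ => f φ = ψ)).card ≤ (nb H (φ₀ x)).card := by
      refine Finset.card_le_card_of_injOn (fun φ => φ y) ?_ ?_
      · intro φ hφ
        obtain ⟨h5, h6⟩ := Finset.mem_filter.1 (Finset.mem_coe.1 hφ)
        obtain ⟨h7, _⟩ := mem_typed_peel.1 h5
        obtain ⟨_, h8⟩ := mem_emb.1 h7
        have h9 : φ x = ψ x' := by rw [← h6]
        refine Finset.mem_coe.2 (mem_nb.2 ?_)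
        rw [← hψx, ← h9]
        exact h8 _ _ hxy.symm
      · intro φ hφ φ' hφ' h
        obtain ⟨_, h6⟩ := Finset.mem_filter.1 (Finset.mem_coe.1 hφ)
        obtain ⟨_, h6'⟩ := Finset.mem_filter.1 (Finset.mem_coe.1 hφ')
        funext u
        by_cases hu : u = y
        · rw [hu]
          exact h
        · have h10 : f φ ⟨u, hu⟩ = f φ' ⟨u, hu⟩ := by rw [h6, h6']
          exact h10
    have : (((typed G H τ B).filter (fun φ => f φ = ψ)).card : ℝ) ≤ ((nb H (φ₀ x)).card : ℝ) := by
      exact_mod_cast hcard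
    linarith
  calc ((typed G H τ B).card : ℝ)
      = ∑ ψ ∈ typed G' H τ B', (((typed G H τ B).filter (fun φ => f φ = ψ)).card : ℝ) := by
        rw [hsum]
        push_cast
        rfl
    _ ≤ ∑ _ψ ∈ typed G' H τ B', τ := Finset.sum_le_sum hfib
    _ = τ * ((typed G' H τ B').card : ℝ) := by
        rw [Finset.sum_const, nsmul_eq_mul, mul_comm]

/-- The unique neighbour of a leaf. -/
lemma exists_unique_nb {β : Type} [Fintype β] (G : SimpleGraph β) {y : β} (hy : (nb G y).card = 1) :
    ∃ x, G.Adj y x ∧ ∀ w, G.Adj y w → w = x := by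
  obtain ⟨x, hx⟩ := Finset.card_eq_one.1 hy
  refine ⟨x, mem_nb.1 (by rw [hx]; exact Finset.mem_singleton_self x), ?_⟩
  intro w hw
  have : w ∈ nb G y := mem_nb.2 hw
  rw [hx] at this
  exact Finset.mem_singleton.1 this

/-- The edges of the graph without the leaf `y`. -/
lemma eIn_comap_erase {β : Type} [Fintype β] (G : SimpleGraph β) {y : β} (hy : (nb G y).card = 1) :
    (eIn (G.comap (Subtype.val : {u // u ≠ y} → β)) univ).card + 1 = (eIn G univ).card := by
  obtain ⟨x, hxy, huniq⟩ := exists_unique_nb G hy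
  set G' := G.comap (Subtype.val : {u // u ≠ y} → β) with hG'
  have heq : eIn G univ =
      insert s(y, x) ((eIn G' univ).image (Sym2.map (Subtype.val : {u // u ≠ y} → β))) := by
    ext e
    induction e using Sym2.ind with
    | _ u v =>
      rw [mem_eIn_pair, Finset.mem_insert, Finset.mem_image]
      constructor
      · rintro ⟨huv, _, _⟩
        by_cases hu : u = y
        · left
          subst hu
          rw [huniq v huv]
        by_cases hv : v = y
        · left
          subst hv
          rw [huniq u huv.symm]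
          exact Sym2.eq_swap
        · right
          refine ⟨s(⟨u, hu⟩, ⟨v, hv⟩), ?_, ?_⟩
          · exact mem_eIn_pair.2 ⟨huv, mem_univ _, mem_univ _⟩
          · simp only [Sym2.map_mk]
      · rintro (h | ⟨e', he', h⟩)
        · refine ⟨?_, mem_univ _, mem_univ _⟩
          rcases Sym2.eq_iff.1 h with ⟨h1, h2⟩ | ⟨h1, h2⟩
          · rw [h1, h2]; exact hxy
          · rw [h1, h2]; exact hxy.symm
        · induction e' using Sym2.ind with
          | _ a b =>
            obtain ⟨hab, _, _⟩ := mem_eIn_pair.1 he'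
            simp only [Sym2.map_mk] at h
            refine ⟨?_, mem_univ _, mem_univ _⟩
            rcases Sym2.eq_iff.1 h with ⟨h1, h2⟩ | ⟨h1, h2⟩
            · rw [← h1, ← h2]; exact hab
            · rw [← h1, ← h2]; exact hab.symm
  rw [heq, Finset.card_insert_of_notMem, Finset.card_image_of_injective _
    (Sym2.map.injective Subtype.val_injective)]
  intro hmem
  obtain ⟨e', _, h⟩ := Finset.mem_image.1 hmem
  induction e' using Sym2.ind with
  | _ a b =>
    simp only [Sym2.map_mk] at h
    rcases Sym2.eq_iff.1 h with ⟨h1, _⟩ | ⟨_, h1⟩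
    · exact a.2 h1
    · exact b.2 h1

/-- The graph without the leaf `y` is connected (in the form of `hconn`), when `G` is and has at least two vertices. -/
lemma conn_comap_erase {β : Type} [Fintype β] (G : SimpleGraph β) {y : β} (hy : (nb G y).card = 1)
    (hconn : ∀ D : Finset β, D.Nonempty → D ≠ univ → ∃ u ∈ D, ∃ w, w ∉ D ∧ G.Adj u w)
    (D : Finset {u // u ≠ y}) (hD : D.Nonempty) (hD' : D ≠ univ) :
    ∃ u ∈ D, ∃ w, w ∉ D ∧ (G.comap (Subtype.val : {u // u ≠ y} → β)).Adj u w := by
  obtain ⟨x, _, huniq⟩ := exists_unique_nb G hy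
  set E : Finset β := D.image Subtype.val with hE
  have hmemE : ∀ a : {u // u ≠ y}, (a : β) ∈ E ↔ a ∈ D := by
    intro a
    rw [hE, Finset.mem_image]
    constructor
    · rintro ⟨b, hb, hba⟩
      rwa [← Subtype.ext hba]
    · intro ha
      exact ⟨a, ha, rfl⟩
  have hyE : y ∉ E := by
    intro h
    obtain ⟨b, _, hb⟩ := Finset.mem_image.1 h
    exact b.2 hb
  obtain ⟨a₀, ha₀⟩ : ∃ a : {u // u ≠ y}, a ∉ D := by
    by_contra hcon
    push Not at hcon
    exact hD' (Finset.eq_univ_iff_forall.2 hcon)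
  have hEne : E.Nonempty := hD.image _
  have final : ∀ u w : β, u ∈ E → w ∉ E → w ≠ y → G.Adj u w →
      ∃ u ∈ D, ∃ w, w ∉ D ∧ (G.comap (Subtype.val : {u // u ≠ y} → β)).Adj u w := by
    intro u w hu hw hwy huw
    have huy : u ≠ y := fun h => hyE (h ▸ hu)
    refine ⟨⟨u, huy⟩, (hmemE ⟨u, huy⟩).1 hu, ⟨w, hwy⟩, fun h => hw ((hmemE ⟨w, hwy⟩).2 h), huw⟩
  by_cases hxE : x ∈ E
  · obtain ⟨u, hu, w, hw, huw⟩ := hconn (insert y E) (Finset.insert_nonempty _ _) (by
      intro h
      have : (a₀ : β) ∈ insert y E := by rw [h]; exact mem_univ _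
      rcases Finset.mem_insert.1 this with h1 | h1
      · exact a₀.2 h1
      · exact ha₀ ((hmemE a₀).1 h1))
    have hwE : w ∉ E := fun h => hw (Finset.mem_insert_of_mem h)
    have hwy : w ≠ y := fun h => hw (h ▸ Finset.mem_insert_self _ _)
    rcases Finset.mem_insert.1 hu with h1 | h1
    · subst h1
      exact absurd (huniq w huw ▸ hxE) hwE
    · exact final u w h1 hwE hwy huw
  · obtain ⟨u, hu, w, hw, huw⟩ := hconn E hEne (by
      intro h
      exact hyE (h ▸ mem_univ y))
    have hwy : w ≠ y := by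
      intro h
      subst h
      have huy : u = x := huniq u huw.symm
      exact hxE (huy ▸ hu)
    exact final u w hu hw hwy huw

/-- The typed bound for all connected graphs: strong induction on the number of vertices.  One vertex: `n` maps.  A leaf with neighbour off `B`:
`peel_typed`, `τ ≤ K ≤ K (n q)`.  Otherwise: `core_bound`. -/
theorem typed_bound (hG : GoodDensity n q H) {τ Δ K : ℝ} {p d₀ : ℕ} (hV : Fintype.card V ≤ n)
    (hpar : WPar n q l lam τ Δ K p d₀) (m : ℕ) :
    ∀ (β : Type) [Fintype β] (G : SimpleGraph β) (B : Finset β), Fintype.card β = m → Nonempty β →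
      (∀ D : Finset β, D.Nonempty → D ≠ univ → ∃ u ∈ D, ∃ w, w ∉ D ∧ G.Adj u w) →
      ((typed G H τ B).card : ℝ) ≤
        Real.exp (7 * (Fintype.card β : ℝ) + 5 * ((eIn G univ).card : ℝ)) * K ^ (eIn G univ).card *
          ((n : ℝ) ^ Fintype.card β * q ^ (eIn G univ).card) := by
  have hτ0 : (0 : ℝ) < τ := by linarith [hpar.τ32]
  have hK0 : (0 : ℝ) < K := by linarith [hpar.τK]
  have hq0 : (0 : ℝ) < q := hpar.std.q0
  have hn1 : (1 : ℝ) ≤ n := by exact_mod_cast hpar.std.n1
  have hn0 : (0 : ℝ) < n := by linarith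
  induction m using Nat.strong_induction_on with
  | _ m ih =>
    intro β _ G B hm hne hconn
    by_cases hv : Fintype.card β ≤ 1
    · -- one vertex
      have hcard1 : Fintype.card β = 1 := le_antisymm hv (Fintype.card_pos)
      have hsub : Subsingleton β := Fintype.card_le_one_iff_subsingleton.1 hv
      have he : (eIn G univ).card = 0 := by
        rw [Finset.card_eq_zero, Finset.eq_empty_iff_forall_notMem]
        intro e he
        induction e using Sym2.ind with
        | _ u v =>
          obtain ⟨huv, _, _⟩ := mem_eIn_pair.1 he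
          exact huv.ne (Subsingleton.elim u v)
      have h1 : (typed G H τ B).card ≤ n := by
        calc (typed G H τ B).card ≤ (univ : Finset (β → V)).card := Finset.card_le_univ _
          _ = Fintype.card V := by
              rw [Finset.card_univ, Fintype.card_fun, hcard1, pow_one]
          _ ≤ n := hV
      have h2 : ((typed G H τ B).card : ℝ) ≤ n := by exact_mod_cast h1
      rw [he, hcard1]
      simp only [Nat.cast_one, Nat.cast_zero, mul_zero, add_zero, pow_zero, mul_one, pow_one]
      have h3 : (1 : ℝ) ≤ Real.exp 7 := Real.one_le_exp (by norm_num)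
      have h4 : (n : ℝ) ≤ Real.exp 7 * n := by nlinarith
      linarith
    · have hv2 : 2 ≤ Fintype.card β := by omega
      -- no isolated vertices
      have hiso : ∀ x : β, ∃ y, G.Adj x y := by
        intro x
        obtain ⟨u, hu, w, hw, huw⟩ := hconn {x} (Finset.singleton_nonempty x) (by
          intro h
          have h1 : Fintype.card β ≤ 1 := by
            rw [← Finset.card_univ, ← h, Finset.card_singleton]
          omega)
        rw [Finset.mem_singleton] at hu
        exact ⟨w, hu ▸ huw⟩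
      by_cases hleaf : ∀ y x, (nb G y).card = 1 → G.Adj y x → x ∈ B
      · exact core_bound hG hV hpar G hiso hconn B hleaf
      · push Not at hleaf
        obtain ⟨y, x, hy, hxy, hx⟩ := hleaf
        have hstep := peel_typed (H := H) G hτ0.le B hy hxy hx
        have hcard' : Fintype.card {u // u ≠ y} = m - 1 := by
          rw [Fintype.card_subtype_compl, Fintype.card_subtype_eq, hm]
        have hm' : m - 1 < m := by omega
        have hne' : Nonempty {u // u ≠ y} := ⟨⟨x, hxy.ne'⟩⟩
        have hih := ih (m - 1) hm' {u // u ≠ y} (G.comap (Subtype.val : {u // u ≠ y} → β))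
          (B.subtype fun u => u ≠ y) hcard' hne' (fun D hD hD' => conn_comap_erase G hy hconn D hD hD')
        have hedges := eIn_comap_erase G hy
        set e' := (eIn (G.comap (Subtype.val : {u // u ≠ y} → β)) univ).card with he'
        rw [← hedges, hm]
        rw [hcard'] at hih
        have hmm : m = (m - 1) + 1 := by omega
        set m' := m - 1 with hm'def
        rw [hmm]
        have hexp : Real.exp (7 * (m' : ℝ) + 5 * (e' : ℝ)) ≤
            Real.exp (7 * ((m' + 1 : ℕ) : ℝ) + 5 * ((e' + 1 : ℕ) : ℝ)) := by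
          apply Real.exp_le_exp.2
          push_cast
          linarith
        have hD1 : 1 ≤ (n : ℝ) * q := hpar.D1
        have hrest : (n : ℝ) ^ m' * q ^ e' ≤ (n : ℝ) ^ (m' + 1) * q ^ (e' + 1) := by
          have : (n : ℝ) ^ (m' + 1) * q ^ (e' + 1) = ((n : ℝ) ^ m' * q ^ e') * ((n : ℝ) * q) := by ring
          rw [this]
          have h5 : 0 ≤ (n : ℝ) ^ m' * q ^ e' := by positivity
          nlinarith
        calc ((typed G H τ B).card : ℝ)
            ≤ τ * ((typed (G.comap (Subtype.val : {u // u ≠ y} → β)) H τ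
                (B.subtype fun u => u ≠ y)).card : ℝ) := hstep
          _ ≤ τ * (Real.exp (7 * (m' : ℝ) + 5 * (e' : ℝ)) * K ^ e' * ((n : ℝ) ^ m' * q ^ e')) :=
              mul_le_mul_of_nonneg_left hih hτ0.le
          _ = Real.exp (7 * (m' : ℝ) + 5 * (e' : ℝ)) * (τ * K ^ e') * ((n : ℝ) ^ m' * q ^ e') := by ring
          _ ≤ Real.exp (7 * ((m' + 1 : ℕ) : ℝ) + 5 * ((e' + 1 : ℕ) : ℝ)) * K ^ (e' + 1) *
                ((n : ℝ) ^ (m' + 1) * q ^ (e' + 1)) := by
              have h6 : τ * K ^ e' ≤ K ^ (e' + 1) := by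
                rw [pow_succ']
                exact mul_le_mul_of_nonneg_right hpar.τK (by positivity)
              gcongr

end Vale.Agent.Lib.P064U
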