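import Vale.Agent.Lib.P064N.Weights

/-!
Minimal non-deficient up-sets: the walk that alternates one token arc with a cheap closure.
-/

open Finset

namespace Vale.Agent.Lib.P064U

open Vale.Agent.Lib.P064 Vale.Agent.Lib.P064N

open scoped Classical

variable {V α : Type}

/-- The capacity inequality when no token of a boundary edge sits on the side of `E`. -/
lemma capacity_w0 [Fintype V] [Fintype α] {H : SimpleGraph V} {F : SimpleGraph α}
    {w : V → V → ℕ} {M c : ℕ}
    (hw : ∀ a b, H.Adj a b → w a b + w b a = M) (hs : ∀ a, ∑ b, w a b ≤ c)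
    {E C : Finset α} (hdisj : Disjoint C E) {φ : α → V}
    (hinj : Function.Injective φ) (hhom : ∀ u v, F.Adj u v → H.Adj (φ u) (φ v))
    (hE : ∀ u ∈ E, ∀ v ∈ C, F.Adj u v → w (φ u) (φ v) = 0) :
    M * (newE F E C).card ≤ c * C.card := by
  set D : Finset (α × α) := (C ×ˢ (E ∪ C)).filter (fun d => F.Adj d.1 d.2) with hD
  set g : α × α → ℕ := fun d => w (φ d.1) (φ d.2) with hg
  have h1 : ∑ d ∈ D, g d ≤ c * C.card := by
    have h2 : ∑ d ∈ D, g d ≤ ∑ d ∈ C ×ˢ (univ : Finset α), g d := by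
      apply Finset.sum_le_sum_of_ne_zero
      intro d hd _
      obtain ⟨h3, _⟩ := Finset.mem_filter.1 hd
      exact Finset.mem_product.2 ⟨(Finset.mem_product.1 h3).1, mem_univ _⟩
    refine h2.trans ?_
    rw [Finset.sum_product]
    calc ∑ x ∈ C, ∑ y, g (x, y) ≤ ∑ x ∈ C, c := by
          apply Finset.sum_le_sum
          intro x _
          have h3 : ∑ y, g (x, y) = ∑ b ∈ (univ : Finset α).image φ, w (φ x) b := by
            rw [Finset.sum_image (fun a _ b _ h => hinj h)]
          rw [h3]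
          exact (Finset.sum_le_sum_of_subset (Finset.subset_univ _)).trans (hs _)
      _ = c * C.card := by
          simp [mul_comm]
  have hmap : ∀ d ∈ D, s(d.1, d.2) ∈ newE F E C := by
    intro d hd
    obtain ⟨h3, h4⟩ := Finset.mem_filter.1 hd
    obtain ⟨h5, h6⟩ := Finset.mem_product.1 h3
    refine mem_newE_pair.2 ⟨h4, Or.inr h5, ?_, ?_⟩
    · simpa [Finset.mem_union] using h6
    · rintro ⟨h7, _⟩
      exact Finset.disjoint_left.1 hdisj h5 h7
  have hfib := Finset.sum_fiberwise_of_maps_to (s := D) (t := newE F E C)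
    (g := fun d => s(d.1, d.2)) hmap g
  have hlow : ∀ ε ∈ newE F E C, M ≤ ∑ d ∈ D with s(d.1, d.2) = ε, g d := by
    intro ε hε
    induction ε using Sym2.ind with
    | _ u v =>
      obtain ⟨huv, h2, h3, h4⟩ := mem_newE_pair.1 hε
      by_cases hin : u ∈ C ∧ v ∈ C
      · obtain ⟨huC, hvC⟩ := hin
        have hd1 : (u, v) ∈ D.filter (fun d => s(d.1, d.2) = s(u, v)) := by
          refine Finset.mem_filter.2 ⟨Finset.mem_filter.2 ⟨Finset.mem_product.2 ⟨huC, ?_⟩, huv⟩, rfl⟩
          exact Finset.mem_union_right _ hvC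
        have hd2 : (v, u) ∈ D.filter (fun d => s(d.1, d.2) = s(u, v)) := by
          refine Finset.mem_filter.2 ⟨Finset.mem_filter.2 ⟨Finset.mem_product.2 ⟨hvC, ?_⟩, huv.symm⟩, Sym2.eq_swap⟩
          exact Finset.mem_union_right _ huC
        have hsub : ({(u, v), (v, u)} : Finset (α × α)) ⊆ D.filter (fun d => s(d.1, d.2) = s(u, v)) := by
          intro x hx
          rcases Finset.mem_insert.1 hx with rfl | hx
          · exact hd1
          · rw [Finset.mem_singleton] at hx
            rw [hx]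
            exact hd2
        have h5 := Finset.sum_le_sum_of_subset (f := g) hsub
        have hne : (u, v) ≠ (v, u) := by
          intro h
          exact huv.ne (congrArg Prod.fst h)
        rw [Finset.sum_pair hne] at h5
        have h6 := hw (φ u) (φ v) (hhom u v huv)
        simp only [hg] at h5
        simp only [hg]
        omega
      · have hone : ∃ a b, s(u, v) = s(a, b) ∧ a ∈ C ∧ b ∈ E := by
          by_cases huC : u ∈ C
          · have hvE : v ∈ E := by
              rcases h3 with h5 | h5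
              · exact h5
              · exact absurd ⟨huC, h5⟩ hin
            exact ⟨u, v, rfl, huC, hvE⟩
          · have huE : u ∈ E := h2.resolve_right huC
            have hvC : v ∈ C := by
              rcases h3 with h5 | h5
              · exact absurd ⟨huE, h5⟩ h4
              · exact h5
            exact ⟨v, u, Sym2.eq_swap, hvC, huE⟩
        obtain ⟨a, b, hab, haC, hbE⟩ := hone
        have hadj : F.Adj a b := by
          have : s(a, b) ∈ F.edgeSet := by
            rw [← hab]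
            exact huv
          exact this
        have hd1 : (a, b) ∈ D.filter (fun d => s(d.1, d.2) = s(u, v)) := by
          refine Finset.mem_filter.2 ⟨Finset.mem_filter.2 ⟨Finset.mem_product.2 ⟨haC, ?_⟩, hadj⟩, hab.symm⟩
          exact Finset.mem_union_left _ hbE
        have h5 : g (a, b) ≤ ∑ d ∈ D with s(d.1, d.2) = s(u, v), g d :=
          Finset.single_le_sum (f := g) (fun _ _ => Nat.zero_le _) hd1
        have h6 := hw (φ a) (φ b) (hhom a b hadj)
        have h8 := hE b hbE a haC hadj.symm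
        simp only [hg] at h5
        simp only [hg]
        omega
  have hsum := Finset.sum_le_sum hlow
  rw [Finset.sum_const, smul_eq_mul, hfib] at hsum
  rw [mul_comm M]
  omega

/-- A set reachable from a root through a set of edges has at most that many edges plus one
vertices. -/
lemma conn_card (Ed : Finset (Sym2 α)) {W : Finset α} {x : α} (hx : x ∈ W)
    (hconn : ∀ D : Finset α, x ∈ D → D ⊆ W → D ≠ W → ∃ u ∈ D, ∃ v ∈ W \ D, s(u, v) ∈ Ed) :
    W.card ≤ Ed.card + 1 := by
  have key : ∀ D : Finset α, x ∈ D → D ⊆ W →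
      (W \ D).card ≤ (Ed.filter (fun e => ¬ ∀ y ∈ e, y ∈ D)).card := by
    intro D hxD hDW
    induction h : (W \ D).card generalizing D with
    | zero => exact Nat.zero_le _
    | succ k ih =>
      have hne : D ≠ W := by
        rintro rfl
        simp at h
      obtain ⟨u, huD, v, hv, huv⟩ := hconn D hxD hDW hne
      obtain ⟨hvW, hvD⟩ := Finset.mem_sdiff.1 hv
      have h2 : (W \ insert v D).card = k := by
        have : W \ insert v D = (W \ D).erase v := by
          ext y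
          simp only [Finset.mem_sdiff, Finset.mem_insert, Finset.mem_erase]
          tauto
        rw [this, Finset.card_erase_of_mem hv, h]
        simp
      have h3 := ih (insert v D) (Finset.mem_insert_of_mem hxD) (Finset.insert_subset hvW hDW) h2
      have h4 : (Ed.filter (fun e => ¬ ∀ y ∈ e, y ∈ insert v D)).card + 1
          ≤ (Ed.filter (fun e => ¬ ∀ y ∈ e, y ∈ D)).card := by
        have hnot : s(u, v) ∉ Ed.filter (fun e => ¬ ∀ y ∈ e, y ∈ insert v D) := by
          intro h5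
          apply (Finset.mem_filter.1 h5).2
          intro y hy
          rcases Sym2.mem_iff.1 hy with rfl | rfl
          · exact Finset.mem_insert_of_mem huD
          · exact Finset.mem_insert_self _ _
        rw [← Finset.card_insert_of_notMem hnot]
        refine Finset.card_le_card ?_
        intro e he
        rcases Finset.mem_insert.1 he with rfl | he'
        · refine Finset.mem_filter.2 ⟨huv, ?_⟩
          intro h5
          exact hvD (h5 v (Sym2.mem_mk_right _ _))
        · obtain ⟨h6, h7⟩ := Finset.mem_filter.1 he'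
          refine Finset.mem_filter.2 ⟨h6, fun h8 => h7 fun y hy => Finset.mem_insert_of_mem (h8 y hy)⟩
      omega
  have h5 := key {x} (Finset.mem_singleton_self _) (Finset.singleton_subset_iff.2 hx)
  have h6 : (W \ {x}).card = W.card - 1 := by
    rw [Finset.card_sdiff_of_subset (Finset.singleton_subset_iff.2 hx), Finset.card_singleton]
  have h7 : (Ed.filter (fun e => ¬ ∀ y ∈ e, y ∈ ({x} : Finset α))).card ≤ Ed.card :=
    Finset.card_filter_le _ _
  have h8 : 1 ≤ W.card := Finset.card_pos.2 ⟨x, hx⟩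
  omega

/-- `A` is closed under `R` inside `W`. -/
def Cl (R : Finset (α × α)) (W A : Finset α) : Prop := ∀ u ∈ A, ∀ v ∈ W, v ∉ A → (u, v) ∉ R

/-- The closure of `D` inside `W`, with every proper intermediate set left by an arc. -/
lemma exists_closure (R : Finset (α × α)) {W D : Finset α} (hD : D ⊆ W) :
    ∃ A, D ⊆ A ∧ A ⊆ W ∧ Cl R W A ∧
      ∀ D' : Finset α, D ⊆ D' → D' ⊆ A → D' ≠ A → ∃ u ∈ D', ∃ v ∈ A \ D', (u, v) ∈ R := by
  let 𝒞 := W.powerset.filter (fun A => D ⊆ A ∧ Cl R W A)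
  have hne : 𝒞.Nonempty := ⟨W, Finset.mem_filter.2 ⟨Finset.mem_powerset.2 (Finset.Subset.refl _), hD,
    fun u _ v hv hv' => absurd hv hv'⟩⟩
  obtain ⟨A, hA, hmin⟩ := Finset.exists_min_image 𝒞 Finset.card hne
  obtain ⟨h1, h2, h3⟩ := Finset.mem_filter.1 hA
  refine ⟨A, h2, Finset.mem_powerset.1 h1, h3, ?_⟩
  intro D' hD1 hD2 hD3
  by_contra hcon
  push Not at hcon
  have hD'cl : Cl R W D' := by
    intro u hu v hvW hvn huv
    have hvA : v ∈ A := by
      by_contra hvA
      exact h3 u (hD2 hu) v hvW hvA huv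
    exact hcon u hu v (Finset.mem_sdiff.2 ⟨hvA, hvn⟩) huv
  have hmem : D' ∈ 𝒞 := Finset.mem_filter.2
    ⟨Finset.mem_powerset.2 (hD2.trans (Finset.mem_powerset.1 h1)), hD1, hD'cl⟩
  have h5 := hmin D' hmem
  have h6 := Finset.card_lt_card (hD2.ssubset_of_ne hD3)
  omega

/-- The loss of one part of the walk. -/
lemma part_numeric {p e m : ℕ} {κ τ : ℝ} (hp : 1 ≤ p) (hpe : p ≤ e + 1) (hem : e ≤ m)
    (hκ : 0 < κ) (hτ0 : 0 ≤ τ) (hτ : τ ≤ 1 / 8)
    (hcap : (m : ℝ) ≤ (1 + κ) * p + τ * ((m : ℝ) - e)) :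
    κ ≤ (1 + κ) * p - m + ((8 / 3) * τ + (4 / 3) * κ) * (κ * p) := by
  have hp' : (1 : ℝ) ≤ p := by exact_mod_cast hp
  have hpe' : (p : ℝ) ≤ e + 1 := by exact_mod_cast hpe
  have hem' : (e : ℝ) ≤ m := by exact_mod_cast hem
  obtain ⟨r, hr⟩ : ∃ r, r = κ * p := ⟨_, rfl⟩
  have hr0 : κ ≤ r := by
    rw [hr]
    have := mul_le_mul_of_nonneg_left hp' hκ.le
    linarith
  have hr1 : (1 + κ) * p = p + r := by rw [hr]; ring
  rw [← hr, hr1]
  rw [hr1] at hcap
  obtain ⟨b, hb⟩ : ∃ b, b = (m : ℝ) - e := ⟨_, rfl⟩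
  rw [← hb] at hcap
  have hb0 : 0 ≤ b := by rw [hb]; linarith
  have hrpos : 0 < r := by linarith
  by_cases hmp : m ≤ p
  · have hmp' : (m : ℝ) ≤ p := by exact_mod_cast hmp
    have h1 : 0 ≤ ((8 / 3) * τ + (4 / 3) * κ) * r := by positivity
    linarith
  · have hmp1 : (p : ℝ) + 1 ≤ m := by
      have : p + 1 ≤ m := by omega
      exact_mod_cast this
    have hτb : τ * b ≤ 1 / 8 * b := mul_le_mul_of_nonneg_right hτ hb0
    have h1 : b ≤ m - p + 1 := by rw [hb]; linarith
    have h2 : 7 / 8 * b ≤ r + 1 := by linarith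
    have hr34 : 3 / 4 ≤ r := by linarith
    have hb2 : b ≤ (8 / 3) * r := by linarith
    have h3 : τ * b ≤ τ * ((8 / 3) * r) := mul_le_mul_of_nonneg_left hb2 hτ0
    have h4 : κ ≤ (4 / 3) * κ * r := by
      have h5 : κ * (3 / 4) ≤ κ * r := mul_le_mul_of_nonneg_left hr34 hκ.le
      linarith
    have h5 : ((8 / 3) * τ + (4 / 3) * κ) * r = τ * ((8 / 3) * r) + (4 / 3) * κ * r := by ring
    rw [h5]
    linarith

section Walk

variable [Fintype V] [Fintype α] {H : SimpleGraph V} {F : SimpleGraph α}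
  {w : V → V → ℕ} {M c T₁ c₁ c₀ : ℕ} {κ τ : ℝ}
  {R₁ R₀ : Finset (α × α)} {W D₀ : Finset α} {φ₁ : α → V} {S : Finset (α → V)}

/-- A deficient set receives a token arc. -/
lemma token_arc (hw : ∀ a b, H.Adj a b → w a b + w b a = M) (hs : ∀ a, ∑ b, w a b ≤ c)
    (hM : 0 < M) (hρ : (c : ℝ) ≤ (1 + κ) * M)
    (hinj₁ : Function.Injective φ₁) (hhom₁ : ∀ u v, F.Adj u v → H.Adj (φ₁ u) (φ₁ v))
    (hR₀' : ∀ u v, F.Adj u v → ArcT H w 1 (φ₁ u) (φ₁ v) → (u, v) ∈ R₀)
    {A N' : Finset α} (hdisj : Disjoint N' A)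
    (hd : (1 + κ) * (N'.card : ℝ) < (newE F A N').card) :
    ∃ u ∈ A, ∃ v ∈ N', (u, v) ∈ R₀ := by
  by_contra hcon
  push Not at hcon
  have h0 : ∀ u ∈ A, ∀ v ∈ N', F.Adj u v → w (φ₁ u) (φ₁ v) = 0 := by
    intro u hu v hv hadj
    by_contra hne
    exact hcon u hu v hv (hR₀' u v hadj ⟨hhom₁ u v hadj, Nat.one_le_iff_ne_zero.2 hne⟩)
  have hcap := capacity_w0 hw hs hdisj hinj₁ hhom₁ h0
  have hcap' : (M : ℝ) * (newE F A N').card ≤ c * N'.card := by exact_mod_cast hcap
  have hMpos : (0 : ℝ) < M := by exact_mod_cast hM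
  have h1 : (c : ℝ) * N'.card ≤ ((1 + κ) * M) * N'.card :=
    mul_le_mul_of_nonneg_right hρ (Nat.cast_nonneg _)
  have h2 : (M : ℝ) * (newE F A N').card ≤ M * ((1 + κ) * N'.card) := by
    calc (M : ℝ) * (newE F A N').card ≤ ((1 + κ) * M) * N'.card := hcap'.trans h1
      _ = _ := by ring
  have h3 := le_of_mul_le_mul_left h2 hMpos
  linarith

/-- The main walk: from any closed set containing the start, the rest of `W` is reached with
`J` token arcs, and `J` is controlled by the deficiency. -/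
theorem walk (hw : ∀ a b, H.Adj a b → w a b + w b a = M) (hs : ∀ a, ∑ b, w a b ≤ c)
    (hM : 0 < M) (hκ : 0 < κ) (hτ0 : 0 ≤ τ) (hτ : τ ≤ 1 / 8)
    (hρ : (c : ℝ) ≤ (1 + κ) * M) (hTτ : (T₁ : ℝ) ≤ τ * M) (hc₁1 : 1 ≤ c₁)
    (hc₁ : ∀ a, (univ.filter fun b => ArcT H w T₁ a b).card ≤ c₁)
    (hc₀ : ∀ a, (univ.filter fun b => ArcT H w 1 a b).card ≤ c₀)
    (hR₁F : ∀ u v, (u, v) ∈ R₁ → F.Adj u v)
    (hSR₁ : ∀ φ ∈ S, ∀ d ∈ R₁, ArcT H w T₁ (φ d.1) (φ d.2))
    (hSR₀ : ∀ φ ∈ S, ∀ d ∈ R₀, ArcT H w 1 (φ d.1) (φ d.2))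
    (hinj₁ : Function.Injective φ₁) (hhom₁ : ∀ u v, F.Adj u v → H.Adj (φ₁ u) (φ₁ v))
    (hR₁' : ∀ u v, F.Adj u v → ArcT H w T₁ (φ₁ u) (φ₁ v) → (u, v) ∈ R₁)
    (hR₀' : ∀ u v, F.Adj u v → ArcT H w 1 (φ₁ u) (φ₁ v) → (u, v) ∈ R₀)
    (hdef : ∀ A, D₀ ⊆ A → A ⊆ W → Cl R₁ W A → A ≠ W →
      (1 + κ) * ((W \ A).card : ℝ) < (newE F A (W \ A)).card)
    (k : ℕ) :
    ∀ A, (W \ A).card ≤ k → D₀ ⊆ A → A ⊆ W → Cl R₁ W A →
      ∃ J : ℕ, (S.image (proj W)).card ≤ c₁ ^ (W \ A).card * c₀ ^ J * (S.image (proj A)).card ∧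
        κ * J ≤ (1 + κ) * ((W \ A).card : ℝ) - (newE F A (W \ A)).card +
          ((8 / 3) * τ + (4 / 3) * κ) * (κ * ((W \ A).card : ℝ)) := by
  have hbase : ∀ A, A = W →
      ∃ J : ℕ, (S.image (proj W)).card ≤ c₁ ^ (W \ A).card * c₀ ^ J * (S.image (proj A)).card ∧
        κ * J ≤ (1 + κ) * ((W \ A).card : ℝ) - (newE F A (W \ A)).card +
          ((8 / 3) * τ + (4 / 3) * κ) * (κ * ((W \ A).card : ℝ)) := by
    rintro A rfl
    refine ⟨0, by simp, ?_⟩
    have h1 : newE F A (A \ A) = ∅ := by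
      unfold newE
      simp
    rw [h1]
    simp
  induction k with
  | zero =>
    intro A hk _ hAW _
    have h1 : W \ A = ∅ := Finset.card_eq_zero.1 (Nat.le_zero.1 hk)
    exact hbase A (Finset.Subset.antisymm hAW (Finset.sdiff_eq_empty_iff_subset.1 h1))
  | succ k ih =>
    intro A hk hD₀ hAW hCl
    by_cases hA : A = W
    · exact hbase A hA
    have hd := hdef A hD₀ hAW hCl hA
    obtain ⟨a, ha, b, hb, hab⟩ := token_arc (κ := κ) (A := A) (N' := W \ A) hw hs hM hρ hinj₁ hhom₁ hR₀'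
      Finset.sdiff_disjoint hd
    obtain ⟨hbW, hbA⟩ := Finset.mem_sdiff.1 hb
    have hins : insert b A ⊆ W := Finset.insert_subset hbW hAW
    obtain ⟨A', h1, h2, h3, h4⟩ := exists_closure R₁ hins
    have hAA' : A ⊆ A' := (Finset.subset_insert _ _).trans h1
    have hbA' : b ∈ A' := h1 (Finset.mem_insert_self _ _)
    set P := A' \ A with hP
    have hbP : b ∈ P := Finset.mem_sdiff.2 ⟨hbA', hbA⟩
    have hsplit : W \ A = P ∪ (W \ A') := by
      ext y
      simp only [hP, Finset.mem_sdiff, Finset.mem_union]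
      constructor
      · rintro ⟨h5, h6⟩
        by_cases h7 : y ∈ A'
        · exact Or.inl ⟨h7, h6⟩
        · exact Or.inr ⟨h5, h7⟩
      · rintro (⟨h5, h6⟩ | ⟨h5, h6⟩)
        · exact ⟨h2 h5, h6⟩
        · exact ⟨h5, fun h7 => h6 (hAA' h7)⟩
    have hdisjP : Disjoint P (W \ A') := by
      rw [Finset.disjoint_left]
      intro y hy hy'
      exact (Finset.mem_sdiff.1 hy').2 (Finset.mem_sdiff.1 hy).1
    have hcardsplit : (W \ A).card = P.card + (W \ A').card := by
      rw [hsplit]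
      exact Finset.card_union_of_disjoint hdisjP
    have hP1 : 1 ≤ P.card := Finset.card_pos.2 ⟨b, hbP⟩
    have hAP : A ∪ P = A' := by
      rw [hP]
      exact Finset.union_sdiff_of_subset hAA'
    obtain ⟨J', hJ1, hJ2⟩ := ih A' (by omega) (hD₀.trans hAA') h2 h3
    refine ⟨J' + 1, ?_, ?_⟩
    · -- the count
      have hg := grow_card (ArcT H w T₁) c₁ hc₁ S R₁ hSR₁ (W := A') (G₀ := insert b A)
        (fun D hGD hDW hDne => h4 D hGD hDW hDne) (insert b A) (Finset.Subset.refl _) h1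
      have hi := card_image_proj_insert (ArcT H w 1) c₀ hc₀ S (D := A) (u := a) (v := b) ha
        (fun φ hφ => hSR₀ φ hφ (a, b) hab)
      have hcard2 : (A' \ insert b A).card + 1 = P.card := by
        have h5 : A' \ insert b A = P.erase b := by
          ext y
          simp only [hP, Finset.mem_sdiff, Finset.mem_insert, Finset.mem_erase]
          tauto
        rw [h5, Finset.card_erase_add_one hbP]
      have hpow : c₁ ^ ((W \ A').card + (A' \ insert b A).card) ≤ c₁ ^ (W \ A).card :=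
        Nat.pow_le_pow_right hc₁1 (by omega)
      calc (S.image (proj W)).card
          ≤ c₁ ^ (W \ A').card * c₀ ^ J' * (S.image (proj A')).card := hJ1
        _ ≤ c₁ ^ (W \ A').card * c₀ ^ J' *
            (c₁ ^ (A' \ insert b A).card * (c₀ * (S.image (proj A)).card)) := by
            apply Nat.mul_le_mul_left
            exact hg.trans (Nat.mul_le_mul_left _ hi)
        _ = c₁ ^ ((W \ A').card + (A' \ insert b A).card) * c₀ ^ (J' + 1) *
            (S.image (proj A)).card := by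
            rw [pow_add, pow_succ]
            ring
        _ ≤ c₁ ^ (W \ A).card * c₀ ^ (J' + 1) * (S.image (proj A)).card := by
            apply Nat.mul_le_mul_right
            exact Nat.mul_le_mul_right _ hpow
    · -- the deficiency
      have hdPA : Disjoint P A := Finset.sdiff_disjoint
      have hcap := capacity_w (F := F) (T := T₁) (R := R₁) (E := A) (C := P) hw hs hdPA
        (fun u v huv hu hv => by
          obtain ⟨h5, h6⟩ := Finset.mem_sdiff.1 hv
          exact hCl u hu v (h2 h5) h6 huv)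
        hinj₁ hhom₁ hR₁'
      have hem : (eIn F P).card ≤ (newE F A P).card := Finset.card_le_card (eIn_subset_newE hdPA)
      have hpe : P.card ≤ (eIn F P).card + 1 := by
        refine conn_card (eIn F P) hbP ?_
        intro D hbD hDP hDne
        have hsub1 : insert b A ⊆ A ∪ D := by
          intro y hy
          rcases Finset.mem_insert.1 hy with rfl | hy
          · exact Finset.mem_union_right _ hbD
          · exact Finset.mem_union_left _ hy
        have hsub2 : A ∪ D ⊆ A' := by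
          intro y hy
          rcases Finset.mem_union.1 hy with hy | hy
          · exact hAA' hy
          · exact (Finset.mem_sdiff.1 (hDP hy)).1
        have hne2 : A ∪ D ≠ A' := by
          intro h5
          apply hDne
          apply Finset.Subset.antisymm hDP
          intro y hy
          obtain ⟨h6, h7⟩ := Finset.mem_sdiff.1 hy
          rw [← h5] at h6
          rcases Finset.mem_union.1 h6 with h8 | h8
          · exact absurd h8 h7
          · exact h8
        obtain ⟨u, hu, v, hv, huv⟩ := h4 _ hsub1 hsub2 hne2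
        obtain ⟨hvA', hvn⟩ := Finset.mem_sdiff.1 hv
        have hvA : v ∉ A := fun h5 => hvn (Finset.mem_union_left _ h5)
        have hvD : v ∉ D := fun h5 => hvn (Finset.mem_union_right _ h5)
        have huA : u ∉ A := fun h5 => hCl u h5 v (h2 hvA') hvA huv
        have huD : u ∈ D := (Finset.mem_union.1 hu).resolve_left huA
        have hvP : v ∈ P := Finset.mem_sdiff.2 ⟨hvA', hvA⟩
        exact ⟨u, huD, v, Finset.mem_sdiff.2 ⟨hvP, hvD⟩,
          mem_eIn_pair.2 ⟨hR₁F u v huv, hDP huD, hvP⟩⟩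
      have hMpos : (0 : ℝ) < M := by exact_mod_cast hM
      have hcapR : ((newE F A P).card : ℝ) ≤ (1 + κ) * P.card +
          τ * (((newE F A P).card : ℝ) - (eIn F P).card) := by
        have h5 : ((M * (newE F A P).card : ℕ) : ℝ) ≤
            ((c * P.card + T₁ * ((newE F A P).card - (eIn F P).card) : ℕ) : ℝ) := by
          exact_mod_cast hcap
        push_cast [Nat.cast_sub hem] at h5
        have hdiff : (0 : ℝ) ≤ ((newE F A P).card : ℝ) - (eIn F P).card := by
          have : ((eIn F P).card : ℝ) ≤ (newE F A P).card := by exact_mod_cast hem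
          linarith
        have h6 : (c : ℝ) * P.card ≤ ((1 + κ) * M) * P.card :=
          mul_le_mul_of_nonneg_right hρ (Nat.cast_nonneg _)
        have h7 : (T₁ : ℝ) * (((newE F A P).card : ℝ) - (eIn F P).card) ≤
            (τ * M) * (((newE F A P).card : ℝ) - (eIn F P).card) :=
          mul_le_mul_of_nonneg_right hTτ hdiff
        have h8 : (M : ℝ) * ((newE F A P).card : ℝ) ≤
            M * ((1 + κ) * P.card + τ * (((newE F A P).card : ℝ) - (eIn F P).card)) := by
          calc (M : ℝ) * ((newE F A P).card : ℝ) ≤ _ := h5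
            _ ≤ ((1 + κ) * M) * P.card + (τ * M) * (((newE F A P).card : ℝ) - (eIn F P).card) :=
                add_le_add h6 h7
            _ = _ := by ring
        exact le_of_mul_le_mul_left h8 hMpos
      have hpart := part_numeric hP1 hpe hem hκ hτ0 hτ hcapR
      have hnew : (newE F A (W \ A)).card = (newE F A P).card + (newE F A' (W \ A')).card := by
        rw [hsplit, newE_card_split, hAP]
      rw [hnew, hcardsplit]
      push_cast
      have h9 := add_le_add hJ2 hpart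
      refine le_trans (le_of_eq ?_) (h9.trans (le_of_eq ?_))
      · ring
      · ring

/-- The walk from the start. -/
theorem walk_top (hw : ∀ a b, H.Adj a b → w a b + w b a = M) (hs : ∀ a, ∑ b, w a b ≤ c)
    (hM : 0 < M) (hκ : 0 < κ) (hτ0 : 0 ≤ τ) (hτ : τ ≤ 1 / 8)
    (hρ : (c : ℝ) ≤ (1 + κ) * M) (hTτ : (T₁ : ℝ) ≤ τ * M) (hc₁1 : 1 ≤ c₁)
    (hc₁ : ∀ a, (univ.filter fun b => ArcT H w T₁ a b).card ≤ c₁)
    (hc₀ : ∀ a, (univ.filter fun b => ArcT H w 1 a b).card ≤ c₀)
    (hR₁F : ∀ u v, (u, v) ∈ R₁ → F.Adj u v)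
    (hSR₁ : ∀ φ ∈ S, ∀ d ∈ R₁, ArcT H w T₁ (φ d.1) (φ d.2))
    (hSR₀ : ∀ φ ∈ S, ∀ d ∈ R₀, ArcT H w 1 (φ d.1) (φ d.2))
    (hinj₁ : Function.Injective φ₁) (hhom₁ : ∀ u v, F.Adj u v → H.Adj (φ₁ u) (φ₁ v))
    (hR₁' : ∀ u v, F.Adj u v → ArcT H w T₁ (φ₁ u) (φ₁ v) → (u, v) ∈ R₁)
    (hR₀' : ∀ u v, F.Adj u v → ArcT H w 1 (φ₁ u) (φ₁ v) → (u, v) ∈ R₀)
    (hdef : ∀ A, D₀ ⊆ A → A ⊆ W → Cl R₁ W A → A ≠ W →
      (1 + κ) * ((W \ A).card : ℝ) < (newE F A (W \ A)).card)
    (hD₀W : D₀ ⊆ W) (hone : (S.image (proj D₀)).card ≤ 1) :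
    ∃ J : ℕ, (S.image (proj W)).card ≤ c₁ ^ (W \ D₀).card * c₀ ^ J ∧
      (J : ℝ) ≤ ((8 / 3) * τ + (4 / 3) * κ) * ((W \ D₀).card : ℝ) := by
  obtain ⟨A₁, h1, h2, h3, h4⟩ := exists_closure R₁ hD₀W
  obtain ⟨J, hJ1, hJ2⟩ := walk hw hs hM hκ hτ0 hτ hρ hTτ hc₁1 hc₁ hc₀ hR₁F hSR₁ hSR₀ hinj₁ hhom₁
    hR₁' hR₀' hdef (W \ A₁).card A₁ le_rfl h1 h2 h3
  have hg := grow_card (ArcT H w T₁) c₁ hc₁ S R₁ hSR₁ (W := A₁) (G₀ := D₀)
    (fun D hGD hDW hDne => h4 D hGD hDW hDne) D₀ (Finset.Subset.refl _) h1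
  have hsplit : (W \ D₀).card = (W \ A₁).card + (A₁ \ D₀).card := by
    have h5 : W \ D₀ = (W \ A₁) ∪ (A₁ \ D₀) := by
      ext y
      simp only [Finset.mem_sdiff, Finset.mem_union]
      constructor
      · rintro ⟨h6, h7⟩
        by_cases h8 : y ∈ A₁
        · exact Or.inr ⟨h8, h7⟩
        · exact Or.inl ⟨h6, h8⟩
      · rintro (⟨h6, h7⟩ | ⟨h6, h7⟩)
        · exact ⟨h6, fun h8 => h7 (h1 h8)⟩
        · exact ⟨h2 h6, h7⟩
    have h6 : Disjoint (W \ A₁) (A₁ \ D₀) := by
      rw [Finset.disjoint_left]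
      intro y hy hy'
      exact (Finset.mem_sdiff.1 hy).2 (Finset.mem_sdiff.1 hy').1
    rw [h5]
    exact Finset.card_union_of_disjoint h6
  refine ⟨J, ?_, ?_⟩
  · calc (S.image (proj W)).card
        ≤ c₁ ^ (W \ A₁).card * c₀ ^ J * (S.image (proj A₁)).card := hJ1
      _ ≤ c₁ ^ (W \ A₁).card * c₀ ^ J * (c₁ ^ (A₁ \ D₀).card * 1) := by
          apply Nat.mul_le_mul_left
          exact hg.trans (Nat.mul_le_mul_left _ hone)
      _ = c₁ ^ (W \ D₀).card * c₀ ^ J := by
          rw [hsplit, pow_add]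
          ring
  · have hneg : (1 + κ) * ((W \ A₁).card : ℝ) - (newE F A₁ (W \ A₁)).card ≤ 0 := by
      by_cases hA : A₁ = W
      · rw [hA]
        have h5 : newE F W (W \ W) = ∅ := by
          unfold newE
          simp
        rw [h5]
        simp
      · have := hdef A₁ h1 h2 h3 hA
        linarith
    have hθ : 0 ≤ (8 / 3) * τ + (4 / 3) * κ := by positivity
    have h5 : κ * J ≤ κ * (((8 / 3) * τ + (4 / 3) * κ) * ((W \ A₁).card : ℝ)) := by
      have : ((8 / 3) * τ + (4 / 3) * κ) * (κ * ((W \ A₁).card : ℝ)) =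
          κ * (((8 / 3) * τ + (4 / 3) * κ) * ((W \ A₁).card : ℝ)) := by ring
      linarith
    have h6 := le_of_mul_le_mul_left h5 hκ
    refine h6.trans ?_
    apply mul_le_mul_of_nonneg_left _ hθ
    rw [hsplit]
    push_cast
    have : (0 : ℝ) ≤ (A₁ \ D₀).card := Nat.cast_nonneg _
    linarith

end Walk

end Vale.Agent.Lib.P064U
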